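import Vale.Agent.P127.Defs

/-! # P127 Alg: planar algebra.  dt X Y = X1 Y2 - X2 Y1.  Identity: dt X Y * Dv + dt Y Dv * X + dt Dv X * Y = 0 (coordinatewise).
With A = dt X Dv, B = dt Y Dv, De = dt X Y the hypotheses say |A + De| at most th |A| + e n, |B - De| at most th |B| + e n (n = max norm of Dv). Put them in the identity De Dv + B X - A Y = 0, read it in the
coordinate where |Dv| = n, and use that X, Y are within th n of Dv: 3 |De| n (1 - small) is at most C e n^2. -/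

namespace Vale.Agent.P127

open Finset
open scoped Classical

theorem alg_co {De a b D X Y n : ℝ} (hid : De * (D + X + Y) = a * Y - b * X) (hD : |D| = n)
    (hn : 0 < n) (hX : |D - X| ≤ n / 100) (hY : |D - Y| ≤ n / 100) :
    298 * |De| ≤ 101 * (|a| + |b|) := by
  have x1 : |X| ≤ 101 / 100 * n := by
    have := abs_sub_abs_le_abs_sub X D
    rw [abs_sub_comm X D] at this
    linarith
  have y1 : |Y| ≤ 101 / 100 * n := by
    have := abs_sub_abs_le_abs_sub Y D
    rw [abs_sub_comm Y D] at this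
    linarith
  have s1 : 298 / 100 * n ≤ |D + X + Y| := by
    have h1 := abs_add_three (D + X + Y) (D - X) (D - Y)
    rw [show D + X + Y + (D - X) + (D - Y) = 3 * D by ring, abs_mul, abs_of_pos three_pos] at h1
    linarith
  have s2 : |De| * |D + X + Y| ≤ |a| * |Y| + |b| * |X| := by
    rw [← abs_mul, ← abs_mul, ← abs_mul, hid]
    exact abs_sub _ _
  have s3 := mul_le_mul_of_nonneg_left s1 (abs_nonneg De)
  have s4 := mul_le_mul_of_nonneg_left y1 (abs_nonneg a)
  have s5 := mul_le_mul_of_nonneg_left x1 (abs_nonneg b)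
  refine le_of_mul_le_mul_right ?_ hn
  linarith

theorem alg {X1 X2 Y1 Y2 D1 D2 θ e n : ℝ} (hθ0 : 0 ≤ θ) (hθ : θ ≤ 1 / 100) (he : 0 ≤ e)
    (hn : n = max |D1| |D2|) (hX1 : |D1 - X1| ≤ θ * n) (hX2 : |D2 - X2| ≤ θ * n)
    (hY1 : |D1 - Y1| ≤ θ * n) (hY2 : |D2 - Y2| ≤ θ * n)
    (h1 : |(X1 * D2 - X2 * D1) + (X1 * Y2 - X2 * Y1)| ≤ θ * |X1 * D2 - X2 * D1| + e * n)
    (h2 : |(Y1 * D2 - Y2 * D1) - (X1 * Y2 - X2 * Y1)| ≤ θ * |Y1 * D2 - Y2 * D1| + e * n) :
    |X1 * D2 - X2 * D1| ≤ 4 * e * n := by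
  have n0 : 0 ≤ n := hn ▸ le_max_of_le_left (abs_nonneg _)
  rcases n0.eq_or_lt with z | np
  · have d1 : D1 = 0 := abs_nonpos_iff.1 (by rw [z, hn]; exact le_max_left _ _)
    have d2 : D2 = 0 := abs_nonpos_iff.1 (by rw [z, hn]; exact le_max_right _ _)
    rw [d1, d2, ← z]
    simp
  have t : θ * n ≤ n / 100 := by
    have := mul_le_mul_of_nonneg_right hθ n0
    linarith
  have key : 298 * |X1 * Y2 - X2 * Y1| ≤ 101 * (|(X1 * D2 - X2 * D1) + (X1 * Y2 - X2 * Y1)| +
      |(Y1 * D2 - Y2 * D1) - (X1 * Y2 - X2 * Y1)|) := by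
    rcases max_choice |D1| |D2| with m | m
    · exact alg_co (D := D1) (X := X1) (Y := Y1) (by ring) (by rw [hn, m]) np (hX1.trans t)
        (hY1.trans t)
    · exact alg_co (D := D2) (X := X2) (Y := Y2) (by ring) (by rw [hn, m]) np (hX2.trans t)
        (hY2.trans t)
  generalize X1 * D2 - X2 * D1 = A at *
  generalize Y1 * D2 - Y2 * D1 = B at *
  generalize X1 * Y2 - X2 * Y1 = De at *
  have a1 : |A| ≤ |A + De| + |De| := by
    have := abs_sub (A + De) De
    rwa [add_sub_cancel_right] at this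
  have b1 : |B| ≤ |B - De| + |De| := by
    have := abs_add_le (B - De) De
    rwa [sub_add_cancel] at this
  have a2 := mul_le_mul_of_nonneg_right hθ (abs_nonneg A)
  have b2 := mul_le_mul_of_nonneg_right hθ (abs_nonneg B)
  have en : 0 ≤ e * n := mul_nonneg he n0
  linarith

end Vale.Agent.P127
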