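import Vale.Agent.P127.Comb

/-! # P127 Api: monotonicity, restriction, linear algebra of the projections, asymptotic bookkeeping. -/

namespace Vale.Agent.P127

open Finset
open scoped Classical

variable {D : ℕ}

theorem mv_add (A : Mt D) (v w : V D) : mv A (v + w) = mv A v + mv A w := by
  funext i
  simp [mv, mul_add, Finset.sum_add_distrib]

theorem mv_sub (A : Mt D) (v w : V D) : mv A (v - w) = mv A v - mv A w := by
  funext i
  simp [mv, mul_sub, Finset.sum_sub_distrib]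

theorem mv_smul (A : Mt D) (t : ℝ) (v : V D) : mv A (t • v) = t • mv A v := by
  funext i
  simp [mv, Finset.mul_sum, mul_left_comm]

theorem add_mv (A B : Mt D) (v : V D) : mv (A + B) v = mv A v + mv B v := by
  funext i
  simp [mv, add_mul, Finset.sum_add_distrib]

theorem sub_mv (A B : Mt D) (v : V D) : mv (A - B) v = mv A v - mv B v := by
  funext i
  simp [mv, sub_mul, Finset.sum_sub_distrib]

theorem smul_mv (t : ℝ) (A : Mt D) (v : V D) : mv (t • A) v = t • mv A v := by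
  funext i
  simp [mv, Finset.mul_sum, mul_assoc]

theorem norm_mv (A : Mt D) (v : V D) : ‖mv A v‖ ≤ D * ‖A‖ * ‖v‖ := by
  refine (pi_norm_le_iff_of_nonneg (by positivity)).2 fun i => (norm_sum_le _ _).trans ?_
  have h : ∀ j ∈ (univ : Finset (Fin D)), ‖A i j * v j‖ ≤ ‖A‖ * ‖v‖ := fun j _ => by
    rw [norm_mul]
    exact mul_le_mul ((norm_le_pi_norm (A i) j).trans (norm_le_pi_norm A i)) (norm_le_pi_norm v j)
      (norm_nonneg _) (norm_nonneg _)
  refine (Finset.sum_le_card_nsmul _ _ _ h).trans (le_of_eq ?_)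
  simp [mul_assoc]

theorem Gr.norm_le {S : Finset (Fin D)} {P : ℝ → Mt D} (h : Gr S P) (z : ℝ) : ‖P z‖ ≤ 2 ^ D := by
  refine (pi_norm_le_iff_of_nonneg (by positivity)).2 fun i =>
    (pi_norm_le_iff_of_nonneg (by positivity)).2 fun j => ((h z).2.2 i j).trans ?_
  exact pow_le_pow_right₀ one_le_two (Nat.sub_le _ _)

/-- a vector is controlled by its projection and its coordinates outside `S` -/
theorem Gr.norm_le_of {S : Finset (Fin D)} {P : ℝ → Mt D} (h : Gr S P) (z : ℝ) (v : V D) {b : ℝ}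
    (hb0 : 0 ≤ b) (hb : ∀ j ∉ S, |v j| ≤ b) : ‖v‖ ≤ ‖mv (P z) v‖ + (1 + D * 2 ^ D) * b := by
  have h0 : (0 : ℝ) ≤ D * 2 ^ D * b := by positivity
  refine (pi_norm_le_iff_of_nonneg (by positivity)).2 fun i => ?_
  by_cases hi : i ∈ S
  · let w : V D := fun j => if j ∈ S then 0 else v j
    have hw : ‖w‖ ≤ b := (pi_norm_le_iff_of_nonneg hb0).2 fun j => by
      by_cases hj : j ∈ S
      · simpa [w, hj] using hb0
      · simpa [w, hj] using hb j hj
    have h1 : ‖mv (P z) w‖ ≤ D * 2 ^ D * b :=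
      (norm_mv _ _).trans (by gcongr; exact h.norm_le z)
    have h2 : v i = mv (P z) v i - mv (P z) w i := by
      unfold mv
      rw [← Finset.sum_sub_distrib, Finset.sum_eq_single i]
      · simp [w, hi, (h z).2.1 i hi i hi]
      · intro j _ hj
        by_cases hjS : j ∈ S
        · simp [w, hjS, (h z).2.1 i hi j hjS, hj.symm]
        · simp [w, hjS]
      · simp
    have h3 := norm_sub_le (mv (P z) v i) (mv (P z) w i)
    rw [h2]
    linarith [norm_le_pi_norm (mv (P z) v) i, norm_le_pi_norm (mv (P z) w) i]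
  · have := hb i hi
    rw [Real.norm_eq_abs]
    linarith [norm_nonneg (mv (P z) v)]

theorem Pre.mono {c : Cfg D} {N H K K' : ℝ} (h : Pre c N H K) (hN : 0 < N) (hH : 0 < H)
    (hK : 0 < K) (hK' : K ≤ K') : Pre c N H K' := by
  have := h.nL_pos
  refine ⟨h.sub, h.nL_pos, h.bx, h.be, h.bz, fun a r hr => (h.hts a r hr).trans ?_,
    fun p r hr => (h.dirs p r hr).trans ?_, le_trans (by gcongr) h.mass⟩
  · have : 0 < r := lt_of_lt_of_le (by positivity) hr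
    gcongr
  · have : 0 < r := lt_of_lt_of_le (by positivity) hr
    gcongr

theorem Good.res {c : Cfg D} {N H K K' : ℝ} (h : Good c N H K) (hN : 0 < N) (hH : 0 < H)
    (hK : 0 < K) (hK' : K ≤ K') {E' : Finset (ℕ × ℝ)} (hE : E' ⊆ c.E)
    (hm : c.nL * H / K' ≤ E'.card) : Good (c.res E') N H K' := by
  have h1 := h.toPre.mono hN hH hK hK'
  exact ⟨⟨hE.trans h.sub, h1.nL_pos, h1.bx, h1.be, h1.bz, h1.hts, h1.dirs, hm⟩,
    fun p r h2 h3 => (h.st p r h2 h3).trans hK'⟩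

theorem Good.mono {c : Cfg D} {N H K K' : ℝ} (h : Good c N H K) (hN : 0 < N) (hH : 0 < H)
    (hK : 0 < K) (hK' : K ≤ K') : Good c N H K' := by
  exact h.res hN hH hK hK' Subset.rfl (h.toPre.mono hN hH hK hK').mass

theorem Reg.res {σ : ℝ} {m : ℕ} {d : Dat D} {N H K K' : ℝ} (h : Reg σ m d N H K) (hN : 0 < N)
    (hH : 0 < H) (hK : 0 < K) (hK' : K ≤ K') {E' : Finset (ℕ × ℝ)} (hE : E' ⊆ d.c.E)
    (hm : d.c.nL * H / K' ≤ E'.card) : Reg σ m (d.res E') N H K' := by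
  have := h.good.nL_pos
  refine ⟨h.card_S, h.good.res hN hH hK hK' hE hm, h.gr, h.sig0, h.sigm,
    fun z α β p q h1 h2 h3 => le_trans ?_ ((h.r1 z α β p q h1 h2 h3).trans ?_),
    fun z α β p q h1 h2 h3 => le_trans ?_ ((h.r2 z α β p q h1 h2 h3).trans ?_),
    fun z α β q h1 h2 h3 => le_trans ?_ ((h.r3 z α β q h1 h2 h3).trans ?_)⟩
  · exact Nat.cast_le.2 (card_le_card (monotone_filter_right _ fun i _ hi => ⟨hE hi.1, hi.2⟩))
  · have hβ : 0 < β := lt_of_lt_of_le (by positivity) h1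
    have hα : 0 < α := hβ.trans_le h2
    show _ ≤ K' * d.c.nL * β ^ ((D : ℝ) - σ) * α ^ σ
    gcongr
  · exact Nat.cast_le.2 (card_le_card (image_subset_image (filter_subset_filter _ hE)))
  · have hβ : 0 < β := lt_of_lt_of_le (by positivity) h1
    have hα : 0 < α := hβ.trans_le h2
    gcongr
  · exact Nat.cast_le.2 (card_le_card (image_subset_image (filter_subset_filter _ hE)))
  · have hβ : 0 < β := lt_of_lt_of_le (by positivity) h1
    have hα : 0 < α := hβ.trans_le h2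
    gcongr

theorem Reg.mono {σ : ℝ} {m : ℕ} {d : Dat D} {N H K K' : ℝ} (h : Reg σ m d N H K) (hN : 0 < N)
    (hH : 0 < H) (hK : 0 < K) (hK' : K ≤ K') : Reg σ m d N H K' := by
  exact h.res hN hH hK hK' Subset.rfl (h.good.toPre.mono hN hH hK hK').mass

/-- `κ` plays no role in `Reg` -/
theorem Reg.setκ {σ : ℝ} {m : ℕ} {d : Dat D} {N H K : ℝ} (h : Reg σ m d N H K) (κ : ℤ → Mt D) :
    Reg σ m { d with κ := κ } N H K := by
  exact ⟨h.card_S, h.good, h.gr, h.sig0, h.sigm, h.r1, h.r2, h.r3⟩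

theorem Pre.cardL {c : Cfg D} {N H K : ℝ} (h : Pre c N H K) (hN : 1 ≤ N) :
    (c.L.card : ℝ) ≤ K * c.nL := by
  have h1 := h.dirs 0 1 ((div_le_one (by linarith)).2 hN)
  rwa [filter_true_of_mem fun i hi => by simpa using h.be i hi, one_pow, mul_one] at h1

theorem Pre.cardZ {c : Cfg D} {N H K : ℝ} (h : Pre c N H K) (hH : 1 ≤ H) :
    (c.Z.card : ℝ) ≤ K * H := by
  have h1 := h.hts 0 1 ((div_le_one (by linarith)).2 hH)
  rwa [filter_true_of_mem fun z hz => by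
    rw [sub_zero, abs_of_nonneg (h.bz z hz).1]; exact (h.bz z hz).2, mul_one] at h1

theorem Pre.norm_pos {c : Cfg D} {N H K : ℝ} (h : Pre c N H K) {ω : ℕ × ℝ} (hω : ω ∈ c.E) :
    ‖c.pos ω‖ ≤ 2 := by
  obtain ⟨h1, h2⟩ := mem_product.1 (h.sub hω)
  refine (norm_add_le _ _).trans ?_
  rw [norm_smul, Real.norm_of_nonneg (h.bz _ h2).1]
  have := mul_le_mul (h.bz _ h2).2 (h.be _ h1) (norm_nonneg _) zero_le_one
  linarith [h.bx _ h1]

theorem Pre.nonempty {c : Cfg D} {N H K : ℝ} (h : Pre c N H K) (hH : 0 < H) (hK : 0 < K) :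
    c.E.Nonempty := by
  have := h.nL_pos
  have h1 : (0 : ℝ) < c.E.card := lt_of_lt_of_le (by positivity) h.mass
  exact card_pos.1 (Nat.cast_pos.1 h1)

theorem pos_shift (c : Cfg D) (i : ℕ) (z z' : ℝ) :
    c.pos (i, z') = c.pos (i, z) + (z' - z) • c.e i := by
  simp only [Cfg.pos, sub_smul]
  abel

theorem S1.res {σ : ℝ} {m : ℕ} {d : Dat D} {N K K' : ℝ} (h : S1 σ m d N K) (hN : 1 ≤ N)
    (hK : 0 < K) (hK' : K ≤ K') {E' : Finset (ℕ × ℝ)} (hE : E' ⊆ d.c.E)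
    (hm : d.c.nL * N / K' ≤ E'.card) : S1 σ m (d.res E') N K' := by
  have h0 : 0 < N := by linarith
  refine ⟨h.1.res h0 h0 hK hK' hE hm, fun ω h1 ω' h2 h3 => (h.2 ω (hE h1) ω' (hE h2) h3).trans ?_⟩
  exact mul_le_mul_of_nonneg_right hK' (by positivity)

theorem S2.res {σ : ℝ} {m : ℕ} {d : Dat D} {N K K' : ℝ} (h : S2 σ m d N K) (hN : 1 ≤ N)
    (hK : 0 < K) (hK' : K ≤ K') {E' : Finset (ℕ × ℝ)} (hE : E' ⊆ d.c.E)
    (hm : d.c.nL * N ^ (1 / 3 : ℝ) / K' ≤ E'.card) : S2 σ m (d.res E') N K' := by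
  have h0 : 0 < N := by linarith
  refine ⟨h.1.res h0 (by positivity) hK hK' hE hm,
    fun ω h1 ω' h2 h3 => (h.2.1 ω (hE h1) ω' (hE h2) h3).trans ?_,
    fun ω h1 ω' h2 => (h.2.2 ω (hE h1) ω' (hE h2)).trans ?_⟩
  · exact mul_le_mul_of_nonneg_right hK' (by positivity)
  · exact mul_le_mul_of_nonneg_right hK' (by positivity)

theorem S3.res {a σ : ℝ} {m : ℕ} {d : Dat D} {N K K' : ℝ} (h : S3 a σ m d N K) (hN : 1 ≤ N)
    (hK : 0 < K) (hK' : K ≤ K') {E' : Finset (ℕ × ℝ)} (hE : E' ⊆ d.c.E)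
    (hm : d.c.nL * N ^ (1 / 3 : ℝ) / K' ≤ E'.card) : S3 a σ m (d.res E') N K' := by
  exact ⟨h.1.res hN hK hK' hE hm, h.2.1, fun n => (h.2.2.1 n).trans hK',
    fun ω h1 ω' h2 => h.2.2.2 ω (hE h1) ω' (hE h2)⟩

theorem S4.res {a σ : ℝ} {m : ℕ} {d : Dat D} {N K K' : ℝ} (h : S4 a σ m d N K) (hN : 1 ≤ N)
    (hK : 0 < K) (hK' : K ≤ K') {E' : Finset (ℕ × ℝ)} (hE : E' ⊆ d.c.E)
    (hm : d.c.nL * N ^ (1 / 3 : ℝ) / K' ≤ E'.card) : S4 a σ m (d.res E') N K' := by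
  exact ⟨h.1.res hN hK hK' hE hm, fun ω h1 ω' h2 => h.2 ω (hE h1) ω' (hE h2)⟩

theorem S5.res {a σ : ℝ} {m : ℕ} {d : Dat D} {N K K' : ℝ} (h : S5 a σ m d N K) (hN : 1 ≤ N)
    (hK : 0 < K) (hK' : K ≤ K') {E' : Finset (ℕ × ℝ)} (hE : E' ⊆ d.c.E)
    (hm : d.c.nL * N ^ (1 / 3 : ℝ) / K' ≤ E'.card) : S5 a σ m (d.res E') N K' := by
  have h0 : 0 < N := by linarith
  refine ⟨h.1.res hN hK hK' hE hm, fun ω h1 ω' h2 h3 => (h.2 ω (hE h1) ω' (hE h2) h3).trans ?_⟩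
  exact mul_le_mul_of_nonneg_right hK' (by positivity)

/-- bookkeeping: `C * K ^ c ≤ N ^ b` for `K = N ^ ε`, `ε` small and `N` large -/
theorem small (C : ℝ) (c : ℕ) {b : ℝ} (hb : 0 < b) : ∃ ε0 > (0 : ℝ), ∃ N0 : ℝ, ∀ ε, 0 < ε → ε ≤ ε0 →
    ∀ N ≥ N0, 2 ≤ N ∧ C * (N ^ ε) ^ c ≤ N ^ b := by
  obtain ⟨N0, h0⟩ := Filter.eventually_atTop.1 (((tendsto_rpow_atTop (half_pos hb)).eventually
    (Filter.eventually_ge_atTop C)).and (Filter.eventually_ge_atTop (2 : ℝ)))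
  refine ⟨b / 2 / (c + 1), by positivity, N0, fun ε hε hε0 N hN => ⟨(h0 N hN).2, ?_⟩⟩
  obtain ⟨h1, h2⟩ := h0 N hN
  have hN0 : 0 < N := by linarith
  have h3 : ε * c ≤ b / 2 := by
    rw [le_div_iff₀ (by positivity)] at hε0
    nlinarith
  have h4 : (N ^ ε) ^ c ≤ N ^ (b / 2) := by
    rw [← Real.rpow_mul_natCast hN0.le]
    exact Real.rpow_le_rpow_of_exponent_le (by linarith) h3
  calc C * (N ^ ε) ^ c ≤ N ^ (b / 2) * N ^ (b / 2) :=
        mul_le_mul h1 h4 (by positivity) (by positivity)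
    _ = N ^ b := by rw [← Real.rpow_add hN0, add_halves]

/-- `K = N ^ ε` dominates constants and logarithms -/
theorem big (C : ℝ) {ε : ℝ} (hε : 0 < ε) : ∃ N0 : ℝ, ∀ N ≥ N0,
    2 ≤ N ∧ C ≤ N ^ ε ∧ C * (Real.logb 2 N + 2) ≤ N ^ ε := by
  have hl : 0 < Real.log 2 := Real.log_pos one_lt_two
  obtain ⟨N0, h0⟩ := Filter.eventually_atTop.1 ((((tendsto_rpow_atTop hε).eventually
    (Filter.eventually_ge_atTop (4 * |C|))).and (Filter.eventually_ge_atTop (2 : ℝ))).and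
    ((isLittleO_log_rpow_atTop hε).bound (c := Real.log 2 / (2 * (|C| + 1))) (by positivity)))
  refine ⟨N0, fun N hN => ?_⟩
  obtain ⟨⟨h1, h2⟩, h3⟩ := h0 N hN
  have h4 : 0 ≤ Real.log N := Real.log_nonneg (by linarith)
  have h5 : 0 < N ^ ε := Real.rpow_pos_of_pos (by linarith) ε
  have h6 := abs_nonneg C
  have h7 := le_abs_self C
  rw [Real.norm_of_nonneg h4, Real.norm_of_nonneg h5.le, div_mul_eq_mul_div,
    le_div_iff₀ (by positivity)] at h3
  have h8 : Real.logb 2 N * (2 * (|C| + 1)) ≤ N ^ ε := by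
    rw [Real.logb, div_mul_eq_mul_div, div_le_iff₀ hl]
    linarith
  have h9 : 0 ≤ Real.logb 2 N := div_nonneg h4 hl.le
  refine ⟨h2, by linarith, ?_⟩
  nlinarith [mul_le_mul_of_nonneg_right h7 h9]

end Vale.Agent.P127
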