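import Vale.Agent.P127.Api

/-! # P127 Api2: the regularity bounds for dilated balls, and two lines through one point.
All proofs: cover the dilated ball by cells of the undilated radius (cover, cover_z), bound each part by r1, r2, r3 (centre = any point of the part or the corner of the cell).
rpA: a cell of u of side b' and the cells of the D - m coordinates outside S determine pos up to C b' (Gr.norm_le_of). ruA: cover by cells of pos of side b', each has mass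
at most K nL b'^(D - sigma) by r1 with alpha = 1, p = 0. spread: the lines of F lie in at most C K N^(D - sigma) cells of side 1/N (rpA, beta = 1, A = 2), take the heaviest cell; if all
directions there are within gamma of one of them, r1 (alpha = gamma, beta = 1/N) bounds its mass by K nL N^(-(D - sigma)) gamma^sigma. -/

namespace Vale.Agent.P127

open Finset
open scoped Classical

/-- the values of `f` on `E` lie in a set of at most `R` elements -/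
def CovA2 {Ω β : Type} (E : Finset Ω) (f : Ω → β) (R : ℝ) : Prop :=
  ∃ T : Finset β, (T.card : ℝ) ≤ R ∧ ∀ ω ∈ E, f ω ∈ T

theorem CovA2.pair {Ω β γ : Type} {E : Finset Ω} {f : Ω → β} {g : Ω → γ} {R R' : ℝ}
    (h : CovA2 E f R) (h' : CovA2 E g R') : CovA2 E (fun ω => (f ω, g ω)) (R * R') := by
  obtain ⟨T, hT, hf⟩ := h
  obtain ⟨T', hT', hg⟩ := h'
  refine ⟨T ×ˢ T', ?_, fun ω hω => mem_product.2 ⟨hf ω hω, hg ω hω⟩⟩
  rw [card_product, Nat.cast_mul]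
  exact mul_le_mul hT hT' (Nat.cast_nonneg _) ((Nat.cast_nonneg _).trans hT)

theorem cov_cell_A2 {Ω n : Type} [Fintype n] (E : Finset Ω) (a : Ω → n → ℝ) (q : n → ℝ) {β A : ℝ}
    (hβ : 0 < β) (hA : 1 ≤ A) (h : ∀ ω ∈ E, ‖a ω - q‖ ≤ A * β) :
    CovA2 E (fun ω => cell β (a ω)) ((4 * A) ^ Fintype.card n) := by
  refine ⟨_, (cover E a q hβ (by positivity) h).trans ?_, fun ω hω => mem_image_of_mem _ hω⟩
  have e : 2 * (A * β) / β + 2 = 2 * A + 2 := by field_simp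
  rw [e]
  exact pow_le_pow_left₀ (by positivity) (by linarith) _

theorem cov_z_A2 {Ω : Type} (E : Finset Ω) (a : Ω → ℝ) (q : ℝ) {β A : ℝ}
    (hβ : 0 < β) (hA : 1 ≤ A) (h : ∀ ω ∈ E, |a ω - q| ≤ A * β) :
    CovA2 E (fun ω => cz β (a ω)) (4 * A) := by
  refine ⟨_, (cover_z E a q hβ (by positivity) h).trans ?_, fun ω hω => mem_image_of_mem _ hω⟩
  have e : 2 * (A * β) / β + 2 = 2 * A + 2 := by field_simp
  rw [e]
  linarith

theorem img_A2 {Ω β γ : Type} [DecidableEq γ] {E : Finset Ω} {f : Ω → β} (g : Ω → γ) {R M : ℝ}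
    (hM : 0 ≤ M) (hR : CovA2 E f R)
    (h : ∀ ω ∈ E, ∃ T : Finset γ, (T.card : ℝ) ≤ M ∧ ∀ ω' ∈ E, f ω' = f ω → g ω' ∈ T) :
    ((E.image g).card : ℝ) ≤ R * M := by
  obtain ⟨T, hT, hf⟩ := hR
  have h1 := image_le_mul E f g (M := M) fun ω hω => by
    obtain ⟨T', hT', hg⟩ := h ω hω
    refine le_trans (Nat.cast_le.2 (card_le_card fun y hy => ?_)) hT'
    simp only [mem_image, mem_filter] at hy
    obtain ⟨ω', ⟨h1, h2⟩, rfl⟩ := hy
    exact hg ω' h1 h2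
  have h2 : ((E.image f).card : ℝ) ≤ R := by
    refine le_trans (Nat.cast_le.2 (card_le_card fun y hy => ?_)) hT
    simp only [mem_image] at hy
    obtain ⟨ω, h1, rfl⟩ := hy
    exact hf ω h1
  refine le_trans (le_of_eq ?_) (h1.trans (mul_le_mul_of_nonneg_right h2 hM))
  congr
  exact Subsingleton.elim _ _

theorem fib_A2 {Ω β : Type} {E : Finset Ω} {f : Ω → β} {R M : ℝ} (hM : 0 ≤ M) (hR : CovA2 E f R)
    (h : ∀ ω ∈ E, ∃ T : Finset Ω, (T.card : ℝ) ≤ M ∧ ∀ ω' ∈ E, f ω' = f ω → ω' ∈ T) :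
    (E.card : ℝ) ≤ R * M := by
  have := img_A2 (E := E) (f := f) id hM hR h
  rwa [image_id] at this

theorem Reg.K_nonneg_A2 {D : ℕ} {σ : ℝ} {m : ℕ} {d : Dat D} {N H K : ℝ} (h : Reg σ m d N H K)
    (hN : 1 ≤ N) : 0 ≤ K := by
  have h1 := h.r3 0 1 1 0 ((div_le_one (by linarith)).2 hN) le_rfl le_rfl
  rw [div_one, Real.one_rpow, mul_one] at h1
  exact (Nat.cast_nonneg _).trans h1

theorem pos_A2 {N b : ℝ} (hN : 1 ≤ N) (h : 1 / N ≤ b) : 0 < b :=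
  lt_of_lt_of_le (by positivity) h

theorem ry_A2 {D : ℕ} {d : Dat D} (hg : Gr d.S d.P) (E : Finset (ℕ × ℝ)) {A B z β β' : ℝ}
    {q q' : V D} (hA : 1 ≤ A) (hB : 1 ≤ B) (h0 : 0 < β') (h1 : β' ≤ β)
    (hE : ∀ ω ∈ E, ω.2 = z ∧ ‖d.u ω - q‖ ≤ A * β' ∧ ‖d.c.pos ω - q'‖ ≤ B * β) :
    ((E.image fun ω => cell β' (d.c.pos ω)).card : ℝ) ≤
      (4 * 4 * (3 + D * 2 ^ D)) ^ D * A ^ D * B ^ D * (β / β') ^ (D - d.S.card) := by
  have hr : 1 ≤ β / β' := (one_le_div h0).2 h1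
  have hc := cov_cell_A2 E (fun ω (j : {j // j ∉ d.S}) => d.c.pos ω j)
    (fun j => q' j) (A := B * (β / β')) h0 (one_le_mul_of_one_le_of_one_le hB hr) fun ω hω => by
      have e : B * (β / β') * β' = B * β := by field_simp
      rw [e]
      refine (pi_norm_le_iff_of_nonneg (by have := h0.le.trans h1; positivity)).2 fun j => ?_
      exact (norm_le_pi_norm (d.c.pos ω - q') j.1).trans (hE ω hω).2.2
  have ec : Fintype.card {j // j ∉ d.S} = D - d.S.card := by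
    simp
  rw [ec] at hc
  have hcA : 1 ≤ (3 + D * 2 ^ D : ℝ) * A :=
    one_le_mul_of_one_le_of_one_le (by have : (0 : ℝ) ≤ D * 2 ^ D := by positivity
                                       linarith) hA
  have h2 := img_A2 (fun ω => cell β' (d.c.pos ω)) (M := (4 * ((3 + D * 2 ^ D) * A)) ^ D)
    (by positivity) hc fun ω hω => by
      obtain ⟨T, hT, hm⟩ := cov_cell_A2 (E.filter fun ω' =>
          cell β' (fun j : {j // j ∉ d.S} => d.c.pos ω' j) =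
            cell β' (fun j : {j // j ∉ d.S} => d.c.pos ω j)) d.c.pos (d.c.pos ω) h0 hcA
        fun ω' hω' => by
          obtain ⟨hω1, hω2⟩ := mem_filter.1 hω'
          have a1 := cell_close h0 hω2
          have a2 := hg.norm_le_of z (d.c.pos ω' - d.c.pos ω) h0.le fun j hj =>
            (norm_le_pi_norm ((fun j : {j // j ∉ d.S} => d.c.pos ω' j) -
              fun j : {j // j ∉ d.S} => d.c.pos ω j) ⟨j, hj⟩).trans a1
          have a3 : mv (d.P z) (d.c.pos ω' - d.c.pos ω) = (d.u ω' - q) - (d.u ω - q) := by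
            rw [mv_sub, Dat.u, Dat.u, (hE ω hω).1, (hE ω' hω1).1]
            abel
          have a4 := norm_sub_le (d.u ω' - q) (d.u ω - q)
          have a5 := (hE ω hω).2.1
          have a6 := (hE ω' hω1).2.1
          have a7 : (1 + D * 2 ^ D) * β' * 1 ≤ (1 + D * 2 ^ D) * β' * A :=
            mul_le_mul_of_nonneg_left hA (by positivity)
          rw [a3] at a2
          nlinarith
      rw [Fintype.card_fin] at hT
      exact ⟨T, hT, fun ω' h1 h2 => hm ω' (mem_filter.2 ⟨h1, h2⟩)⟩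
  refine h2.trans ?_
  have b1 : (4 * B) ^ (D - d.S.card) ≤ (4 * B) ^ D :=
    pow_le_pow_right₀ (by linarith) (Nat.sub_le _ _)
  calc (4 * (B * (β / β'))) ^ (D - d.S.card) * (4 * ((3 + D * 2 ^ D) * A)) ^ D
      = (4 * B) ^ (D - d.S.card) * ((β / β') ^ (D - d.S.card) *
          (4 * ((3 + D * 2 ^ D) * A)) ^ D) := by rw [← mul_assoc 4 B, mul_pow (4 * B), mul_assoc]
    _ ≤ (4 * B) ^ D * ((β / β') ^ (D - d.S.card) * (4 * ((3 + D * 2 ^ D) * A)) ^ D) :=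
        mul_le_mul_of_nonneg_right b1 (by positivity)
    _ = _ := by simp only [mul_pow]; ring

theorem cst_A2 (D : ℕ) : (1 : ℝ) ≤ (4 * 4 * (3 + D * 2 ^ D)) ^ D :=
  one_le_pow₀ (by have : (0 : ℝ) ≤ D * 2 ^ D := by positivity
                  linarith)

theorem r1A (D : ℕ) : ∃ C ≥ (1 : ℝ), ∀ {σ : ℝ} {m : ℕ} {d : Dat D} {N H K : ℝ}, Reg σ m d N H K →
    1 ≤ N → ∀ (A z α β : ℝ) (p q : V D), 1 ≤ A → 1 / N ≤ β → β ≤ α → α ≤ 1 →
    ((d.c.L.filter fun i => (i, z) ∈ d.c.E ∧ ‖d.c.e i - p‖ ≤ A * α ∧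
      ‖d.c.pos (i, z) - q‖ ≤ A * β).card : ℝ) ≤
      C * A ^ (2 * D) * K * d.c.nL * β ^ ((D : ℝ) - σ) * α ^ σ := by
  refine ⟨4 ^ D * 4 ^ D, one_le_mul_of_one_le_of_one_le (one_le_pow₀ (by norm_num))
    (one_le_pow₀ (by norm_num)), ?_⟩
  intro σ m d N H K h hN A z α β p q hA h1 h2 h3
  have hK := h.K_nonneg_A2 hN
  have hβ := pos_A2 hN h1
  have hα := hβ.trans_le h2
  have hn := h.good.nL_pos
  set F := d.c.L.filter fun i => (i, z) ∈ d.c.E ∧ ‖d.c.e i - p‖ ≤ A * α ∧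
    ‖d.c.pos (i, z) - q‖ ≤ A * β with hF
  have c1 := cov_cell_A2 F d.c.e p hα hA fun i hi => (mem_filter.1 hi).2.2.1
  have c2 := cov_cell_A2 F (fun i => d.c.pos (i, z)) q hβ hA fun i hi => (mem_filter.1 hi).2.2.2
  have h4 := fib_A2 (M := K * d.c.nL * β ^ ((D : ℝ) - σ) * α ^ σ) (by positivity) (c1.pair c2)
    fun i _ => ⟨_, h.r1 z α β (d.c.e i) (d.c.pos (i, z)) h1 h2 h3, fun i' hi' he => by
      obtain ⟨a1, a2, -⟩ := mem_filter.1 hi'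
      obtain ⟨e1, e2⟩ := Prod.mk.inj he
      exact mem_filter.2 ⟨a1, a2, cell_close hα e1, cell_close hβ e2⟩⟩
  refine h4.trans (le_of_eq ?_)
  simp only [Fintype.card_fin, mul_pow]
  ring

theorem r2A (D : ℕ) : ∃ C ≥ (1 : ℝ), ∀ {σ : ℝ} {m : ℕ} {d : Dat D} {N H K : ℝ}, Reg σ m d N H K →
    1 ≤ N → ∀ (A z0 α α' : ℝ) (p q : V D), 1 ≤ A → 1 / N ≤ α' → α' ≤ α → α ≤ 1 →
    (((d.c.E.filter fun ω => |ω.2 - z0| ≤ A * α' ∧ ‖d.c.pos ω - q‖ ≤ A * α' ∧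
      ‖d.c.e ω.1 - p‖ ≤ A * α).image fun ω => cell α' (d.c.e ω.1)).card : ℝ) ≤
      C * A ^ (2 * D + 1) * K * (α / α') ^ σ := by
  refine ⟨4 * (4 ^ D * 4 ^ D), one_le_mul_of_one_le_of_one_le (by norm_num)
    (one_le_mul_of_one_le_of_one_le (one_le_pow₀ (by norm_num)) (one_le_pow₀ (by norm_num))), ?_⟩
  intro σ m d N H K h hN A z0 α α' p q hA h1 h2 h3
  have hK := h.K_nonneg_A2 hN
  have hβ := pos_A2 hN h1
  have hα := hβ.trans_le h2
  set F := d.c.E.filter fun ω => |ω.2 - z0| ≤ A * α' ∧ ‖d.c.pos ω - q‖ ≤ A * α' ∧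
    ‖d.c.e ω.1 - p‖ ≤ A * α with hF
  have c0 := cov_z_A2 F (fun ω => ω.2) z0 hβ hA fun i hi => (mem_filter.1 hi).2.1
  have c1 := cov_cell_A2 F d.c.pos q hβ hA fun i hi => (mem_filter.1 hi).2.2.1
  have c2 := cov_cell_A2 F (fun ω => d.c.e ω.1) p hα hA fun i hi => (mem_filter.1 hi).2.2.2
  have h4 := img_A2 (fun ω => cell α' (d.c.e ω.1)) (M := K * (α / α') ^ σ) (by positivity)
    (c0.pair (c1.pair c2))
    fun ω _ => ⟨_, h.r2 ω.2 α α' (d.c.e ω.1) (d.c.pos ω) h1 h2 h3, fun ω' hω' he => by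
      obtain ⟨e0, e⟩ := Prod.mk.inj he
      obtain ⟨e1, e2⟩ := Prod.mk.inj e
      exact mem_image_of_mem _ (mem_filter.2 ⟨(mem_filter.1 hω').1, cz_close hβ e0,
        cell_close hβ e1, cell_close hα e2⟩)⟩
  refine h4.trans (le_of_eq ?_)
  simp only [Fintype.card_fin, mul_pow]
  ring

theorem r3A (D : ℕ) : ∃ C ≥ (1 : ℝ), ∀ {σ : ℝ} {m : ℕ} {d : Dat D} {N H K : ℝ}, Reg σ m d N H K →
    1 ≤ N → ∀ (A z β β' : ℝ) (q : V D), 1 ≤ A → 1 / N ≤ β' → β' ≤ β → β ≤ 1 →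
    (((d.c.E.filter fun ω => ω.2 = z ∧ ‖d.u ω - q‖ ≤ A * β).image
      fun ω => cell β' (d.u ω)).card : ℝ) ≤ C * A ^ D * K * (β / β') ^ ((m : ℝ) - σ) := by
  refine ⟨4 ^ D, one_le_pow₀ (by norm_num), ?_⟩
  intro σ m d N H K h hN A z β β' q hA h1 h2 h3
  have hK := h.K_nonneg_A2 hN
  have hβ' := pos_A2 hN h1
  have hβ := hβ'.trans_le h2
  set F := d.c.E.filter fun ω => ω.2 = z ∧ ‖d.u ω - q‖ ≤ A * β with hF
  have c1 := cov_cell_A2 F d.u q hβ hA fun i hi => (mem_filter.1 hi).2.2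
  have h4 := img_A2 (fun ω => cell β' (d.u ω)) (M := K * (β / β') ^ ((m : ℝ) - σ)) (by positivity) c1
    fun ω _ => ⟨_, h.r3 z β β' (d.u ω) h1 h2 h3, fun ω' hω' he =>
      mem_image_of_mem _ (mem_filter.2 ⟨(mem_filter.1 hω').1, (mem_filter.1 hω').2.1,
        cell_close hβ he⟩)⟩
  refine h4.trans (le_of_eq ?_)
  simp only [Fintype.card_fin, mul_pow]
  ring

theorem rpA (D : ℕ) : ∃ C ≥ (1 : ℝ), ∀ {σ : ℝ} {m : ℕ} {d : Dat D} {N H K : ℝ}, Reg σ m d N H K →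
    1 ≤ N → ∀ (A z β β' : ℝ) (q : V D), 1 ≤ A → 1 / N ≤ β' → β' ≤ β → β ≤ 1 →
    (((d.c.E.filter fun ω => ω.2 = z ∧ ‖d.c.pos ω - q‖ ≤ A * β).image
      fun ω => cell β' (d.c.pos ω)).card : ℝ) ≤ C * A ^ (2 * D) * K * (β / β') ^ ((D : ℝ) - σ) := by
  obtain ⟨C, hC, h3A⟩ := r3A D
  have hc : (1 : ℝ) ≤ 1 + D * 2 ^ D := by
    have : (0 : ℝ) ≤ D * 2 ^ D := by positivity
    linarith
  refine ⟨C * (1 + D * 2 ^ D) ^ D * (4 * 4 * (3 + D * 2 ^ D)) ^ D, one_le_mul_of_one_le_of_one_le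
    (one_le_mul_of_one_le_of_one_le hC (one_le_pow₀ hc)) (cst_A2 D), ?_⟩
  intro σ m d N H K h hN A z β β' q hA h1 h2 h3
  have hK := h.K_nonneg_A2 hN
  have hβ' := pos_A2 hN h1
  have hβ := hβ'.trans_le h2
  set F := d.c.E.filter fun ω => ω.2 = z ∧ ‖d.c.pos ω - q‖ ≤ A * β with hF
  have c1 : CovA2 F (fun ω => cell β' (d.u ω))
      (C * ((1 + D * 2 ^ D) * A) ^ D * K * (β / β') ^ ((m : ℝ) - σ)) := by
    refine ⟨_, h3A h hN _ z β β' (mv (d.P z) q) (one_le_mul_of_one_le_of_one_le hc hA) h1 h2 h3,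
      fun ω hω => ?_⟩
    obtain ⟨a1, a2, a3⟩ := mem_filter.1 hω
    refine mem_image_of_mem _ (mem_filter.2 ⟨a1, a2, ?_⟩)
    rw [Dat.u, a2, ← mv_sub]
    have b1 := norm_mv (d.P z) (d.c.pos ω - q)
    have b2 : D * ‖d.P z‖ * ‖d.c.pos ω - q‖ ≤ D * 2 ^ D * (A * β) :=
      mul_le_mul (mul_le_mul_of_nonneg_left (h.gr.norm_le z) (Nat.cast_nonneg _)) a3
        (norm_nonneg _) (by positivity)
    have b3 : 0 ≤ A * β := by positivity
    nlinarith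
  have h4 := img_A2 (fun ω => cell β' (d.c.pos ω))
    (M := (4 * 4 * (3 + D * 2 ^ D)) ^ D * 1 ^ D * A ^ D * (β / β') ^ (D - d.S.card))
    (by positivity) c1 fun ω _ =>
      ⟨_, ry_A2 h.gr (F.filter fun ω' => cell β' (d.u ω') = cell β' (d.u ω)) (z := z) (q := d.u ω)
        (q' := q) le_rfl hA hβ' h2 fun ω' hω' => by
          obtain ⟨a1, a2⟩ := mem_filter.1 hω'
          obtain ⟨-, a3, a4⟩ := mem_filter.1 a1
          exact ⟨a3, by rw [one_mul]; exact cell_close hβ' a2, a4⟩,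
        fun ω' hω' he => mem_image_of_mem _ (mem_filter.2 ⟨hω', he⟩)⟩
  refine h4.trans (le_of_eq ?_)
  have hm : m ≤ D := by
    rw [← h.card_S]
    simpa using card_le_univ d.S
  have e : (β / β') ^ ((D : ℝ) - σ) = (β / β') ^ ((m : ℝ) - σ) * (β / β') ^ (D - m) := by
    rw [← Real.rpow_natCast, ← Real.rpow_add (by positivity), Nat.cast_sub hm]
    congr 1
    ring
  rw [e, h.card_S, mul_pow (1 + D * 2 ^ D : ℝ) A, one_pow]
  ring

/-- cells of `pos` in a box that is thin in the `u` directions -/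
theorem ryA (D : ℕ) : ∃ C ≥ (1 : ℝ), ∀ {σ : ℝ} {m : ℕ} {d : Dat D} {N H K : ℝ}, Reg σ m d N H K →
    ∀ (A z β β' : ℝ) (q q' : V D), 1 ≤ A → 0 < β' → β' ≤ β →
    (((d.c.E.filter fun ω => ω.2 = z ∧ ‖d.u ω - q‖ ≤ A * β' ∧ ‖d.c.pos ω - q'‖ ≤ A * β).image
      fun ω => cell β' (d.c.pos ω)).card : ℝ) ≤ C * A ^ (2 * D) * (β / β') ^ (D - m) := by
  refine ⟨_, cst_A2 D, ?_⟩
  intro σ m d N H K h A z β β' q q' hA h1 h2
  refine (ry_A2 h.gr _ hA hA h1 h2 fun ω hω => (mem_filter.1 hω).2).trans (le_of_eq ?_)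
  rw [h.card_S]
  ring

theorem ruA (D : ℕ) : ∃ C ≥ (1 : ℝ), ∀ {σ : ℝ} {m : ℕ} {d : Dat D} {N H K : ℝ}, Reg σ m d N H K →
    1 ≤ N → ∀ (A z β β' : ℝ) (q q' : V D), 1 ≤ A → 1 / N ≤ β' → β' ≤ β → β ≤ 1 →
    ((d.c.L.filter fun i => (i, z) ∈ d.c.E ∧ ‖d.u (i, z) - q‖ ≤ A * β' ∧
      ‖d.c.pos (i, z) - q'‖ ≤ A * β).card : ℝ) ≤
      C * A ^ (2 * D) * K * d.c.nL * β' ^ ((D : ℝ) - σ) * (β / β') ^ (D - m) := by
  obtain ⟨C, hC, hy⟩ := ryA D
  refine ⟨C, hC, ?_⟩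
  intro σ m d N H K h hN A z β β' q q' hA h1 h2 h3
  have hK := h.K_nonneg_A2 hN
  have hβ' := pos_A2 hN h1
  have hn := h.good.nL_pos
  set F := d.c.L.filter fun i => (i, z) ∈ d.c.E ∧ ‖d.u (i, z) - q‖ ≤ A * β' ∧
    ‖d.c.pos (i, z) - q'‖ ≤ A * β with hF
  have c1 : CovA2 F (fun i => cell β' (d.c.pos (i, z))) (C * A ^ (2 * D) * (β / β') ^ (D - m)) := by
    refine ⟨_, hy h A z β β' q q' hA hβ' h2, fun i hi => ?_⟩
    obtain ⟨-, a2, a3⟩ := mem_filter.1 hi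
    exact mem_image_of_mem (fun ω => cell β' (d.c.pos ω)) (mem_filter.2 ⟨a2, rfl, a3⟩)
  have h4 := fib_A2 (M := K * d.c.nL * β' ^ ((D : ℝ) - σ) * 1 ^ σ) (by positivity) c1
    fun i _ => ⟨_, h.r1 z 1 β' 0 (d.c.pos (i, z)) h1 (h2.trans h3) le_rfl, fun i' hi' he => by
      obtain ⟨a1, a2, -⟩ := mem_filter.1 hi'
      exact mem_filter.2 ⟨a1, a2, by rw [sub_zero]; exact h.good.be i' a1, cell_close hβ' he⟩⟩
  refine h4.trans (le_of_eq ?_)
  rw [Real.one_rpow]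
  ring

theorem spread (D : ℕ) : ∃ C ≥ (1 : ℝ), ∀ {σ : ℝ} {m : ℕ} {d : Dat D} {N H K : ℝ},
    Reg σ m d N H K → 1 ≤ N → ∀ (F : Finset ℕ) (z K' γ : ℝ), 0 < K' → (∀ i ∈ F, (i, z) ∈ d.c.E) →
    d.c.nL / K' ≤ F.card → 1 / N ≤ γ → γ ≤ 1 → C * K ^ 2 * K' * γ ^ σ < 1 →
    ∃ i ∈ F, ∃ i' ∈ F, ‖d.c.pos (i, z) - d.c.pos (i', z)‖ ≤ 1 / N ∧ γ ≤ ‖d.c.e i - d.c.e i'‖ := by
  obtain ⟨C, hC, hp⟩ := rpA D
  refine ⟨C * 2 ^ (2 * D), one_le_mul_of_one_le_of_one_le hC (one_le_pow₀ (by norm_num)), ?_⟩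
  intro σ m d N H K h hN F z K' γ hK' hF hc h1 h2 h3
  by_contra hcon
  push Not at hcon
  have hK := h.K_nonneg_A2 hN
  have hN0 : 0 < N := by linarith
  have hb : 0 < 1 / N := by positivity
  have hγ := hb.trans_le h1
  have hn := h.good.nL_pos
  have c1 : CovA2 F (fun i => cell (1 / N) (d.c.pos (i, z)))
      (C * 2 ^ (2 * D) * K * (1 / (1 / N)) ^ ((D : ℝ) - σ)) := by
    refine ⟨_, hp h hN 2 z 1 (1 / N) 0 (by norm_num) le_rfl (h1.trans h2) le_rfl, fun i hi => ?_⟩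
    refine mem_image_of_mem (fun ω => cell (1 / N) (d.c.pos ω)) (mem_filter.2 ⟨hF i hi, rfl, ?_⟩)
    rw [sub_zero, mul_one]
    exact h.good.toPre.norm_pos (hF i hi)
  have h4 := fib_A2 (M := K * d.c.nL * (1 / N) ^ ((D : ℝ) - σ) * γ ^ σ) (by positivity) c1
    fun i hi => ⟨_, h.r1 z γ (1 / N) (d.c.e i) (d.c.pos (i, z)) le_rfl h1 h2, fun i' hi' he => by
      have a1 := cell_close hb he
      exact mem_filter.2 ⟨(mem_product.1 (h.good.sub (hF i' hi'))).1, hF i' hi',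
        (hcon i' hi' i hi a1).le, a1⟩⟩
  have e : (1 / (1 / N)) ^ ((D : ℝ) - σ) * (1 / N) ^ ((D : ℝ) - σ) = 1 := by
    rw [← Real.mul_rpow (by positivity) hb.le, one_div_mul_cancel hb.ne', Real.one_rpow]
  have h5 : (F.card : ℝ) ≤ C * 2 ^ (2 * D) * K ^ 2 * γ ^ σ * d.c.nL := by
    refine h4.trans (le_of_eq ?_)
    calc _ = C * 2 ^ (2 * D) * K ^ 2 * γ ^ σ * d.c.nL *
          ((1 / (1 / N)) ^ ((D : ℝ) - σ) * (1 / N) ^ ((D : ℝ) - σ)) := by ring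
      _ = _ := by rw [e, mul_one]
  have h6 := (div_le_iff₀ hK').1 (hc.trans h5)
  have h7 := mul_lt_mul_of_pos_right h3 hn
  nlinarith

end Vale.Agent.P127
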