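import Vale.Agent.P127.Defs

/-! # P127 Comb: elementary counting lemmas.
pop: greedy deletion (strong induction or a minimal counterexample): while some fibre (i, value) of the current set is nonempty and lighter than
card E / (2 card I R i), delete it; every pair (i, value) is deleted at most once, so at most card E / 2 elements are deleted.
sep: pigeonhole on the residues mod 3 (or 2) of the cell coordinates; two points at distance at most r have floors differing by at most 1.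
best: for every key keep the most popular value of t.
rich: Cauchy-Schwarz or Bonferroni on a subset of T with exactly ceil(2b/a) elements (at most 2b/a+1). -/

namespace Vale.Agent.P127

open Finset
open scoped Classical

theorem cz_close {r z z' : ℝ} (hr : 0 < r) (h : cz r z = cz r z') : |z - z'| ≤ r := by
  have h1 := Int.abs_sub_lt_one_of_floor_eq_floor h
  rw [← sub_div, abs_div, abs_of_pos hr, div_lt_one hr] at h1
  exact h1.le

theorem cell_close {n : Type} [Fintype n] {r : ℝ} (hr : 0 < r) {v w : n → ℝ}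
    (h : cell r v = cell r w) : ‖v - w‖ ≤ r := by
  rw [pi_norm_le_iff_of_nonneg hr.le]
  exact fun j => cz_close hr (congrFun h j)

theorem cell_corner {n : Type} [Fintype n] {r : ℝ} (hr : 0 < r) (v : n → ℝ) :
    ‖v - fun j => r * (cell r v j : ℝ)‖ ≤ r := by
  rw [pi_norm_le_iff_of_nonneg hr.le]
  intro j
  have h1 := (le_div_iff₀ hr).1 (Int.floor_le (v j / r))
  have h2 := (div_lt_iff₀ hr).1 (Int.lt_floor_add_one (v j / r))
  simp only [Pi.sub_apply, Real.norm_eq_abs, cell, abs_le]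
  constructor <;> linarith

theorem icc_comb (q : ℝ) {β ρ : ℝ} (hβ : 0 < β) (hρ : 0 ≤ ρ) :
    ((Icc (cz β (q - ρ)) (cz β (q + ρ))).card : ℝ) ≤ 2 * ρ / β + 2 := by
  have h0 : cz β (q - ρ) ≤ cz β (q + ρ) :=
    Int.floor_le_floor (div_le_div_of_nonneg_right (by linarith) hβ.le)
  have h1 : ((Icc (cz β (q - ρ)) (cz β (q + ρ))).card : ℤ) = cz β (q + ρ) + 1 - cz β (q - ρ) :=
    Int.card_Icc_of_le _ _ (by omega)
  have h2 : ((Icc (cz β (q - ρ)) (cz β (q + ρ))).card : ℝ) = cz β (q + ρ) + 1 - cz β (q - ρ) := by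
    exact_mod_cast h1
  have h3 := Int.floor_le ((q + ρ) / β)
  have h4 := Int.lt_floor_add_one ((q - ρ) / β)
  have h5 : (q + ρ) / β = (q - ρ) / β + 2 * ρ / β := by ring
  rw [h2]
  unfold cz
  linarith

theorem mem_icc_comb {q x β ρ : ℝ} (hβ : 0 < β) (h : |x - q| ≤ ρ) :
    cz β x ∈ Icc (cz β (q - ρ)) (cz β (q + ρ)) := by
  rw [abs_le] at h
  exact mem_Icc.2 ⟨Int.floor_le_floor (div_le_div_of_nonneg_right (by linarith [h.1]) hβ.le),
    Int.floor_le_floor (div_le_div_of_nonneg_right (by linarith [h.2]) hβ.le)⟩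

theorem cover {Ω n : Type} [Fintype n] (E : Finset Ω) (a : Ω → n → ℝ) (q : n → ℝ) {β ρ : ℝ}
    (hβ : 0 < β) (hρ : 0 ≤ ρ) (h : ∀ ω ∈ E, ‖a ω - q‖ ≤ ρ) :
    ((E.image fun ω => cell β (a ω)).card : ℝ) ≤ (2 * ρ / β + 2) ^ Fintype.card n := by
  have h1 : (E.image fun ω => cell β (a ω)) ⊆
      Fintype.piFinset fun j => Icc (cz β (q j - ρ)) (cz β (q j + ρ)) := by
    intro y hy
    obtain ⟨ω, hω, rfl⟩ := mem_image.1 hy
    exact Fintype.mem_piFinset.2 fun j =>
      mem_icc_comb hβ ((norm_le_pi_norm (a ω - q) j).trans (h ω hω))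
  refine (Nat.cast_le.2 (card_le_card h1)).trans ?_
  rw [Fintype.card_piFinset, Nat.cast_prod, ← card_univ, ← prod_const]
  exact prod_le_prod (fun j _ => Nat.cast_nonneg _) fun j _ => icc_comb _ hβ hρ

theorem cover_z {Ω : Type} (E : Finset Ω) (a : Ω → ℝ) (q : ℝ) {β ρ : ℝ}
    (hβ : 0 < β) (hρ : 0 ≤ ρ) (h : ∀ ω ∈ E, |a ω - q| ≤ ρ) :
    ((E.image fun ω => cz β (a ω)).card : ℝ) ≤ 2 * ρ / β + 2 := by
  refine (Nat.cast_le.2 (card_le_card fun y hy => ?_)).trans (icc_comb q hβ hρ)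
  obtain ⟨ω, hω, rfl⟩ := mem_image.1 hy
  exact mem_icc_comb hβ (h ω hω)

theorem card_le_fib {Ω β : Type} (E : Finset Ω) (f : Ω → β) {M : ℝ}
    (h : ∀ ω ∈ E, ((E.filter fun ω' => f ω' = f ω).card : ℝ) ≤ M) :
    (E.card : ℝ) ≤ (E.image f).card * M := by
  rw [card_eq_sum_card_image f E, Nat.cast_sum, ← nsmul_eq_mul]
  refine sum_le_card_nsmul _ _ _ fun b hb => ?_
  obtain ⟨ω, hω, rfl⟩ := mem_image.1 hb
  exact h ω hω

theorem fib_le_card {Ω β : Type} (E E0 : Finset Ω) (f : Ω → β) {M : ℝ}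
    (h : ∀ ω ∈ E, M ≤ ((E0.filter fun ω' => f ω' = f ω).card : ℝ)) :
    ((E.image f).card : ℝ) * M ≤ ((E0.filter fun ω' => f ω' ∈ E.image f).card : ℝ) := by
  rw [card_eq_sum_card_fiberwise (f := f) (s := E0.filter fun ω' => f ω' ∈ E.image f)
    (t := E.image f) fun x hx => (mem_filter.1 hx).2, Nat.cast_sum, ← nsmul_eq_mul]
  refine card_nsmul_le_sum _ _ _ fun b hb => ?_
  obtain ⟨ω, hω, rfl⟩ := mem_image.1 hb
  refine (h ω hω).trans (Nat.cast_le.2 (card_le_card fun x hx => ?_))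
  obtain ⟨h1, h2⟩ := mem_filter.1 hx
  exact mem_filter.2 ⟨mem_filter.2 ⟨h1, h2 ▸ hb⟩, h2⟩

theorem image_le_mul {Ω β γ : Type} (E : Finset Ω) (f : Ω → β) (g : Ω → γ) {M : ℝ}
    (h : ∀ ω ∈ E, (((E.filter fun ω' => f ω' = f ω).image g).card : ℝ) ≤ M) :
    ((E.image g).card : ℝ) ≤ (E.image f).card * M := by
  have h1 : E.image g ⊆ (E.image f).biUnion fun b => (E.filter fun ω' => f ω' = b).image g := by
    intro y hy
    obtain ⟨ω, hω, rfl⟩ := mem_image.1 hy
    exact mem_biUnion.2 ⟨f ω, mem_image_of_mem f hω, mem_image_of_mem g (mem_filter.2 ⟨hω, rfl⟩)⟩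
  refine (Nat.cast_le.2 ((card_le_card h1).trans card_biUnion_le)).trans ?_
  rw [Nat.cast_sum, ← nsmul_eq_mul]
  refine sum_le_card_nsmul _ _ _ fun b hb => ?_
  obtain ⟨ω, hω, rfl⟩ := mem_image.1 hb
  exact h ω hω

theorem cs {Ω β : Type} (E : Finset Ω) (f : Ω → β) :
    (E.card : ℝ) ^ 2 ≤ (E.image f).card * (((E ×ˢ E).filter fun p => f p.1 = f p.2).card : ℝ) := by
  have h1 : ((E ×ˢ E).filter fun p => f p.1 = f p.2).card =
      ∑ b ∈ E.image f, (E.filter fun ω => f ω = b).card ^ 2 := by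
    rw [card_eq_sum_card_fiberwise (f := fun p : Ω × Ω => f p.1)
      (s := (E ×ˢ E).filter fun p => f p.1 = f p.2) (t := E.image f)
      fun p hp => mem_image_of_mem f (mem_product.1 (mem_filter.1 hp).1).1]
    refine sum_congr rfl fun b _ => ?_
    rw [sq, ← card_product]
    congr 1
    ext p
    simp only [mem_filter, mem_product]
    constructor
    · rintro ⟨⟨⟨h1, h2⟩, h3⟩, h4⟩
      exact ⟨⟨h1, h4⟩, h2, h3 ▸ h4⟩
    · rintro ⟨⟨h1, h2⟩, h3, h4⟩
      exact ⟨⟨⟨h1, h3⟩, h2.trans h4.symm⟩, h2⟩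
  rw [h1, card_eq_sum_card_image f E]
  exact_mod_cast sq_sum_le_card_mul_sum_sq

theorem pop {Ω ι β : Type} (E : Finset Ω) (I : Finset ι) (f : ι → Ω → β) (R : ι → ℝ)
    (hR : ∀ i ∈ I, ((E.image (f i)).card : ℝ) ≤ R i) :
    ∃ E' ⊆ E, (E.card : ℝ) / 2 ≤ E'.card ∧ ∀ i ∈ I, ∀ ω ∈ E',
      (E.card : ℝ) / (2 * I.card * R i) ≤ ((E'.filter fun ω' => f i ω' = f i ω).card : ℝ) := by
  obtain ⟨θ, hθ⟩ : ∃ θ : ι → ℝ, ∀ i, θ i = (E.card : ℝ) / (2 * I.card * R i) := ⟨_, fun _ => rfl⟩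
  have hR0 : ∀ i ∈ I, 0 ≤ R i := fun i hi => (Nat.cast_nonneg _).trans (hR i hi)
  have hθ0 : ∀ i ∈ I, 0 ≤ θ i := fun i hi => by
    have := hR0 i hi
    rw [hθ]
    positivity
  obtain ⟨E', hE', hm⟩ := exists_max_image E.powerset
    (fun F => (F.card : ℝ) - ∑ i ∈ I, θ i * (F.image (f i)).card) ⟨E, mem_powerset_self E⟩
  have hs := mem_powerset.1 hE'
  refine ⟨E', hs, ?_, fun i hi ω hω => ?_⟩
  · have h1 := hm E (mem_powerset_self E)
    have h2 : 0 ≤ ∑ i ∈ I, θ i * ((E'.image (f i)).card : ℝ) :=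
      sum_nonneg fun i hi => mul_nonneg (hθ0 i hi) (Nat.cast_nonneg _)
    have h3 : ∑ i ∈ I, θ i * ((E.image (f i)).card : ℝ) ≤ I.card • ((E.card : ℝ) / 2 / I.card) := by
      refine sum_le_card_nsmul _ _ _ fun i hi =>
        (mul_le_mul_of_nonneg_left (hR i hi) (hθ0 i hi)).trans ?_
      rw [hθ, ← div_div, div_div (E.card : ℝ) 2]
      rcases eq_or_ne (R i) 0 with e | e
      · rw [e, mul_zero]
        positivity
      · rw [div_mul_cancel₀ _ e]
    have h4 : I.card • ((E.card : ℝ) / 2 / I.card) ≤ (E.card : ℝ) / 2 := by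
      rw [nsmul_eq_mul, mul_div_assoc']
      exact div_le_of_le_mul₀ (Nat.cast_nonneg _) (by positivity) (mul_comm _ _).le
    linarith
  · have h1 := hm (E'.filter fun ω' => ¬ f i ω' = f i ω)
      (mem_powerset.2 ((filter_subset _ _).trans hs))
    have h2 : ((E'.filter fun ω' => f i ω' = f i ω).card : ℝ) +
        (E'.filter fun ω' => ¬ f i ω' = f i ω).card = E'.card := by
      exact_mod_cast card_filter_add_card_filter_not (s := E') fun ω' => f i ω' = f i ω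
    have h3 : (((E'.filter fun ω' => ¬ f i ω' = f i ω).image (f i)).card : ℝ) + 1 ≤
        (E'.image (f i)).card := by
      have : ((E'.filter fun ω' => ¬ f i ω' = f i ω).image (f i)).card < (E'.image (f i)).card := by
        refine card_lt_card ⟨image_subset_image (filter_subset _ _), fun hc => ?_⟩
        obtain ⟨x, hx, e⟩ := mem_image.1 (hc (mem_image_of_mem _ hω))
        exact (mem_filter.1 hx).2 e
      exact_mod_cast this
    have h4 : ∑ j ∈ I.erase i, θ j * (((E'.filter fun ω' => ¬ f i ω' = f i ω).image (f j)).card : ℝ) ≤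
        ∑ j ∈ I.erase i, θ j * ((E'.image (f j)).card : ℝ) :=
      sum_le_sum fun j hj => mul_le_mul_of_nonneg_left
        (Nat.cast_le.2 (card_le_card (image_subset_image (filter_subset _ _))))
        (hθ0 j (mem_of_mem_erase hj))
    have h5 := mul_le_mul_of_nonneg_left h3 (hθ0 i hi)
    rw [← add_sum_erase I _ hi, ← add_sum_erase I _ hi] at h1
    rw [← hθ]
    linarith

theorem pop1 {Ω β : Type} (E : Finset Ω) (f : Ω → β) {R : ℝ} (hR : ((E.image f).card : ℝ) ≤ R) :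
    ∃ E' ⊆ E, (E.card : ℝ) / 2 ≤ E'.card ∧ ∀ ω ∈ E',
      (E.card : ℝ) / (2 * R) ≤ ((E'.filter fun ω' => f ω' = f ω).card : ℝ) := by
  obtain ⟨E', h1, h2, h3⟩ := pop E ({()} : Finset Unit) (fun _ => f) (fun _ => R) fun _ _ => hR
  refine ⟨E', h1, h2, fun ω hω => ?_⟩
  have h4 := h3 () (mem_singleton_self _) ω hω
  rwa [card_singleton, Nat.cast_one, mul_one] at h4

theorem big_comb {Ω β : Type} (E : Finset Ω) (f : Ω → β) :
    ∃ F ⊆ E, (E.card : ℝ) ≤ (E.image f).card * F.card ∧ ∀ ω ∈ F, ∀ ω' ∈ F, f ω = f ω' := by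
  rcases E.eq_empty_or_nonempty with rfl | hE
  · exact ⟨∅, Subset.rfl, by simp, by simp⟩
  obtain ⟨x, _, hm⟩ := exists_max_image E (fun ω => (E.filter fun ω' => f ω' = f ω).card) hE
  exact ⟨E.filter fun ω' => f ω' = f x, filter_subset _ _,
    card_le_fib E f fun ω hω => Nat.cast_le.2 (hm ω hω),
    fun ω hω ω' hω' => (mem_filter.1 hω).2.trans (mem_filter.1 hω').2.symm⟩

theorem near_comb {r x y : ℝ} (hr : 0 < r) (h : x - y ≤ r) : cz r x ≤ cz r y + 1 := by
  unfold cz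
  rw [← Int.floor_add_one]
  refine Int.floor_le_floor ?_
  rw [div_add_one hr.ne']
  exact div_le_div_of_nonneg_right (by linarith) hr.le

theorem sep {Ω n : Type} [Fintype n] (E : Finset Ω) (a : Ω → n → ℝ) {r : ℝ} (hr : 0 < r) :
    ∃ E' ⊆ E, (E.card : ℝ) / 3 ^ Fintype.card n ≤ E'.card ∧
      ∀ ω ∈ E', ∀ ω' ∈ E', ‖a ω - a ω'‖ ≤ r → cell r (a ω) = cell r (a ω') := by
  obtain ⟨F, h1, h2, h3⟩ := big_comb E fun ω j => cz r (a ω j) % 3
  refine ⟨F, h1, ?_, fun ω hω ω' hω' h => funext fun j => ?_⟩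
  · rw [div_le_iff₀ (by positivity), mul_comm]
    refine h2.trans (mul_le_mul_of_nonneg_right ?_ (Nat.cast_nonneg _))
    refine (Nat.cast_le.2 (card_le_card (t := Fintype.piFinset fun _ : n => Ico (0 : ℤ) 3)
      fun y hy => ?_)).trans (by simp)
    simp only [mem_image] at hy
    obtain ⟨ω, _, rfl⟩ := hy
    exact Fintype.mem_piFinset.2 fun j => mem_Ico.2 ⟨by omega, by omega⟩
  · have h4 : cz r (a ω j) % 3 = cz r (a ω' j) % 3 := congrFun (h3 ω hω ω' hω') j
    have h5 : |a ω j - a ω' j| ≤ r := (norm_le_pi_norm (a ω - a ω') j).trans h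
    rw [abs_le] at h5
    have h6 := near_comb hr h5.2
    have h7 := near_comb (x := a ω' j) (y := a ω j) hr (by linarith [h5.1])
    change cz r (a ω j) = cz r (a ω' j)
    omega

theorem best {Ω κ β : Type} (E : Finset Ω) (k : Ω → κ) (t : Ω → β) {R : ℝ} (hR : 0 < R)
    (h : ∀ ω ∈ E, (((E.filter fun ω' => k ω' = k ω).image t).card : ℝ) ≤ R) :
    ∃ E' ⊆ E, (E.card : ℝ) / R ≤ E'.card ∧ ∀ ω ∈ E', ∀ ω' ∈ E', k ω = k ω' → t ω = t ω' := by
  choose F h1 h2 h3 using fun c => big_comb (E.filter fun ω' => k ω' = c) t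
  refine ⟨E.filter fun ω => ω ∈ F (k ω), filter_subset _ _, ?_, fun ω hω ω' hω' e => ?_⟩
  · rw [div_le_iff₀ hR, card_eq_sum_card_image k E,
      card_eq_sum_card_fiberwise (f := k) (s := E.filter fun ω => ω ∈ F (k ω)) (t := E.image k)
        fun x hx => mem_image_of_mem k (mem_filter.1 hx).1, Nat.cast_sum, Nat.cast_sum, sum_mul]
    refine sum_le_sum fun c hc => ?_
    obtain ⟨ω, hω, rfl⟩ := mem_image.1 hc
    refine (h2 _).trans ?_
    rw [mul_comm]
    refine mul_le_mul (Nat.cast_le.2 (card_le_card fun x hx => ?_)) (h ω hω) (Nat.cast_nonneg _)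
      (Nat.cast_nonneg _)
    obtain ⟨h4, h5⟩ := mem_filter.1 (h1 _ hx)
    exact mem_filter.2 ⟨mem_filter.2 ⟨h4, h5 ▸ hx⟩, h5⟩
  · exact h3 (k ω') ω (e ▸ (mem_filter.1 hω).2) ω' (mem_filter.1 hω').2

theorem bonf_comb {ι τ : Type} (X : τ → Finset ι) {a δ : ℝ} (hδ : 0 ≤ δ) (T : Finset τ) :
    (∀ t ∈ T, a ≤ (X t).card) → (∀ t ∈ T, ∀ t' ∈ T, t ≠ t' → ((X t ∩ X t').card : ℝ) ≤ δ) →
      T.card * a - (T.card : ℝ) ^ 2 / 2 * δ ≤ (T.biUnion X).card := by
  induction T using Finset.induction_on with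
  | empty => simp
  | insert t T ht ih =>
    intro h1 h2
    have h3 := ih (fun s hs => h1 s (mem_insert_of_mem hs))
      fun s hs s' hs' => h2 s (mem_insert_of_mem hs) s' (mem_insert_of_mem hs')
    have h4 : ((X t ∪ T.biUnion X).card : ℝ) + (X t ∩ T.biUnion X).card =
        (X t).card + (T.biUnion X).card := by
      exact_mod_cast card_union_add_card_inter (X t) (T.biUnion X)
    have h5 : ((X t ∩ T.biUnion X).card : ℝ) ≤ T.card * δ := by
      rw [inter_biUnion]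
      refine (Nat.cast_le.2 card_biUnion_le).trans ?_
      rw [Nat.cast_sum, ← nsmul_eq_mul]
      exact sum_le_card_nsmul _ _ _ fun s hs =>
        h2 t (mem_insert_self _ _) s (mem_insert_of_mem hs) fun e => ht (e ▸ hs)
    have h6 := h1 t (mem_insert_self _ _)
    rw [biUnion_insert, card_insert_of_notMem ht]
    push_cast
    nlinarith

theorem rich {ι τ : Type} (L : Finset ι) (T : Finset τ) (X : τ → Finset ι) {a b : ℝ} (ha : 0 < a)
    (hL : (L.card : ℝ) ≤ b) (hX : ∀ t ∈ T, X t ⊆ L ∧ a ≤ (X t).card) (hT : 2 * b / a + 1 ≤ T.card) :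
    ∃ t ∈ T, ∃ t' ∈ T, t ≠ t' ∧ a ^ 2 / (8 * b) ≤ ((X t ∩ X t').card : ℝ) := by
  have hb0 : 0 ≤ b := (Nat.cast_nonneg _).trans hL
  have h0 : 0 ≤ 2 * b / a := by positivity
  obtain ⟨t0, ht0⟩ : T.Nonempty := card_pos.1 (by
    have : (0 : ℝ) < T.card := by linarith
    exact_mod_cast this)
  have hab : a ≤ b := (hX t0 ht0).2.trans ((Nat.cast_le.2 (card_le_card (hX t0 ht0).1)).trans hL)
  have hb : 0 < b := ha.trans_le hab
  have h1 := Nat.le_ceil (2 * b / a)
  have h2 := (Nat.ceil_lt_add_one h0).le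
  obtain ⟨T', hT', hc⟩ := exists_subset_card_eq (s := T) (n := ⌈2 * b / a⌉₊)
    (Nat.cast_le.1 (h2.trans hT))
  by_contra hne
  have h3 := bonf_comb X (a := a) (δ := a ^ 2 / (8 * b)) (by positivity) T'
    (fun t ht => (hX t (hT' ht)).2) fun t ht t' ht' e =>
      (not_le.1 fun hle => hne ⟨t, hT' ht, t', hT' ht', e, hle⟩).le
  have h4 : ((T'.biUnion X).card : ℝ) ≤ b :=
    (Nat.cast_le.2 (card_le_card (biUnion_subset.2 fun t ht => (hX t (hT' ht)).1))).trans hL
  rw [hc] at h3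
  generalize (⌈2 * b / a⌉₊ : ℝ) = m at h1 h2 h3
  have h5 : 2 * b ≤ m * a := (div_le_iff₀ ha).1 h1
  have h6 : m * a ≤ 3 * b := by
    have := mul_le_mul_of_nonneg_right h2 ha.le
    rw [add_mul, div_mul_cancel₀ _ ha.ne'] at this
    linarith
  have h7 : m ^ 2 / 2 * (a ^ 2 / (8 * b)) ≤ 9 / 16 * b := by
    rw [← mul_div_assoc, div_le_iff₀ (by positivity)]
    have := pow_le_pow_left₀ (by linarith) h6 2
    nlinarith
  linarith

end Vale.Agent.P127
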