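import Mathlib

/-! # P127 Dec: normal form for decidability instances. -/

namespace Vale.Agent.P127

theorem image_cd {α β : Type} (h : DecidableEq β) (f : α → β) (s : Finset α) :
    @Finset.image α β h f s = @Finset.image α β (Classical.decEq β) f s := by
  cases Subsingleton.elim h (Classical.decEq β)
  rfl

theorem filter_cd {α : Type} (p : α → Prop) (h : DecidablePred p) (s : Finset α) :
    @Finset.filter α p h s = @Finset.filter α p (Classical.decPred p) s := by
  cases Subsingleton.elim h (Classical.decPred p)
  rfl

end Vale.Agent.P127
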