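import Vale.Agent.P127.Api2

/-! # P127 End0: choosing a base height with many rich partners.  See notes/P127.md, part END.
Triples (i, z0, z1) with both pairs in E, cz rho z0 = cz rho z1: at least card E ^ 2 / (card L (1/rho + 2)) (cs). Drop those with |z1 - z0| < rho / K^c1 (hts, 1/H at most rho / K^c1) and those whose pair (z0, z1) has fewer than nL / K^c2
common lines. Take the z0 with the most remaining triples; E' = the (i, z1) of these triples. -/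

namespace Vale.Agent.P127

open Finset
open scoped Classical

theorem end0_cnt {Ω β γ : Type} (T : Finset Ω) (f : Ω → β) (B : Finset β) (g : Ω → γ)
    (C : Ω → Finset γ) {M b : ℝ} (hM : 0 ≤ M) (hB : (B.card : ℝ) ≤ b) (hf : ∀ p ∈ T, f p ∈ B)
    (hg : ∀ p ∈ T, ∀ q ∈ T, f q = f p → g q ∈ C p)
    (inj : ∀ q ∈ T, ∀ q' ∈ T, f q = f q' → g q = g q' → q = q')
    (hC : ∀ p ∈ T, ((C p).card : ℝ) ≤ M) : (T.card : ℝ) ≤ b * M := by
  refine (card_le_fib T f (M := M) fun p hp => ?_).trans (mul_le_mul_of_nonneg_right ?_ hM)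
  · refine le_trans (Nat.cast_le.2 (card_le_card_of_injOn g (fun q hq => ?_)
      fun q hq q' hq' e => ?_)) (hC p hp)
    · obtain ⟨h1, h2⟩ := mem_filter.1 (mem_coe.1 hq)
      exact hg p hp q h1 h2
    · obtain ⟨h1, h2⟩ := mem_filter.1 (mem_coe.1 hq)
      obtain ⟨h1', h2'⟩ := mem_filter.1 (mem_coe.1 hq')
      exact inj q h1 q' h1' (h2.trans h2'.symm) e
  · exact (Nat.cast_le.2 (card_le_card (image_subset_iff.2 hf))).trans hB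

theorem end0_cs {Ω β : Type} (E : Finset Ω) (f : Ω → β) (B : Finset β) {b : ℝ}
    (hB : (B.card : ℝ) ≤ b) (hf : ∀ p ∈ E, f p ∈ B) : ∃ T : Finset (Ω × Ω),
      (E.card : ℝ) ^ 2 ≤ b * T.card ∧ ∀ p ∈ T, p.1 ∈ E ∧ p.2 ∈ E ∧ f p.1 = f p.2 :=
  ⟨_, (cs E f).trans (mul_le_mul_of_nonneg_right
    ((Nat.cast_le.2 (card_le_card (image_subset_iff.2 hf))).trans hB) (Nat.cast_nonneg _)),
    fun _ hp => ⟨(mem_product.1 (mem_filter.1 hp).1).1, (mem_product.1 (mem_filter.1 hp).1).2,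
      (mem_filter.1 hp).2⟩⟩

theorem end0_low {D : ℕ} {cf : Cfg D} {N H K ρ : ℝ} (h : Pre cf N H K) (hN : 1 ≤ N) (hK : 0 < K)
    (hH : 0 < H) (hρ : 0 < ρ) (hρ1 : ρ ≤ 1) : ∃ T : Finset ((ℕ × ℝ) × ℕ × ℝ),
      cf.nL * H ^ 2 * ρ / (3 * K ^ 3) ≤ T.card ∧
      ∀ p ∈ T, p.1 ∈ cf.E ∧ p.2 ∈ cf.E ∧ p.1.1 = p.2.1 ∧ |p.2.2 - p.1.2| ≤ ρ := by
  have hn := h.nL_pos
  have h3 := cover_z cf.Z (fun z => z) (1 / 2) hρ (ρ := 1 / 2) (by norm_num) fun z hz => by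
    rw [abs_le]
    constructor <;> linarith [(h.bz z hz).1, (h.bz z hz).2]
  have h4 : 2 * (1 / 2) / ρ + 2 ≤ 3 / ρ := by
    rw [div_add' _ _ _ hρ.ne']
    exact div_le_div_of_nonneg_right (by linarith) hρ.le
  have h5 : ((cf.L ×ˢ cf.Z.image fun z => cz ρ z).card : ℝ) ≤ K * cf.nL * (3 / ρ) := by
    rw [card_product, Nat.cast_mul]
    exact mul_le_mul (h.cardL hN) (h3.trans h4) (Nat.cast_nonneg _) (by positivity)
  obtain ⟨T, h1, h2⟩ := end0_cs cf.E (fun ω => (ω.1, cz ρ ω.2)) _ h5 fun ω hω =>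
    mem_product.2 ⟨(mem_product.1 (h.sub hω)).1, mem_image_of_mem _ (mem_product.1 (h.sub hω)).2⟩
  refine ⟨T, ?_, fun p hp => ?_⟩
  · have h6 := (pow_le_pow_left₀ (by positivity) h.mass 2).trans h1
    refine le_of_mul_le_mul_left (le_trans (le_of_eq ?_) h6) (by positivity)
    field_simp
  · obtain ⟨a, b, c⟩ := h2 p hp
    exact ⟨a, b, (Prod.mk.inj c).1, cz_close hρ (Prod.mk.inj c).2.symm⟩

theorem end0_near {D : ℕ} {cf : Cfg D} {N H K r : ℝ} (h : Pre cf N H K) (hN : 1 ≤ N) (hK : 0 < K)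
    (hH : 1 ≤ H) (hr : 1 / H ≤ r) {T : Finset ((ℕ × ℝ) × ℕ × ℝ)}
    (hT : ∀ p ∈ T, p.1 ∈ cf.E ∧ p.2 ∈ cf.E ∧ p.1.1 = p.2.1 ∧ |p.2.2 - p.1.2| ≤ r) :
    (T.card : ℝ) ≤ K * cf.nL * (K * H) * (K * r * H) := by
  have hn := h.nL_pos
  have hr0 : 0 < r := lt_of_lt_of_le (by positivity) hr
  refine end0_cnt T Prod.fst (cf.L ×ˢ cf.Z) (fun q => q.2.2) _ (by positivity) ?_
    (fun p hp => h.sub (hT p hp).1) (fun p _ q hq e => ?_) (fun q hq q' hq' e e' => ?_)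
    fun p _ => h.hts p.1.2 r hr
  · rw [card_product, Nat.cast_mul]
    exact mul_le_mul (h.cardL hN) (h.cardZ hH) (Nat.cast_nonneg _) (by positivity)
  · exact mem_filter.2 ⟨(mem_product.1 (h.sub (hT q hq).2.1)).2, e ▸ (hT q hq).2.2.2⟩
  · refine Prod.ext e (Prod.ext ?_ e')
    rw [← (hT q hq).2.2.1, ← (hT q' hq').2.2.1, e]

theorem end0_poor {D : ℕ} {cf : Cfg D} {N H K r M : ℝ} (h : Pre cf N H K) (hK : 0 < K)
    (hH : 1 ≤ H) (hr : 1 / H ≤ r) (hM : 0 ≤ M) {T : Finset ((ℕ × ℝ) × ℕ × ℝ)}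
    (hT : ∀ p ∈ T, p.1 ∈ cf.E ∧ p.2 ∈ cf.E ∧ p.1.1 = p.2.1 ∧ |p.2.2 - p.1.2| ≤ r)
    (hT' : ∀ p ∈ T,
      ((cf.L.filter fun i => (i, p.1.2) ∈ cf.E ∧ (i, p.2.2) ∈ cf.E).card : ℝ) ≤ M) :
    (T.card : ℝ) ≤ K * H * (K * r * H) * M := by
  have hr0 : 0 < r := lt_of_lt_of_le (by positivity) hr
  refine end0_cnt T (fun p => (p.1.2, p.2.2)) ((cf.Z ×ˢ cf.Z).filter fun y => |y.2 - y.1| ≤ r)
    (fun q => q.1.1) _ hM ?_ (fun p hp => ?_) (fun p _ q hq e => ?_)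
    (fun q hq q' hq' e e' => ?_) hT'
  · exact end0_cnt _ Prod.fst cf.Z Prod.snd _ (by positivity) (h.cardZ hH)
      (fun y hy => (mem_product.1 (mem_filter.1 hy).1).1)
      (fun y _ q hq e => mem_filter.2 ⟨(mem_product.1 (mem_filter.1 hq).1).2,
        e ▸ (mem_filter.1 hq).2⟩) (fun q _ q' _ e e' => Prod.ext e e') fun y _ => h.hts y.1 r hr
  · obtain ⟨a, b, -, c⟩ := hT p hp
    exact mem_filter.2 ⟨mem_product.2 ⟨(mem_product.1 (h.sub a)).2, (mem_product.1 (h.sub b)).2⟩, c⟩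
  · obtain ⟨h3, h4, h5, -⟩ := hT q hq
    obtain ⟨h6, h7⟩ := Prod.mk.inj e
    refine mem_filter.2 ⟨(mem_product.1 (h.sub h3)).1, h6 ▸ h3, ?_⟩
    rw [← h7, h5]
    exact h4
  · obtain ⟨h6, h7⟩ := Prod.mk.inj e
    refine Prod.ext (Prod.ext e' h6) (Prod.ext ?_ h7)
    rw [← (hT q hq).2.2.1, ← (hT q' hq').2.2.1]
    exact e'

theorem end0 (D : ℕ) : ∃ c : ℕ, ∀ (cf : Cfg D) (N H K ρ : ℝ), Pre cf N H K → 1 ≤ N → 2 ≤ K →
    0 < ρ → ρ ≤ 1 → K ^ c ≤ H * ρ → ∃ z0 : ℝ, ∃ E' ⊆ cf.E, cf.nL * H * ρ / K ^ c ≤ E'.card ∧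
      ∀ ω ∈ E', ρ / K ^ c ≤ |ω.2 - z0| ∧ |ω.2 - z0| ≤ ρ ∧
        cf.nL / K ^ c ≤ ((cf.L.filter fun i => (i, z0) ∈ cf.E ∧ (i, ω.2) ∈ cf.E).card : ℝ) := by
  refine ⟨10, fun cf N H K ρ h hN hK hρ hρ1 hc => ?_⟩
  have hK0 : 0 < K := by linarith
  have hn := h.nL_pos
  have k1 : 1 ≤ K ^ 10 := one_le_pow₀ (by linarith)
  have hH0 : 0 < H := (mul_pos_iff_of_pos_right hρ).1 (by linarith)
  have hH : 1 ≤ H := by nlinarith
  have r1 : 1 / H ≤ ρ / K ^ 10 := by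
    rw [div_le_div_iff₀ hH0 (by positivity)]
    linarith
  have r2 : 1 / H ≤ ρ := r1.trans (div_le_self hρ.le k1)
  obtain ⟨T, hT, hm⟩ := end0_low h hN hK0 hH0 hρ hρ1
  obtain ⟨com, hcom⟩ : ∃ com : ℝ → ℝ → ℝ, ∀ z z', com z z' =
    ((cf.L.filter fun i => (i, z) ∈ cf.E ∧ (i, z') ∈ cf.E).card : ℝ) := ⟨_, fun _ _ => rfl⟩
  have b1 := end0_near h hN hK0 hH r1 (T := T.filter fun p => |p.2.2 - p.1.2| ≤ ρ / K ^ 10)
    fun p hp => ⟨(hm p (mem_filter.1 hp).1).1, (hm p (mem_filter.1 hp).1).2.1,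
      (hm p (mem_filter.1 hp).1).2.2.1, (mem_filter.1 hp).2⟩
  have b2 := end0_poor h hK0 hH r2 (M := cf.nL / K ^ 10) (by positivity)
    (T := T.filter fun p => com p.1.2 p.2.2 ≤ cf.nL / K ^ 10)
    (fun p hp => hm p (mem_filter.1 hp).1) fun p hp => hcom _ _ ▸ (mem_filter.1 hp).2
  obtain ⟨T3, hT3⟩ : ∃ T3, T3 = T.filter fun p => ρ / K ^ 10 ≤ |p.2.2 - p.1.2| ∧
    cf.nL / K ^ 10 ≤ com p.1.2 p.2.2 := ⟨_, rfl⟩
  have b3 : T ⊆ ((T.filter fun p => |p.2.2 - p.1.2| ≤ ρ / K ^ 10) ∪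
      T.filter fun p => com p.1.2 p.2.2 ≤ cf.nL / K ^ 10) ∪ T3 := fun p hp => by
    simp only [hT3, mem_union, mem_filter, hp, true_and]
    rcases le_total |p.2.2 - p.1.2| (ρ / K ^ 10) with e | e
    · exact Or.inl (Or.inl e)
    rcases le_total (com p.1.2 p.2.2) (cf.nL / K ^ 10) with e' | e'
    · exact Or.inl (Or.inr e')
    · exact Or.inr ⟨e, e'⟩
  have b4 := (Nat.cast_le (α := ℝ)).2 ((card_le_card b3).trans ((card_union_le _ _).trans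
    (Nat.add_le_add_right (card_union_le _ _) _)))
  rw [Nat.cast_add, Nat.cast_add] at b4
  obtain ⟨F, f1, f2, f3⟩ := big_comb T3 fun p => p.1.2
  have f0 : ∀ p ∈ F, p ∈ T ∧ ρ / K ^ 10 ≤ |p.2.2 - p.1.2| ∧ cf.nL / K ^ 10 ≤ com p.1.2 p.2.2 :=
    fun p hp => mem_filter.1 (hT3 ▸ f1 hp)
  have f4 : ((T3.image fun p => p.1.2).card : ℝ) ≤ K * H := by
    refine le_trans (Nat.cast_le.2 (card_le_card fun z hz => ?_)) (h.cardZ hH)
    obtain ⟨p, hp, rfl⟩ := mem_image.1 hz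
    exact (mem_product.1 (h.sub (hm p (mem_filter.1 (hT3 ▸ hp)).1).1)).2
  have f5 := f2.trans (mul_le_mul_of_nonneg_right f4 (Nat.cast_nonneg _))
  obtain ⟨A, hA⟩ : ∃ A, A = cf.nL * H ^ 2 * ρ / K ^ 10 := ⟨_, rfl⟩
  have A0 : 0 < A := by rw [hA]; positivity
  have e0 : cf.nL * H ^ 2 * ρ / (3 * K ^ 3) = A * K ^ 3 * K ^ 4 / 3 := by
    rw [hA]
    field_simp
  have e1 : K * cf.nL * (K * H) * (K * (ρ / K ^ 10) * H) = A * K ^ 3 := by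
    rw [hA]
    field_simp
  have e2 : K * H * (K * ρ * H) * (cf.nL / K ^ 10) = A * K ^ 2 := by
    rw [hA]
    field_simp
  have e3 : K * H * (cf.nL * H * ρ / K ^ 10) = A * K := by
    rw [hA]
    field_simp
  have k2 : K ≤ K ^ 3 := le_self_pow₀ (by linarith) (by norm_num)
  have k3 : K ^ 2 ≤ K ^ 3 := pow_le_pow_right₀ (by linarith) (by norm_num)
  have k4 : (2 : ℝ) ^ 4 ≤ K ^ 4 := pow_le_pow_left₀ (by norm_num) hK 4
  have f6 : cf.nL * H * ρ / K ^ 10 ≤ F.card := by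
    refine le_of_mul_le_mul_left (le_trans ?_ f5) (by positivity : 0 < K * H)
    rw [e0] at hT
    rw [e1] at b1
    rw [e2] at b2
    rw [e3]
    have m1 := mul_le_mul_of_nonneg_left k2 A0.le
    have m2 := mul_le_mul_of_nonneg_left k3 A0.le
    have m3 := mul_le_mul_of_nonneg_left k4 (by positivity : 0 ≤ A * K ^ 3)
    have m4 : 0 ≤ A * K ^ 3 := by positivity
    linarith
  obtain ⟨p0, hp0⟩ : F.Nonempty :=
    card_pos.1 (Nat.cast_pos.1 (lt_of_lt_of_le (by positivity) f6))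
  refine ⟨p0.1.2, F.image Prod.snd, fun ω hω => ?_, ?_, fun ω hω => ?_⟩
  · obtain ⟨p, hp, rfl⟩ := mem_image.1 hω
    exact (hm p (f0 p hp).1).2.1
  · rw [card_image_of_injOn fun q hq q' hq' e => ?_]
    · exact f6
    · refine Prod.ext (Prod.ext ?_ (f3 q hq q' hq')) e
      rw [(hm q (f0 q hq).1).2.2.1, (hm q' (f0 q' hq').1).2.2.1, e]
  · obtain ⟨p, hp, rfl⟩ := mem_image.1 hω
    rw [← hcom, ← f3 p hp p0 hp0]
    exact ⟨(f0 p hp).2.1, (hm p (f0 p hp).1).2.2.2, (f0 p hp).2.2⟩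

end Vale.Agent.P127
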