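import Vale.Agent.P127.End0

/-! # P127 End1: one dimensional grains are parallel.  See notes/P127.md, part END1. -/

namespace Vale.Agent.P127

open Finset
open scoped Classical

variable {D : ℕ}

theorem j0_End1 {S : Finset (Fin D)} (h : S.card + 1 = D) : ∃ j0, j0 ∉ S ∧ ∀ j, j ≠ j0 → j ∈ S := by
  have h1 : Sᶜ.card = 1 := by rw [card_compl, Fintype.card_fin]; omega
  obtain ⟨j0, hj⟩ := card_eq_one.1 h1
  refine ⟨j0, mem_compl.1 (hj ▸ mem_singleton_self j0), fun j hj' => ?_⟩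
  by_contra hc
  exact hj' (mem_singleton.1 (hj ▸ mem_compl.2 hc))

theorem col_End1 {A : Mt D} {j0 i : Fin D} (h : ∀ j, j ≠ j0 → A i j = 0) (w : V D) :
    mv A w i = A i j0 * w j0 := by
  unfold mv
  exact sum_eq_single j0 (fun j _ hj => by rw [h j hj, zero_mul]) (by simp)

theorem le_of_col_End1 {x y b g : ℝ} (hg : 0 < g) (h1 : g ≤ |y|) (h2 : |x * y| ≤ b) :
    |x| ≤ b / g := by
  rw [le_div_iff₀ hg]
  rw [abs_mul] at h2
  exact (mul_le_mul_of_nonneg_left h1 (abs_nonneg x)).trans h2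

theorem pair_End1 {d : Dat D} {K r γ n z : ℝ} (hg : Gr d.S d.P) (hl : Lip1 d K r) {j0 : Fin D}
    (hj : ∀ j, j ≠ j0 → j ∈ d.S) (hK : 0 ≤ K) (hn : n ≤ r) (hγ : 4 * K * r ≤ γ) {i i' : ℕ}
    (hi : (i, z) ∈ d.c.E) (hi' : (i', z) ∈ d.c.E) (h1 : ‖d.c.pos (i, z) - d.c.pos (i', z)‖ ≤ n)
    (h2 : γ ≤ ‖d.c.e i - d.c.e i'‖) :
    ‖d.s (i, z) - d.s (i', z)‖ ≤ 2 * K * r ∧
      γ / (2 * (1 + D * 2 ^ D)) ≤ |(d.c.e i - d.c.e i') j0| := by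
  have h3 : ‖d.s (i, z) - d.s (i', z)‖ ≤ 2 * K * r := by
    have := hl _ hi _ hi' rfl
    nlinarith
  refine ⟨h3, ?_⟩
  have h4 := hg.norm_le_of z (d.c.e i - d.c.e i') (abs_nonneg ((d.c.e i - d.c.e i') j0))
    (fun j hj' => by
      by_cases e : j = j0
      · rw [e]
      · exact (hj' (hj j e)).elim)
  rw [mv_sub] at h4
  have h5 : ‖mv (d.P z) (d.c.e i) - mv (d.P z) (d.c.e i')‖ ≤ 2 * K * r := h3
  rw [div_le_iff₀ (by positivity)]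
  nlinarith

theorem ds_End1 {d : Dat D} {N H K η ξ n k z0 z1 : ℝ} (hp : Pre d.c N H K) (hg : Gr d.S d.P)
    (hl : Lip2 d K η ξ) {j0 : Fin D} (hκ : ∀ i j, j ≠ j0 → d.κ (cz η z1) i j = 0)
    (hk : ∀ i, |d.κ (cz η z1) i j0| ≤ k) (hK : 0 ≤ K) (hk0 : 0 ≤ k) (hτ : K * |z1 - z0| ≤ 1 / 2)
    {i i' : ℕ} (hi : (i, z1) ∈ d.c.E) (hi' : (i', z1) ∈ d.c.E)
    (h1 : ‖d.c.pos (i, z0) - d.c.pos (i', z0)‖ ≤ n) :
    ‖d.s (i, z1) - d.s (i', z1)‖ ≤ 2 * (4 * k + K * (D * 2 ^ D * n) + K * ξ) := by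
  have h2 := hl _ hi _ hi' rfl
  have e1 : d.u (i, z1) - d.u (i', z1) = mv (d.P z1) (d.c.pos (i, z0) - d.c.pos (i', z0)) +
      (z1 - z0) • (d.s (i, z1) - d.s (i', z1)) := by
    simp only [Dat.u, Dat.s]
    rw [pos_shift d.c i z0 z1, pos_shift d.c i' z0 z1, mv_add, mv_add, mv_smul, mv_smul, mv_sub,
      smul_sub]
    abel
  have e2 : d.s (i, z1) - d.s (i', z1) = (d.st η (i, z1) - d.st η (i', z1)) -
      mv (d.κ (cz η z1)) (d.c.pos (i, z1) - d.c.pos (i', z1)) := by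
    simp only [Dat.st]
    rw [mv_sub]
    abel
  have h3 : ‖mv (d.κ (cz η z1)) (d.c.pos (i, z1) - d.c.pos (i', z1))‖ ≤ 4 * k := by
    refine (pi_norm_le_iff_of_nonneg (by positivity)).2 fun l => ?_
    rw [col_End1 (hκ l), Real.norm_eq_abs, abs_mul, mul_comm 4 k]
    refine mul_le_mul (hk l) ?_ (abs_nonneg _) hk0
    have h4 := norm_le_pi_norm (d.c.pos (i, z1) - d.c.pos (i', z1)) j0
    have h5 := norm_sub_le (d.c.pos (i, z1)) (d.c.pos (i', z1))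
    rw [Real.norm_eq_abs] at h4
    linarith [hp.norm_pos hi, hp.norm_pos hi']
  have h4 : ‖mv (d.P z1) (d.c.pos (i, z0) - d.c.pos (i', z0))‖ ≤ D * 2 ^ D * n :=
    (norm_mv _ _).trans (by gcongr; exact hg.norm_le z1)
  have h5 : ‖d.u (i, z1) - d.u (i', z1)‖ ≤
      D * 2 ^ D * n + |z1 - z0| * ‖d.s (i, z1) - d.s (i', z1)‖ := by
    rw [e1]
    refine (norm_add_le _ _).trans (add_le_add h4 (le_of_eq ?_))
    rw [norm_smul, Real.norm_eq_abs]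
  have h6 := norm_sub_le (d.st η (i, z1) - d.st η (i', z1))
    (mv (d.κ (cz η z1)) (d.c.pos (i, z1) - d.c.pos (i', z1)))
  rw [← e2] at h6
  have h7 := mul_le_mul_of_nonneg_left h5 hK
  have h8 := mul_le_mul_of_nonneg_right hτ (norm_nonneg (d.s (i, z1) - d.s (i', z1)))
  nlinarith

theorem num_End1 {C K γ ξ n r B : ℝ} (hC : 1 ≤ C) (hK : 1 ≤ K) (hγ : 0 < γ) (hγ1 : γ ≤ 1)
    (hξ : 0 ≤ ξ) (hn : n ≤ ξ) (hr : r ≤ ξ) (hB0 : 0 ≤ B) (hB : B ≤ C) (hn0 : 0 ≤ n) :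
    (2 * (4 * (ξ / (γ / (2 * C))) + K * (B * n) + K * ξ) + 2 * K * r) / (γ / (2 * C)) ≤
      44 * C ^ 2 * K * γ⁻¹ ^ 2 * ξ := by
  have h1 : 1 ≤ γ⁻¹ := (one_le_inv₀ hγ).2 hγ1
  have e1 : ∀ x : ℝ, x / (γ / (2 * C)) = 2 * C * γ⁻¹ * x := fun x => by field_simp
  rw [e1, e1]
  have h2 : B * n ≤ C * ξ := mul_le_mul hB hn hn0 (by linarith)
  have h3 : ξ ≤ C * γ⁻¹ * ξ := le_mul_of_one_le_left hξ (by nlinarith)
  have h4 : C * ξ ≤ C * γ⁻¹ * ξ := by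
    have : C ≤ C * γ⁻¹ := le_mul_of_one_le_right (by linarith) h1
    gcongr
  have h5 : 0 ≤ C * γ⁻¹ * ξ := hξ.trans h3
  have h6 : C * γ⁻¹ * ξ ≤ K * (C * γ⁻¹ * ξ) := le_mul_of_one_le_left h5 hK
  have h7 : K * (B * n) ≤ K * (C * γ⁻¹ * ξ) :=
    mul_le_mul_of_nonneg_left (h2.trans h4) (by linarith)
  have h8 : K * ξ ≤ K * (C * γ⁻¹ * ξ) := mul_le_mul_of_nonneg_left h3 (by linarith)
  have h9 : K * r ≤ K * (C * γ⁻¹ * ξ) :=
    mul_le_mul_of_nonneg_left (hr.trans h3) (by linarith)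
  have h10 : 2 * (4 * (2 * C * γ⁻¹ * ξ) + K * (B * n) + K * ξ) + 2 * K * r ≤
      22 * (K * (C * γ⁻¹ * ξ)) := by linarith
  calc 2 * C * γ⁻¹ * (2 * (4 * (2 * C * γ⁻¹ * ξ) + K * (B * n) + K * ξ) + 2 * K * r)
      ≤ 2 * C * γ⁻¹ * (22 * (K * (C * γ⁻¹ * ξ))) := by gcongr
    _ = 44 * C ^ 2 * K * γ⁻¹ ^ 2 * ξ := by ring

theorem core_End1 {d : Dat D} {N H K η ξ' ξ r γ n z0 z1 : ℝ} (hp : Pre d.c N H K)
    (hg : Gr d.S d.P) (h1 : Lip1 d K r) (hlin : Lin d K η ξ') (hb : HBp d η ξ) (h2 : Lip2 d K η ξ)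
    {j0 : Fin D} (hj : ∀ j, j ≠ j0 → j ∈ d.S) (hK : 1 ≤ K) (hγ : 0 < γ) (hγ1 : γ ≤ 1) (hn0 : 0 ≤ n)
    (hn : n ≤ r) (hnη : n ≤ η) (hr : r ≤ ξ) (hrγ : 4 * K * r ≤ γ) (hτ : K * |z1 - z0| ≤ 1 / 2)
    {F : Finset ℕ} (hF : ∀ i ∈ F, (i, z0) ∈ d.c.E ∧ (i, z1) ∈ d.c.E)
    (hs0 : ∃ i ∈ F, ∃ i' ∈ F, ‖d.c.pos (i, z0) - d.c.pos (i', z0)‖ ≤ n ∧ γ ≤ ‖d.c.e i - d.c.e i'‖)
    (hs1 : ∃ i ∈ F, ∃ i' ∈ F, ‖d.c.pos (i, z1) - d.c.pos (i', z1)‖ ≤ n ∧ γ ≤ ‖d.c.e i - d.c.e i'‖)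
    (l : Fin D) :
    |d.P z1 l j0 - d.P z0 l j0| ≤ 44 * (1 + D * 2 ^ D) ^ 2 * K * γ⁻¹ ^ 2 * ξ := by
  have hK0 : 0 ≤ K := by linarith
  have hξ : 0 ≤ ξ := by linarith
  have hB0 : (0 : ℝ) ≤ D * 2 ^ D := by positivity
  have hg0 : 0 < γ / (2 * (1 + D * 2 ^ D)) := by positivity
  have hκ : ∀ i j, j ≠ j0 → d.κ (cz η z1) i j = 0 := fun i j hj' =>
    hlin.1 _ i j (Or.inr (hj j hj'))
  have hk : ∀ i, |d.κ (cz η z1) i j0| ≤ ξ / (γ / (2 * (1 + D * 2 ^ D))) := by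
    intro t
    obtain ⟨i, hi, i', hi', h3, h4⟩ := hs1
    have h5 := (pair_End1 hg h1 hj hK0 hn hrγ (hF i hi).2 (hF i' hi').2 h3 h4).2
    have h6 := hb _ (hF i hi).2 _ (hF i' hi').2 rfl (h3.trans hnη)
    have h7 := (norm_le_pi_norm _ t).trans h6
    rw [col_End1 (hκ t), Real.norm_eq_abs] at h7
    exact le_of_col_End1 hg0 h5 h7
  obtain ⟨i, hi, i', hi', h3, h4⟩ := hs0
  obtain ⟨h5, h6⟩ := pair_End1 hg h1 hj hK0 hn hrγ (hF i hi).1 (hF i' hi').1 h3 h4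
  have h7 := ds_End1 hp hg h2 hκ hk hK0 (by positivity) hτ (hF i hi).2 (hF i' hi').2 h3
  have e1 : mv (d.P z1 - d.P z0) (d.c.e i - d.c.e i') =
      (d.s (i, z1) - d.s (i', z1)) - (d.s (i, z0) - d.s (i', z0)) := by
    simp only [Dat.s]
    rw [sub_mv, mv_sub, mv_sub]
  have h8 := (norm_le_pi_norm (mv (d.P z1 - d.P z0) (d.c.e i - d.c.e i')) l).trans
    ((le_of_eq (congrArg norm e1)).trans ((norm_sub_le _ _).trans (add_le_add h7 h5)))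
  rw [col_End1 (j0 := j0) (fun j hj' => by
    by_cases hl : l ∈ d.S
    · simp [(hg z1).2.1 l hl j (hj j hj'), (hg z0).2.1 l hl j (hj j hj')]
    · simp [(hg z1).1 l hl j, (hg z0).1 l hl j]), Real.norm_eq_abs] at h8
  exact (le_of_col_End1 hg0 h6 h8).trans
    (num_End1 (by linarith) hK hγ hγ1 hξ (hn.trans hr) hr hB0 (by linarith) hn0)

theorem vec_End1 {S : Finset (Fin D)} {P : ℝ → Mt D} (hg : Gr S P) (hS : S.card + 1 = D)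
    {j0 : Fin D} (hj0 : j0 ∉ S) (hj : ∀ j, j ≠ j0 → j ∈ S) (z0 : ℝ) :
    ∃ v : V D, v j0 = 1 ∧ ‖v‖ ≤ 2 ∧ ∀ z1 l, mv (P z1) v l = P z1 l j0 - P z0 l j0 := by
  refine ⟨fun j => if j = j0 then 1 else -P z0 j j0, by simp, ?_, fun z1 l => ?_⟩
  · refine (pi_norm_le_iff_of_nonneg (by norm_num)).2 fun j => ?_
    have h1 := (hg z0).2.2 j j0
    rw [show D - S.card = 1 by omega, pow_one] at h1
    by_cases e : j = j0
    · simp [e]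
    · simpa [e] using h1
  · by_cases hl : l ∈ S
    · have hl0 : l ≠ j0 := fun e => hj0 (e ▸ hl)
      unfold mv
      rw [sum_eq_add_of_mem j0 l (mem_univ _) (mem_univ _) hl0.symm]
      · simp [hl0, (hg z1).2.1 l hl l hl, sub_eq_add_neg]
      · intro j _ hj'
        simp [(hg z1).2.1 l hl j (hj j hj'.1), hj'.2.symm]
    · simp [mv, (hg z1).1 l hl, (hg z0).1 l hl]

theorem gam_End1 {C K σ : ℝ} {c c0 : ℕ} (hK : 1 ≤ K) (hC : C < K)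
    (hc : (c : ℝ) + 3 ≤ c0 * σ) : C * K ^ 2 * K ^ c * ((K ^ c0)⁻¹) ^ σ < 1 := by
  have hK0 : 0 < K := by linarith
  have h1 : K ^ (c + 3) ≤ (K ^ c0) ^ σ := by
    rw [← Real.rpow_natCast K c0, ← Real.rpow_mul hK0.le, ← Real.rpow_natCast K (c + 3)]
    exact Real.rpow_le_rpow_of_exponent_le hK (by push_cast; exact hc)
  rw [Real.inv_rpow (by positivity), ← div_eq_mul_inv, div_lt_one (by positivity)]
  refine lt_of_lt_of_le ?_ h1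
  have h2 : 0 < K ^ 2 * K ^ c := by positivity
  calc C * K ^ 2 * K ^ c = C * (K ^ 2 * K ^ c) := by ring
    _ < K * (K ^ 2 * K ^ c) := by gcongr
    _ = K ^ (c + 3) := by ring

theorem end1 {D m : ℕ} {σ a : ℝ} (h0 : 0 < σ) (hm : m + 1 = D) (ha : 0 < a) (ha1 : a ≤ 1 / 100) :
    Step (D := D) (S5 a σ m) (S6 a σ m) := by
  intro ε' hε'
  obtain ⟨c, hc⟩ := end0 D
  obtain ⟨C, hC1, hC⟩ := spread D
  obtain ⟨c0, hc0⟩ : ∃ c0 : ℕ, (c : ℝ) + 3 ≤ c0 * σ := by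
    obtain ⟨c0, h⟩ := exists_nat_ge (((c : ℝ) + 3) / σ)
    exact ⟨c0, (div_le_iff₀ h0).1 h⟩
  have hb : 0 < min ε' (3 * a / 8) := lt_min hε' (by positivity)
  set C1 : ℝ := 1 + D * 2 ^ D with hC1def
  have hC11 : 1 ≤ C1 := le_add_of_nonneg_right (by positivity)
  obtain ⟨ε, hε, N1, hs⟩ := small (44 * C1 ^ 2) (2 * c0 + c + 1) hb
  obtain ⟨N2, hbig⟩ := big (C + 2) hε
  refine ⟨ε, hε, max N1 N2, fun N hN d hd => ?_⟩
  obtain ⟨hN2, hsm⟩ := hs ε hε le_rfl N (le_trans (le_max_left _ _) hN)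
  obtain ⟨-, hCK, -⟩ := hbig N (le_trans (le_max_right _ _) hN)
  obtain ⟨⟨⟨⟨hreg, hl1, -⟩, hlin⟩, hhb⟩, hl2⟩ := hd
  set K := N ^ ε with hKdef
  have hK2 : 2 ≤ K := by linarith
  have hK1 : 1 ≤ K := by linarith
  have hN1 : 1 ≤ N := by linarith
  have hN0 : 0 < N := by linarith
  have hup : ∀ (k : ℕ) (b : ℝ), k ≤ 2 * c0 + c + 1 → min ε' (3 * a / 8) ≤ b → 4 * K ^ k ≤ N ^ b := by
    intro k b hk hb'
    refine le_trans ?_ (hsm.trans (Real.rpow_le_rpow_of_exponent_le hN1 hb'))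
    exact mul_le_mul (by nlinarith) (pow_le_pow_right₀ hK1 hk) (by positivity) (by positivity)
  have hmin := min_le_right ε' (3 * a / 8)
  have hH : 0 < N ^ (1 / 3 : ℝ) := by positivity
  have hρ : 0 < 1 / (4 * K) := by positivity
  have hA := hup (c + 1) (1 / 3) (by omega) (by linarith)
  have hA' := hup (c + 1) ε' (by omega) (min_le_left _ _)
  obtain ⟨z0, E', hE', hmass, hω⟩ := hc d.c N _ K (1 / (4 * K)) hreg.good.toPre hN1 hK2 hρ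
    ((div_le_one (by positivity)).2 (by linarith))
    (by rw [mul_one_div, le_div_iff₀ (by positivity)]; rw [pow_succ] at hA; linarith)
  have hS : d.S.card + 1 = D := by rw [hreg.card_S, hm]
  obtain ⟨j0, hj0, hj⟩ := j0_End1 hS
  obtain ⟨v, hv1, hv2, hv3⟩ := vec_End1 hreg.gr hS hj0 hj z0
  have hKc : 1 ≤ K ^ c := one_le_pow₀ hK1
  have hKK : K ≤ N ^ ε' := by rw [pow_succ] at hA'; nlinarith
  refine ⟨d.res E', hreg.res hN0 hH (by linarith) hKK hE' (le_trans ?_ hmass), v, j0, hj0, hv1,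
    by linarith, fun ω hω' => ?_⟩
  · have := hreg.good.nL_pos
    rw [mul_one_div, div_div]
    refine div_le_div_of_nonneg_left (by positivity) (by positivity) ?_
    rw [pow_succ] at hA'
    linarith
  have hneg : ∀ b b' : ℝ, b ≤ b' → N ^ (-b') ≤ N ^ (-b) := fun b b' h =>
    Real.rpow_le_rpow_of_exponent_le hN1 (by linarith)
  have hn : ∀ b : ℝ, b ≤ 1 → 1 / N ≤ N ^ (-b) := fun b h => by
    have := hneg b 1 h
    rwa [Real.rpow_neg_one, ← one_div] at this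
  have hγ0 : 0 < (K ^ c0)⁻¹ := by positivity
  have hγ1 : (K ^ c0)⁻¹ ≤ 1 := inv_le_one_of_one_le₀ (one_le_pow₀ hK1)
  have hrγ : 4 * K * N ^ (-(2 / 5) : ℝ) ≤ (K ^ c0)⁻¹ := by
    have h1 := hup (c0 + 1) (2 / 5) (by omega) (by linarith)
    rw [Real.rpow_neg hN0.le, ← div_eq_mul_inv, inv_eq_one_div,
      div_le_div_iff₀ (by positivity) (by positivity)]
    rw [pow_succ] at h1
    linarith
  have hr0 : 0 < N ^ (-(2 / 5) : ℝ) := by positivity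
  have hNγ : 1 / N ≤ (K ^ c0)⁻¹ := by
    have h1 := hn (2 / 5) (by norm_num)
    nlinarith
  obtain ⟨-, h2, h3⟩ := hω ω hω'
  have hsp := fun z (hz : ∀ i ∈ d.c.L.filter fun i => (i, z0) ∈ d.c.E ∧ (i, ω.2) ∈ d.c.E,
      (i, z) ∈ d.c.E) => hC hreg hN1 _ z (K ^ c) (K ^ c0)⁻¹ (by positivity) hz h3 hNγ hγ1
    (gam_End1 hK1 (by linarith) hc0)
  have hτ : K * |ω.2 - z0| ≤ 1 / 2 := by
    rw [le_div_iff₀ (by positivity)] at h2
    linarith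
  have hfin : 44 * C1 ^ 2 * K * ((K ^ c0)⁻¹)⁻¹ ^ 2 * N ^ (-(a / 2)) ≤ N ^ (-(a / 8)) := by
    have h4 : 44 * C1 ^ 2 * K * ((K ^ c0)⁻¹)⁻¹ ^ 2 ≤ N ^ (3 * a / 8) := by
      refine le_trans ?_ (hsm.trans (Real.rpow_le_rpow_of_exponent_le hN1 hmin))
      rw [inv_inv, mul_assoc, ← pow_mul, ← pow_succ']
      gcongr
      omega
    refine (mul_le_mul_of_nonneg_right h4 (by positivity)).trans (le_of_eq ?_)
    rw [← Real.rpow_add hN0]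
    congr 1
    ring
  refine (pi_norm_le_iff_of_nonneg (by positivity)).2 fun l => ?_
  show ‖mv (d.P ω.2) v l‖ ≤ _
  rw [hv3, Real.norm_eq_abs]
  exact (core_End1 hreg.good.toPre hreg.gr hl1 hlin hhb hl2 hj hK1 hγ0 hγ1 (by positivity)
    (hn _ (by norm_num)) (hn _ (by norm_num)) (hneg _ _ (by linarith)) hrγ hτ
    (fun i hi => (mem_filter.1 hi).2) (hsp z0 fun i hi => (mem_filter.1 hi).2.1)
    (hsp ω.2 fun i hi => (mem_filter.1 hi).2.2) l).trans hfin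

end Vale.Agent.P127
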