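import Vale.Agent.P127.Api2

/-! # P127 LemA: grains of codimension one, the slices contain no interval.
The lines of F lie in at most C K N^(1 - sigma) cells of u(., z1) of side 1/N (r3A, beta = 1); take the heaviest, F1, of mass at least nL N^(-(1 - sigma)) / (C K K'). Let b = K'^(-c0) and suppose rho < norm Ev * b.
By ruA (beta' = 1/N, beta = b) F1 meets at least b^(-(D-1)) / K'^c cells of pos(., z1) of side b. Let j1 maximise |Ev j|. The value of sum Ev j pos j up to 3 norm Ev * b and the cells of the other coordinates outside i0, j1 fix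
pos j1 up to C b and then (Gr.norm_le_of) pos up to C b. So the cells of side norm Ev * b of u(., z0) met by F1 number at least 1 / (b K'^c); they lie in a ball of radius C norm Ev; r3A (beta = min 1 (norm Ev), A = C K')
bounds their number by K'^c b^(-(1 - sigma)); so b^(-sigma) is at most K'^c, false for c0 large. If D = 1 then Ev = 0. -/

namespace Vale.Agent.P127

open Finset
open scoped Classical

theorem la_pow {N σ : ℝ} (hN : 0 < N) (e : ℕ) :
    (1 / (1 / N)) ^ (((1 : ℕ) : ℝ) - σ) * (1 / N) ^ (((e + 1 : ℕ) : ℝ) - σ) * N ^ e = 1 := by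
  rw [one_div_one_div, one_div, Real.inv_rpow hN.le, ← Real.rpow_neg hN.le, ← Real.rpow_natCast,
    ← Real.rpow_add hN, ← Real.rpow_add hN, ← Real.rpow_zero N]
  congr 1
  push_cast
  ring

theorem la_img {γ : Type} [DecidableEq γ] {G : Finset (ℕ × ℝ)} {F : Finset ℕ} {z : ℝ}
    (f : ℕ × ℝ → γ) (h : ∀ i ∈ F, (i, z) ∈ G) :
    ((F.image fun i => f (i, z)).card : ℝ) ≤ (G.image f).card := by
  refine Nat.cast_le.2 (card_le_card fun y hy => ?_)
  obtain ⟨i, hi, rfl⟩ := mem_image.1 hy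
  exact mem_image_of_mem f (h i hi)

theorem la_big {Ω β : Type} [i : DecidableEq β] (E : Finset Ω) (f : Ω → β) :
    ∃ F ⊆ E, (E.card : ℝ) ≤ (E.image f).card * F.card ∧ ∀ ω ∈ F, ∀ ω' ∈ F, f ω = f ω' := by
  obtain rfl : i = fun a b => Classical.propDecidable (a = b) := Subsingleton.elim _ _
  exact big_comb E f

theorem la_fib {Ω β : Type} [i : DecidableEq β] (E : Finset Ω) (f : Ω → β) {M : ℝ}
    (h : ∀ ω ∈ E, ((E.filter fun ω' => f ω' = f ω).card : ℝ) ≤ M) :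
    (E.card : ℝ) ≤ (E.image f).card * M := by
  obtain rfl : i = fun a b => Classical.propDecidable (a = b) := Subsingleton.elim _ _
  exact card_le_fib E f h

theorem la_mul {Ω β γ : Type} [i : DecidableEq β] [j : DecidableEq γ] (E : Finset Ω) (f : Ω → β)
    (g : Ω → γ) {M : ℝ}
    (h : ∀ ω ∈ E, (((E.filter fun ω' => f ω' = f ω).image g).card : ℝ) ≤ M) :
    ((E.image g).card : ℝ) ≤ (E.image f).card * M := by
  obtain rfl : i = fun a b => Classical.propDecidable (a = b) := Subsingleton.elim _ _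
  obtain rfl : j = fun a b => Classical.propDecidable (a = b) := Subsingleton.elim _ _
  exact image_le_mul E f g h

/-- the heaviest cell of `u` meets many cells of `pos` -/
theorem la_heavy (e : ℕ) : ∃ C ≥ (1 : ℝ), ∀ {σ : ℝ} {d : Dat (e + 1)} {N H K : ℝ}, Reg σ 1 d N H K →
    0 ≤ K → ∀ (F : Finset ℕ) (z K' B : ℝ), 0 < K' → 1 ≤ B → B ≤ N → (∀ i ∈ F, (i, z) ∈ d.c.E) →
    d.c.nL / K' ≤ F.card → ∃ F1 ⊆ F, (∀ i ∈ F1, ∀ i' ∈ F1, ‖d.u (i, z) - d.u (i', z)‖ ≤ 1 / N) ∧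
      B ^ e ≤ C * K ^ 2 * K' * (F1.image fun i => cell (1 / B) (d.c.pos (i, z))).card := by
  obtain ⟨C3, h3, r3⟩ := r3A (e + 1)
  obtain ⟨Cu, hu, ru⟩ := ruA (e + 1)
  obtain ⟨A, hA⟩ : ∃ A : ℝ, A = 1 + (e + 1 : ℕ) * 2 ^ (e + 1) * 2 := ⟨_, rfl⟩
  have A1 : 1 ≤ A := hA ▸ le_add_of_nonneg_right (by positivity)
  refine ⟨C3 * A ^ (e + 1) * Cu, one_le_mul_of_one_le_of_one_le
    (one_le_mul_of_one_le_of_one_le h3 (one_le_pow₀ A1)) hu, ?_⟩
  intro σ d N H K h hK F z K' B hK' hB hBN hF hm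
  have hN : 1 ≤ N := hB.trans hBN
  have N0 : 0 < N := by linarith
  have B0 : 0 < B := by linarith
  have hL := h.good.nL_pos
  obtain ⟨F1, s1, s2, s3⟩ := la_big F fun i => cell (1 / N) (d.u (i, z))
  have c1 : ∀ i ∈ F1, ∀ i' ∈ F1, ‖d.u (i, z) - d.u (i', z)‖ ≤ 1 / N := fun i hi i' hi' =>
    cell_close (by positivity) (s3 i hi i' hi')
  refine ⟨F1, s1, c1, ?_⟩
  have a0 : ∀ i ∈ F, ‖d.u (i, z) - 0‖ ≤ A * 1 := fun i hi => by
    rw [sub_zero, mul_one, hA]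
    refine (norm_mv _ _).trans (le_trans ?_ (le_add_of_nonneg_left zero_le_one))
    exact mul_le_mul (mul_le_mul_of_nonneg_left (h.gr.norm_le z) (Nat.cast_nonneg _))
      (h.good.toPre.norm_pos (hF i hi)) (norm_nonneg _) (by positivity)
  have a1 := (la_img (F := F) (fun ω => cell (1 / N) (d.u ω))
    fun i hi => mem_filter.2 ⟨hF i hi, rfl, a0 i hi⟩).trans
    (r3 h hN A z 1 (1 / N) 0 A1 le_rfl ((div_le_one N0).2 hN) le_rfl)
  have a2 := la_fib F1 (fun i => cell (1 / B) (d.c.pos (i, z))) fun i hi =>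
    le_trans (Nat.cast_le.2 (card_le_card fun i' hi' => by
      obtain ⟨h1, h2⟩ := mem_filter.1 hi'
      exact mem_filter.2 ⟨(mem_product.1 (h.good.sub (hF i' (s1 h1)))).1, hF i' (s1 h1),
        (c1 i' h1 i hi).trans (one_mul _).ge, (cell_close (by positivity) h2).trans (one_mul _).ge⟩))
      (ru h hN 1 z (1 / B) (1 / N) (d.u (i, z)) (d.c.pos (i, z)) le_rfl le_rfl
        (one_div_le_one_div_of_le B0 hBN) ((div_le_one B0).2 hB))
  have a3 := hm.trans (s2.trans (mul_le_mul a1 a2 (Nat.cast_nonneg _) (by positivity)))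
  have a4 := la_pow (σ := σ) N0 e
  rw [Nat.add_sub_cancel, one_pow] at a3
  generalize (1 / (1 / N)) ^ (((1 : ℕ) : ℝ) - σ) = x at a3 a4
  generalize (1 / N) ^ (((e + 1 : ℕ) : ℝ) - σ) = y at a3 a4
  generalize ((F1.image fun i => cell (1 / B) (d.c.pos (i, z))).card : ℝ) = X at a3 ⊢
  have a5 : (1 / B / (1 / N)) ^ e = N ^ e / B ^ e := by
    rw [← div_pow]
    congr 1
    field_simp
  rw [a5, div_le_iff₀ hK'] at a3
  refine le_of_mul_le_mul_left ((mul_le_mul_of_nonneg_right a3 (pow_pos B0 e).le).trans_eq ?_) hL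
  have a6 : N ^ e / B ^ e * B ^ e = N ^ e := div_mul_cancel₀ _ (pow_pos B0 e).ne'
  linear_combination (C3 * A ^ (e + 1) * K * x * X * Cu * K * d.c.nL * y * K') * a6 +
    (C3 * A ^ (e + 1) * K * X * Cu * K * d.c.nL * K') * a4

theorem la_sum {D : ℕ} (Ev v : V D) (s : Finset (Fin D)) {b : ℝ} (hb : 0 ≤ b)
    (h : ∀ j ∈ s, |Ev j * v j| ≤ b) : |∑ j ∈ s, Ev j * v j| ≤ D * b := by
  refine (abs_sum_le_sum_abs _ _).trans ((sum_le_card_nsmul _ _ _ h).trans ?_)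
  rw [nsmul_eq_mul]
  refine mul_le_mul_of_nonneg_right (Nat.cast_le.2 ?_) hb
  exact (card_le_univ s).trans_eq (Fintype.card_fin D)

theorem la_near {D : ℕ} {P : ℝ → Mt D} {i0 j1 : Fin D} (hP : Gr {i0} P) (z : ℝ) {Ev v : V D} {b : ℝ}
    (hb : 0 ≤ b) (h0 : Ev i0 = 0) (h1 : |Ev j1| = ‖Ev‖) (hn : 0 < ‖Ev‖)
    (hs : |∑ j, Ev j * v j| ≤ 2 * (‖Ev‖ * b)) (hv : ∀ j, j ≠ i0 → j ≠ j1 → |v j| ≤ b)
    (hu : ‖mv (P z) v‖ ≤ b) : ‖v‖ ≤ (1 + (1 + D * 2 ^ D) * (D + 2)) * b := by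
  have h2 : |∑ j ∈ univ.erase j1, Ev j * v j| ≤ D * (‖Ev‖ * b) :=
    la_sum Ev v _ (by positivity) fun j hj => by
      by_cases e : j = i0
      · rw [e, h0, zero_mul, abs_zero]
        positivity
      · rw [abs_mul]
        exact mul_le_mul (norm_le_pi_norm Ev j) (hv j e (ne_of_mem_erase hj)) (abs_nonneg _) hn.le
  have h3 : |v j1| ≤ (D + 2) * b := by
    refine le_of_mul_le_mul_left ?_ hn
    have e : Ev j1 * v j1 = ∑ j, Ev j * v j - ∑ j ∈ univ.erase j1, Ev j * v j := by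
      rw [← add_sum_erase univ _ (mem_univ j1), add_sub_cancel_right]
    have := abs_sub (∑ j, Ev j * v j) (∑ j ∈ univ.erase j1, Ev j * v j)
    rw [← e, abs_mul, h1] at this
    linarith
  have h4 := hP.norm_le_of z v (b := (D + 2) * b) (by positivity) fun j hj => by
    by_cases e : j = j1
    · rw [e]
      exact h3
    · refine (hv j (fun e' => hj (mem_singleton.2 e')) e).trans (le_mul_of_one_le_left hb ?_)
      linarith [Nat.cast_nonneg (α := ℝ) D]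
  linarith

theorem la_card {e : ℕ} {i0 j1 : Fin (e + 1)} (h : j1 ≠ i0) :
    Fintype.card {j // j ≠ i0 ∧ j ≠ j1} + 1 = e := by
  have h1 : (univ.filter fun j => j ≠ i0 ∧ j ≠ j1) = (univ.erase i0).erase j1 := by
    ext j
    simp [and_comm]
  have h2 := card_erase_add_one (mem_erase.2 ⟨h, mem_univ j1⟩)
  have h3 := card_erase_add_one (mem_univ i0)
  rw [card_univ, Fintype.card_fin] at h3
  rw [Fintype.card_subtype, h1]
  omega

theorem la_core (e : ℕ) : ∃ C : ℝ, ∀ {σ : ℝ} (d : Dat (e + 1)) (N H K K' z0 z1 ρ B : ℝ)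
    (F : Finset ℕ) (i0 : Fin (e + 1)) (Ev : V (e + 1)), Reg σ 1 d N H K → d.S = {i0} → 2 ≤ K →
    K ≤ K' → K' ≤ B → B ≤ N → (∀ i ∈ F, (i, z0) ∈ d.c.E ∧ (i, z1) ∈ d.c.E) → d.c.nL / K' ≤ F.card →
    Ev i0 = 0 → ‖Ev‖ ≤ K' → 1 / N ≤ ρ →
    (∀ i ∈ F, ∀ i' ∈ F, ‖d.u (i, z1) - d.u (i', z1)‖ ≤ 1 / N →
      |d.u (i, z0) i0 - d.u (i', z0) i0 +
        ∑ j, Ev j * (d.c.pos (i, z1) j - d.c.pos (i', z1) j)| ≤ ρ) →
    B * ρ < ‖Ev‖ → B ^ σ ≤ C * K' ^ (e + 5) := by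
  obtain ⟨C1, h1, hv⟩ := la_heavy e
  obtain ⟨C3, h3, r3⟩ := r3A (e + 1)
  obtain ⟨C5, h5⟩ : ∃ C5 : ℝ, C5 = 1 + (1 + (e + 1 : ℕ) * 2 ^ (e + 1)) * ((e + 1 : ℕ) + 2) :=
    ⟨_, rfl⟩
  obtain ⟨A, hA⟩ : ∃ A : ℝ, A = 1 + (e + 1 : ℕ) * 4 := ⟨_, rfl⟩
  have A1 : 1 ≤ A := hA ▸ le_add_of_nonneg_right (by positivity)
  have C50 : 0 ≤ C5 := by
    rw [h5]
    positivity
  refine ⟨C1 * (C3 * A ^ (e + 1) * 6 ^ e * (2 * C5 + 2) ^ (e + 1)), ?_⟩
  intro σ d N H K K' z0 z1 ρ B F i0 Ev h hS hK hK' hB hN hF hm h0 hE hρ hr hlt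
  have K1 : 1 ≤ K' := by linarith
  have B1 : 1 ≤ B := by linarith
  have N1 : 1 ≤ N := by linarith
  have B0 : 0 < B := by linarith
  have b0 : 0 < 1 / B := by positivity
  have ρ0 : 0 < ρ := lt_of_lt_of_le (by positivity) hρ
  have n0 : 0 < ‖Ev‖ := lt_trans (by positivity) hlt
  have ρ1 : ρ ≤ ‖Ev‖ * (1 / B) := by
    rw [mul_one_div, le_div_iff₀' B0]
    exact hlt.le
  have b1 : 1 / B ≤ 1 := (div_le_one B0).2 B1
  have nb : ‖Ev‖ * (1 / B) ≤ ‖Ev‖ := mul_le_of_le_one_right n0.le b1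
  have hG : Gr {i0} d.P := hS ▸ h.gr
  obtain ⟨j1, -, hj⟩ := exists_max_image univ (fun j => |Ev j|) ⟨i0, mem_univ _⟩
  have hj1 : |Ev j1| = ‖Ev‖ := le_antisymm (norm_le_pi_norm Ev j1)
    ((pi_norm_le_iff_of_nonneg (abs_nonneg _)).2 fun j => hj j (mem_univ j))
  have hne : j1 ≠ i0 := fun e' => by
    rw [e', h0, abs_zero] at hj1
    exact n0.ne hj1
  obtain ⟨F1, s1, s2, s3⟩ := hv h (by linarith) F z1 K' B (by linarith) B1 hN
    (fun i hi => (hF i hi).2) hm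
  have np : ∀ i ∈ F1, ‖d.c.pos (i, z1)‖ ≤ 2 := fun i hi => h.good.toPre.norm_pos (hF i (s1 hi)).2
  have a1 := la_mul F1 (fun i => (cell (‖Ev‖ * (1 / B)) (d.u (i, z0)),
      cell (1 / B) fun j : {j // j ≠ i0 ∧ j ≠ j1} => d.c.pos (i, z1) j))
    (fun i => cell (1 / B) (d.c.pos (i, z1))) (M := (2 * C5 + 2) ^ (e + 1)) fun i hi => by
      refine (cover _ _ (d.c.pos (i, z1)) b0 (ρ := C5 * (1 / B)) (by positivity)
        fun i' hi' => ?_).trans_eq (by rw [Fintype.card_fin, ← mul_assoc, mul_div_cancel_right₀ _ b0.ne'])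
      obtain ⟨t1, t2⟩ := mem_filter.1 hi'
      obtain ⟨t2, t3⟩ := Prod.ext_iff.1 t2
      have t4 := hr i' (s1 t1) i (s1 hi) (s2 i' t1 i hi)
      have t5 := cz_close (mul_pos n0 b0) (congrFun t2 i0)
      rw [h5]
      refine la_near hG z1 b0.le h0 hj1 n0 ?_ (fun j e1 e2 => cz_close b0 (congrFun t3 ⟨j, e1, e2⟩)) ?_
      · obtain ⟨u1, u2⟩ := abs_le.1 t4
        obtain ⟨u3, u4⟩ := abs_le.1 t5
        simp only [Pi.sub_apply]
        exact abs_le.2 ⟨by linarith, by linarith⟩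
      · rw [mv_sub]
        exact (s2 i' t1 i hi).trans (one_div_le_one_div_of_le B0 hN)
  have a2 : ((F1.image fun i => (cell (‖Ev‖ * (1 / B)) (d.u (i, z0)),
      cell (1 / B) fun j : {j // j ≠ i0 ∧ j ≠ j1} => d.c.pos (i, z1) j)).card : ℝ) ≤
      (F1.image fun i => cell (‖Ev‖ * (1 / B)) (d.u (i, z0))).card *
      (F1.image fun i => cell (1 / B) fun j : {j // j ≠ i0 ∧ j ≠ j1} => d.c.pos (i, z1) j).card := by
    rw [← Nat.cast_mul, ← card_product]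
    refine Nat.cast_le.2 (card_le_card fun y hy => ?_)
    obtain ⟨i, hi, rfl⟩ := mem_image.1 hy
    exact mem_product.2 ⟨mem_image_of_mem _ hi, mem_image_of_mem _ hi⟩
  have a3 := cover F1 (fun i (j : {j // j ≠ i0 ∧ j ≠ j1}) => d.c.pos (i, z1) j) 0 b0 zero_le_two
    fun i hi => by
      rw [sub_zero]
      exact (pi_norm_le_iff_of_nonneg zero_le_two).2 fun j => (norm_le_pi_norm _ _).trans (np i hi)
  have hk := la_card hne
  generalize Fintype.card {j // j ≠ i0 ∧ j ≠ j1} = k at a3 hk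
  have a4 : (2 * 2 / (1 / B) + 2) ^ k ≤ 6 ^ e * B ^ k := by
    refine le_trans (pow_le_pow_left₀ (by positivity) (?_ : _ ≤ 6 * B) k) ?_
    · rw [div_div_eq_mul_div, div_one]
      linarith
    · rw [mul_pow]
      exact mul_le_mul_of_nonneg_right (pow_le_pow_right₀ (by norm_num) (by omega)) (by positivity)
  have a5 : ((F1.image fun i => cell (‖Ev‖ * (1 / B)) (d.u (i, z0))).card : ℝ) ≤
      C3 * (A * K') ^ (e + 1) * K * B ^ (1 - σ) := by
    rcases F1.eq_empty_or_nonempty with e' | ⟨i', hi'⟩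
    · rw [e', image_empty, card_empty, Nat.cast_zero]
      positivity
    have nb1 : ‖Ev‖ * (1 / B) ≤ 1 := by
      rw [mul_one_div, div_le_one B0]
      linarith
    refine ((la_img (fun ω => cell (‖Ev‖ * (1 / B)) (d.u ω))
      fun i hi => mem_filter.2 ⟨(hF i (s1 hi)).1, rfl, ?gxa⟩).trans
      (r3 h N1 (A * K') z0 (min 1 ‖Ev‖) _ (d.u (i', z0)) (one_le_mul_of_one_le_of_one_le A1 K1)
        (hρ.trans ρ1) (le_min nb1 nb) (min_le_left _ _))).trans ?gxb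
    case' gxa => skip
    · have t1 : ‖Ev‖ ≤ K' * min 1 ‖Ev‖ := by
        rw [mul_min_of_nonneg _ _ (by linarith), mul_one]
        exact le_min hE (le_mul_of_one_le_left n0.le K1)
      refine le_trans ?_ ((mul_le_mul_of_nonneg_left t1 (by linarith : 0 ≤ A)).trans_eq
        (mul_assoc _ _ _).symm)
      refine (pi_norm_le_iff_of_nonneg (by positivity)).2 fun j => ?_
      by_cases e' : j = i0
      · obtain ⟨u1, u2⟩ := abs_le.1 (hr i (s1 hi) i' (s1 hi') (s2 i hi i' hi'))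
        obtain ⟨u3, u4⟩ := abs_le.1 (la_sum Ev (d.c.pos (i, z1) - d.c.pos (i', z1)) univ
          (b := ‖Ev‖ * 4) (by positivity) fun j _ => by
            rw [abs_mul]
            refine mul_le_mul (norm_le_pi_norm Ev j) ((norm_le_pi_norm
              (d.c.pos (i, z1) - d.c.pos (i', z1)) j).trans
              ((norm_sub_le _ _).trans ?_)) (abs_nonneg _) n0.le
            linarith [np i hi, np i' hi'])
        simp only [Pi.sub_apply] at u3 u4
        rw [e', hA]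
        exact abs_le.2 ⟨by simp only [Pi.sub_apply]; linarith, by simp only [Pi.sub_apply]; linarith⟩
      · have t2 := (hG z0).1 j fun e'' => e' (mem_singleton.1 e'')
        simp only [Pi.sub_apply, Dat.u, mv, t2, zero_mul, sum_const_zero, sub_zero, norm_zero]
        positivity
    · rw [Nat.cast_one]
      refine mul_le_mul_of_nonneg_left (Real.rpow_le_rpow (by positivity) ?_ ?_) (by positivity)
      · rw [div_le_iff₀ (mul_pos n0 b0), mul_left_comm, mul_one_div_cancel B0.ne', mul_one]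
        exact min_le_right _ _
      · have := h.sigm
        rw [Nat.cast_one] at this
        linarith
  have a6 := s3.trans (mul_le_mul_of_nonneg_left (a1.trans (mul_le_mul_of_nonneg_right
    (a2.trans (mul_le_mul a5 (a3.trans a4) (Nat.cast_nonneg _) (by positivity))) (by positivity)))
    (by positivity))
  have a7 : B ^ e = B ^ σ * (B ^ (1 - σ) * B ^ k) := by
    rw [← mul_assoc, ← Real.rpow_add B0, add_sub_cancel, Real.rpow_one, ← hk, pow_succ']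
  have a8 : K ^ 3 ≤ K' ^ 3 := pow_le_pow_left₀ (by linarith) hK' 3
  have a9 : 0 < B ^ (1 - σ) * B ^ k := by positivity
  rw [a7] at a6
  refine le_of_mul_le_mul_right (a6.trans ?_) a9
  have a10 := mul_le_mul_of_nonneg_left a8 (show 0 ≤ C1 * (C3 * A ^ (e + 1) * 6 ^ e *
    (2 * C5 + 2) ^ (e + 1)) * K' ^ (e + 2) * (B ^ (1 - σ) * B ^ k) by positivity)
  rw [mul_pow]
  linear_combination a10

theorem lemA (D : ℕ) {σ : ℝ} (h0 : 0 < σ) : ∃ c : ℕ, ∀ (d : Dat D) (N H K K' z0 z1 ρ : ℝ)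
    (F : Finset ℕ) (i0 : Fin D) (Ev : V D), Reg σ 1 d N H K → d.S = {i0} → 2 ≤ K → K ≤ K' →
    K' ^ c ≤ N → (∀ i ∈ F, (i, z0) ∈ d.c.E ∧ (i, z1) ∈ d.c.E) → d.c.nL / K' ≤ F.card →
    Ev i0 = 0 → ‖Ev‖ ≤ K' → 1 / N ≤ ρ →
    (∀ i ∈ F, ∀ i' ∈ F, ‖d.u (i, z1) - d.u (i', z1)‖ ≤ 1 / N →
      |d.u (i, z0) i0 - d.u (i', z0) i0 +
        ∑ j, Ev j * (d.c.pos (i, z1) j - d.c.pos (i', z1) j)| ≤ ρ) →
    ‖Ev‖ ≤ K' ^ c * ρ := by
  rcases D with _ | e
  · exact ⟨0, fun _ _ _ _ _ _ _ _ _ i0 => i0.elim0⟩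
  obtain ⟨C, hC⟩ := la_core e
  obtain ⟨c1, h1⟩ := pow_unbounded_of_one_lt C (one_lt_two (α := ℝ))
  obtain ⟨c, hc⟩ := exists_nat_ge (((c1 + (e + 5) : ℕ) : ℝ) / σ)
  refine ⟨c + 1, fun d N H K K' z0 z1 ρ F i0 Ev h hS hK hK' hN hF hm h0' hE hρ hr => ?_⟩
  by_contra hn
  have K1 : 1 ≤ K' := by linarith
  have K0 : 0 < K' := by linarith
  have a1 := hC d N H K K' z0 z1 ρ (K' ^ (c + 1)) F i0 Ev h hS hK hK'
    (le_self_pow₀ K1 (Nat.succ_ne_zero c)) hN hF hm h0' hE hρ hr (not_le.1 hn)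
  have a2 : K' ^ (c1 + (e + 5)) ≤ (K' ^ (c + 1)) ^ σ := by
    rw [← Real.rpow_natCast, ← Real.rpow_natCast, ← Real.rpow_mul K0.le]
    refine Real.rpow_le_rpow_of_exponent_le K1 (((div_le_iff₀ h0).1 hc).trans ?_)
    exact mul_le_mul_of_nonneg_right (Nat.cast_le.2 (Nat.le_succ c)) h0.le
  have a3 := h1.trans_le (pow_le_pow_left₀ zero_le_two (hK.trans hK') c1)
  rw [pow_add] at a2
  exact (mul_lt_mul_of_pos_right a3 (pow_pos K0 (e + 5))).not_ge (a2.trans a1)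

end Vale.Agent.P127
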