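import Vale.Agent.P127.End0
import Vale.Agent.P127.LemA
import Vale.Agent.P127.Alg
import Vale.Agent.P127.End2.Core

/-! # P127 End2 (SUB-LEAD): two dimensional grains in dimension four contain a fixed direction.  See notes/P127.md, part END2. -/

namespace Vale.Agent.P127

open Finset
open scoped Classical

theorem end2 {σ a : ℝ} (h0 : 0 < σ) (ha : 0 < a) (ha1 : a ≤ 1 / 100) :
    Step (D := 3) (S5 a σ 1) (S6 a σ 1) := by
  intro ε' hε'
  obtain ⟨M, hM, hc⟩ := e2_core h0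
  obtain ⟨ε, hε, N0, hs⟩ := small 1 M (b := min ε' (a / 8)) (lt_min hε' (by positivity))
  obtain ⟨N1, hb⟩ := big 2 hε
  refine ⟨ε, hε, max N0 N1, fun N hN d h => ?_⟩
  obtain ⟨hN2, hK⟩ := hs ε hε le_rfl N ((le_max_left _ _).trans hN)
  obtain ⟨-, hK2, -⟩ := hb N ((le_max_right _ _).trans hN)
  obtain ⟨⟨⟨⟨reg, l1, -⟩, lin⟩, hb⟩, l2⟩ := h
  have hN0 : 0 < N := by linarith
  have hN1 : 1 ≤ N := by linarith
  have mono : ∀ x y : ℝ, x ≤ y → N ^ x ≤ N ^ y := fun x y => Real.rpow_le_rpow_of_exponent_le hN1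
  have inv : 1 / N = N ^ (-1 : ℝ) := by rw [Real.rpow_neg_one, one_div]
  rw [one_mul] at hK
  have hK' : (N ^ ε) ^ M ≤ N ^ ε' := hK.trans (mono _ _ (min_le_left _ _))
  have e4 : ((N ^ (-(a / 8))) ^ 2) ^ 2 = N ^ (-(a / 2)) := by
    rw [← Real.rpow_mul_natCast hN0.le, ← Real.rpow_mul_natCast hN0.le]
    congr 1
    push_cast
    ring
  obtain ⟨i0, hi⟩ := card_eq_one.1 reg.card_S
  obtain ⟨j1, j2, ix⟩ := e2_ix i0
  have h8 : 8 ≤ (N ^ ε) ^ M := by
    have : (2 : ℝ) ^ 3 ≤ (N ^ ε) ^ M :=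
      (pow_le_pow_left₀ two_pos.le hK2 3).trans (pow_le_pow_right₀ (by linarith) hM)
    linarith
  obtain ⟨E', hE, hm, v, j0, a1, a2, a3, a4⟩ := hc d N (N ^ (1 / 3 : ℝ)) (N ^ ε)
    (N ^ (-(1 / 6) : ℝ)) (N ^ (-(a / 8))) i0 j1 j2
    (e4.symm ▸ ⟨ix, hi, reg, fun ω hω ω' hω' e => (l1 ω hω ω' hω' e).trans (by
      have := mono (-(2 / 5)) (-(a / 2)) (by linarith)
      gcongr), lin.1, lin.2.1, hb, l2, hK2, hN1, inv ▸ mono _ _ (by linarith),
      inv ▸ mono _ _ (by linarith)⟩) (by positivity)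
    (by
      refine (mul_le_mul_of_nonneg_right (hK.trans (mono _ _ (min_le_right _ _)))
        (by positivity)).trans ?_
      rw [← Real.rpow_add hN0, add_neg_cancel, Real.rpow_zero])
    (by
      rw [e4, ← Real.rpow_add hN0, inv]
      exact mono _ _ (by linarith))
    (by
      rw [← Real.rpow_add hN0]
      exact Real.one_le_rpow hN1 (by linarith))
  have := reg.good.nL_pos
  exact ⟨d.res E', reg.res hN0 (by positivity) (by positivity)
    ((le_self_pow₀ (by linarith) (by omega)).trans hK') hE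
    ((div_le_div_of_nonneg_left (by positivity) (by positivity) hK').trans hm),
    v, j0, a1, a2, (a3.trans h8).trans hK', a4⟩

end Vale.Agent.P127
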