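import Vale.Agent.P127.Comb

/-! # P127 LipRef: a finitely valued Lipschitz relation becomes a Lipschitz function on a subset.
Levels b_j = min 1 (r0 * L^j), j = 0..M (b_M = 1). Induction on j: apply sep for a at scale b_j, then best with key (key, cell b_j a) and t = cell b_j b
(the fibre lies in the ball of radius b_j about any of its points, cell_close). For the conclusion take the least j with dist a at most b_j; if dist a > 1 use 2B. -/

namespace Vale.Agent.P127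

open Finset
open scoped Classical

theorem lipref_step {Ω κ n n' : Type} [Fintype n] [Fintype n'] {E E1 : Finset Ω} (key : Ω → κ)
    (a : Ω → n → ℝ) (b : Ω → n' → ℝ) {β R : ℝ} (hβ : 0 < β) (hR : 0 < R) (hE : E1 ⊆ E)
    (h : ∀ ω0 ∈ E, (((E.filter fun ω => key ω = key ω0 ∧ ‖a ω - a ω0‖ ≤ β).image
        fun ω => cell β (b ω)).card : ℝ) ≤ R) :
    ∃ E2 ⊆ E1, (E1.card : ℝ) / (3 ^ Fintype.card n * R) ≤ E2.card ∧
      ∀ ω ∈ E2, ∀ ω' ∈ E2, key ω = key ω' → ‖a ω - a ω'‖ ≤ β → ‖b ω - b ω'‖ ≤ β := by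
  obtain ⟨E2, s2, c2, p2⟩ := sep E1 a hβ
  obtain ⟨E3, s3, c3, p3⟩ := best E2 (fun ω => (key ω, cell β (a ω))) (fun ω => cell β (b ω)) hR
    (fun ω hω => by
      refine le_trans (Nat.cast_le.2 (card_le_card fun z hz => ?_)) (h ω (hE (s2 hω)))
      simp only [mem_image, mem_filter, Prod.mk.injEq] at hz ⊢
      obtain ⟨ω', ⟨g0, g1, g2⟩, g3⟩ := hz
      exact ⟨ω', ⟨hE (s2 g0), g1, cell_close hβ g2⟩, g3⟩)
  refine ⟨E3, s3.trans s2, ?_, fun ω hω ω' hω' hk hd => cell_close hβ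
    (p3 ω hω ω' hω' (Prod.ext hk (p2 ω (s3 hω) ω' (s3 hω') hd)))⟩
  rw [← div_div]
  exact (div_le_div_of_nonneg_right c2 hR.le).trans c3


theorem lipref {Ω κ n n' : Type} [Fintype n] [Fintype n'] (E : Finset Ω) (key : Ω → κ)
    (a : Ω → n → ℝ) (b : Ω → n' → ℝ) {r0 Λ R B : ℝ} (M : ℕ) (h0 : 0 < r0) (h1 : r0 ≤ 1)
    (hΛ : 1 ≤ Λ) (hM : 1 ≤ r0 * Λ ^ M) (hR : 1 ≤ R) (hB : 0 ≤ B) (hb : ∀ ω ∈ E, ‖b ω‖ ≤ B)
    (h : ∀ β, r0 ≤ β → β ≤ 1 → ∀ ω0 ∈ E,
      (((E.filter fun ω => key ω = key ω0 ∧ ‖a ω - a ω0‖ ≤ β).image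
        fun ω => cell β (b ω)).card : ℝ) ≤ R) :
    ∃ E' ⊆ E, (E.card : ℝ) / (3 ^ Fintype.card n * R) ^ (M + 1) ≤ E'.card ∧
      ∀ ω ∈ E', ∀ ω' ∈ E', key ω = key ω' → ‖b ω - b ω'‖ ≤ (Λ + 2 * B) * (‖a ω - a ω'‖ + r0) := by
  have hpos : ∀ i : ℕ, r0 ≤ min 1 (r0 * Λ ^ i) := fun i =>
    le_min h1 (le_mul_of_one_le_right h0.le (one_le_pow₀ hΛ))
  have hD : (0 : ℝ) < 3 ^ Fintype.card n * R := by positivity
  have main : ∀ j : ℕ, ∃ E' ⊆ E, (E.card : ℝ) / (3 ^ Fintype.card n * R) ^ j ≤ E'.card ∧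
      ∀ i < j, ∀ ω ∈ E', ∀ ω' ∈ E', key ω = key ω' → ‖a ω - a ω'‖ ≤ min 1 (r0 * Λ ^ i) →
        ‖b ω - b ω'‖ ≤ min 1 (r0 * Λ ^ i) := by
    intro j
    induction j with
    | zero => exact ⟨E, Subset.rfl, by simp, fun i hi => absurd hi (Nat.not_lt_zero i)⟩
    | succ j ih =>
      obtain ⟨E1, s1, c1, p1⟩ := ih
      obtain ⟨E2, s2, c2, p2⟩ := lipref_step key a b (h0.trans_le (hpos j)) (by linarith) s1
        (h _ (hpos j) (min_le_left _ _))
      refine ⟨E2, s2.trans s1, ?_, fun i hi ω hω ω' hω' => ?_⟩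
      · rw [pow_succ, ← div_div]
        exact (div_le_div_of_nonneg_right c1 hD.le).trans c2
      · rcases (Nat.lt_succ_iff.1 hi).lt_or_eq with hlt | rfl
        · exact p1 i hlt ω (s2 hω) ω' (s2 hω')
        · exact p2 ω hω ω' hω'
  obtain ⟨E', s, c, p⟩ := main (M + 1)
  refine ⟨E', s, c, fun ω hω ω' hω' hk => ?_⟩
  have hd := norm_nonneg (a ω - a ω')
  by_cases hd1 : ‖a ω - a ω'‖ ≤ 1
  · have key2 : ∀ i ≤ M, ‖a ω - a ω'‖ ≤ min 1 (r0 * Λ ^ i) →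
        ‖b ω - b ω'‖ ≤ Λ * (‖a ω - a ω'‖ + r0) := by
      intro i
      induction i with
      | zero =>
        intro _ hi
        have := (p 0 (Nat.succ_pos M) ω hω ω' hω' hk hi).trans (min_le_right _ _)
        rw [pow_zero, mul_one] at this
        nlinarith
      | succ i ih =>
        intro hi hi'
        by_cases hc : ‖a ω - a ω'‖ ≤ min 1 (r0 * Λ ^ i)
        · exact ih (by omega) hc
        have h2 : r0 * Λ ^ i < ‖a ω - a ω'‖ := by
          by_contra h3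
          exact hc (le_min hd1 (not_lt.1 h3))
        have := (p (i + 1) (by omega) ω hω ω' hω' hk hi').trans (min_le_right _ _)
        rw [pow_succ, ← mul_assoc] at this
        nlinarith
    have := key2 M le_rfl (le_min hd1 (hd1.trans hM))
    nlinarith
  · have h2 := (norm_sub_le (b ω) (b ω')).trans (add_le_add (hb ω (s hω)) (hb ω' (s hω')))
    rw [not_le] at hd1
    nlinarith

end Vale.Agent.P127
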