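import Vale.Agent.P127.Flat
import Vale.Agent.P127.LipRef
import Vale.Agent.P127.Fa.Inst
import Vale.Agent.P127.Fa.Dc

/-! # P127 Fa (SUB-LEAD): the corrected slope is a Lipschitz function of u.  See notes/P127.md, part FA. -/

namespace Vale.Agent.P127

open Finset
open scoped Classical

theorem faTop_lev {a e N : ℝ} (ha1 : a ≤ 1 / 100) (he : 0 < e) (hN : 1 ≤ N) :
    1 ≤ N ^ (-(a / 2)) * (N ^ (e / 2)) ^ ⌈1 / e⌉₊ := by
  have h0 : 0 < N := by linarith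
  have h1 : 1 ≤ (⌈1 / e⌉₊ : ℝ) * e := (div_le_iff₀ he).1 (Nat.le_ceil _)
  rw [← Real.rpow_mul_natCast h0.le, ← Real.rpow_add h0]
  exact Real.one_le_rpow hN (by linarith)

theorem faTop_mu {nL H K C η s x : ℝ} (hH : 0 < H) (hK : 0 < K) (hC : 0 < C)
    (hη : 0 < η) (h : nL * H / K ≤ x) :
    nL * η ^ s / (2 * C * K ^ 3) ≤ x / (2 * (C * K ^ 2 * H * (1 / η) ^ s)) := by
  have h1 : 0 < η ^ s := Real.rpow_pos_of_pos hη s
  rw [one_div, Real.inv_rpow hη.le]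
  refine le_trans (le_of_eq ?_) (div_le_div_of_nonneg_right h (by positivity))
  field_simp

theorem faTop_mass {nL H K A Y x y z : ℝ} (hnL : 0 < nL) (hH : 0 < H) (hK : 0 < K) (hA : 0 < A)
    (h1 : nL * H / K ≤ x) (h2 : x / 2 ≤ y) (h3 : y / A ≤ z) (h4 : 2 * K * A ≤ Y) :
    nL * H / Y ≤ z := by
  refine le_trans ?_ ((div_le_div_of_nonneg_right
    ((div_le_div_of_nonneg_right h1 zero_le_two).trans h2) hA.le).trans h3)
  rw [div_div, div_div]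
  exact div_le_div_of_nonneg_left (by positivity) (by positivity) (by linarith)

theorem fa {D m : ℕ} {σ a : ℝ} (hm : 1 ≤ m) (hNI : ¬ Inh (D := D) (CK σ (m - 1))) (ha : 0 < a)
    (ha1 : a ≤ 1 / 100) : Step (D := D) (S4 a σ m) (S5 a σ m) := by
  intro ε' hε'
  obtain ⟨C1, hC1, c1⟩ := fa_nK D
  obtain ⟨C6, hC6, c6⟩ := fa_cells D
  obtain ⟨e1, he1, N1, s1⟩ := small (2 * (3 ^ D * (C6 * (2 * C1))) ^ (⌈1 / ε'⌉₊ + 1))
    ((D + 4) * (⌈1 / ε'⌉₊ + 1) + 1) hε'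
  obtain ⟨e2, he2, N2, s2⟩ := small (2 * (D * 2 ^ D + 2 * D) + 2) 1 (half_pos hε')
  have hε1 : 0 < min e1 e2 := lt_min he1 he2
  obtain ⟨e3, he3, N3, inst⟩ := fa_inst hm hNI ha ha1 hε1
  refine ⟨min (min e1 e2) e3, lt_min hε1 he3, max N1 (max N2 N3), fun N hN d hd => ?_⟩
  obtain ⟨hN2, t1⟩ := s1 _ hε1 (min_le_left _ _) N ((le_max_left _ _).trans hN)
  obtain ⟨-, t2⟩ := s2 _ hε1 (min_le_right _ _) N
    (((le_max_left _ _).trans (le_max_right _ _)).trans hN)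
  obtain ⟨E1, hE1, m1, p1⟩ := inst _ (lt_min hε1 he3) (min_le_right _ _) N
    (((le_max_right _ _).trans (le_max_right _ _)).trans hN) d hd
  have hN1 : 1 ≤ N := by linarith
  have hN0 : 0 < N := by linarith
  have hH : 0 < N ^ (1 / 3 : ℝ) := Real.rpow_pos_of_pos hN0 _
  have hk : N ^ min (min e1 e2) e3 ≤ N ^ min e1 e2 :=
    Real.rpow_le_rpow_of_exponent_le hN1 (min_le_left _ _)
  have hd1 : S4 a σ m d N (N ^ min e1 e2) :=
    hd.res hN1 (Real.rpow_pos_of_pos hN0 _) hk Subset.rfl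
      (hd.1.1.1.good.toPre.mono hN0 hH (Real.rpow_pos_of_pos hN0 _) hk).mass
  have hK : 1 ≤ N ^ min e1 e2 := Real.one_le_rpow hN1 hε1.le
  have hlev := faTop_lev ha1 hε' hN1
  have hsq : N ^ (ε' / 2) * N ^ (ε' / 2) = N ^ ε' := by rw [← Real.rpow_add hN0, add_halves]
  obtain ⟨x1, x2, x3, -, x5, -, x7, -, -, x10, x11⟩ := fa_exps ha ha1 hN1
  have hη : 0 < N ^ (-(1 / 6) : ℝ) := Real.rpow_pos_of_pos hN0 _
  have hξ1 : 0 < N ^ (-(a / 2)) := Real.rpow_pos_of_pos hN0 _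
  rw [pow_one] at t2
  clear hd hk
  generalize N ^ min e1 e2 = K at *
  generalize N ^ (ε' / 2) = Λ at *
  generalize ⌈1 / ε'⌉₊ = M at *
  have hK0 : 0 < K := by linarith
  have hη1 := x1.trans x2
  have hηN := x5.trans (mul_le_of_le_one_left hη.le x2)
  have hR := hd1.1.1.1
  have hL1 := hd1.1.1.2.1
  have hLin := hd1.1.2
  have hnL := hR.good.nL_pos
  have hB : (0 : ℝ) ≤ (D * 2 ^ D + 2 * D) * K := by positivity
  have hΛ : 2 * K ≤ Λ := by linarith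
  have hΛ2 : 2 * Λ ≤ N ^ ε' := by
    rw [← hsq]
    exact mul_le_mul_of_nonneg_right (by linarith) (by linarith)
  obtain ⟨E2, hE2, m2, p2⟩ := pop1 E1 (fun ω => (ω.2, cell (N ^ (-(1 / 6) : ℝ)) (d.u ω)))
    (c1 hR hN1 x7 hK hηN hη1 _ fun k hk => by
      simp only [mem_image] at hk
      obtain ⟨ω, h1, h2⟩ := hk
      exact ⟨ω, hE1 h1, h2⟩)
  have hμ : 1 ≤ 2 * C1 * K ^ 3 :=
    one_le_mul_of_one_le_of_one_le (by linarith) (one_le_pow₀ hK)
  have hR' : 1 ≤ C6 * K ^ (D + 1) * (2 * C1 * K ^ 3) :=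
    one_le_mul_of_one_le_of_one_le (one_le_mul_of_one_le_of_one_le hC6 (one_le_pow₀ hK)) hμ
  have hcells := c6 hR hN1 hK hL1 hLin hηN (x1.trans x10) ((x3.trans x1).trans x10)
    (zero_lt_one.trans_le hμ) E2 (hE2.trans hE1) (fun ω hω ω' hω' => p1 ω (hE2 hω) ω' (hE2 hω'))
    (fun ω hω => by
      refine ⟨_, ?_, (faTop_mu hH hK0 (by linarith) hη m1).trans (p2 ω hω), fun ω' h' => ?_⟩
      · intro x hx
        simp only [mem_filter] at hx
        exact hx.1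
      · simp only [mem_filter, Prod.mk.injEq] at h'
        exact h'.2)
  obtain ⟨E3, hE3, m3, p3⟩ := lipref E2 (fun ω => ω.2) d.u (d.st (N ^ (-(1 / 6) : ℝ))) M hξ1 x11
    (show 1 ≤ Λ by linarith) hlev hR' hB
    (fun ω hω => fa_st_norm hR.good.toPre hR.gr hLin hK (hE1 (hE2 hω)))
    (fun β h1 h2 ω0 _ => hcells β h1 h2 ω0.2 (d.u ω0) _ fun c hc => by
      simp only [mem_image, mem_filter] at hc
      obtain ⟨ω, ⟨g1, g2, g3⟩, g4⟩ := hc
      exact ⟨ω, g1, g2, g3, g4⟩)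
  refine ⟨d.res E3, hd1.res hN1 hK0 (by linarith) ((hE3.trans hE2).trans hE1)
    (faTop_mass hnL hH hK0 (by positivity) m1 m2 m3 (le_trans (le_of_eq ?_) t1)),
    fun ω hω ω' hω' hz => (p3 ω hω ω' hω' hz).trans ?_⟩
  · rw [Fintype.card_fin, pow_succ K ((D + 4) * (M + 1)), pow_mul K,
      show (3 : ℝ) ^ D * (C6 * K ^ (D + 1) * (2 * C1 * K ^ 3)) =
        3 ^ D * (C6 * (2 * C1)) * K ^ (D + 4) by ring, mul_pow]
    ring
  · exact mul_le_mul_of_nonneg_right (by linarith) (by positivity)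

end Vale.Agent.P127
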