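import Vale.Agent.P127.Final.Core
import Vale.Agent.P127.Final.GeoB

/-! # P127 Final (SUB-LEAD): from the discretised estimate to Hausdorff dimension.  See notes/P127.md, part FIN. -/

namespace Vale.Agent.P127

open Finset
open scoped Classical

theorem final (hP : PK 3 0) (K : Set (EuclideanSpace ℝ (Fin 4)))
    (a : Metric.sphere (0 : EuclideanSpace ℝ (Fin 4)) 1 → EuclideanSpace ℝ (Fin 4))
    (hK : ∀ e, ∀ t ∈ Set.Icc (0 : ℝ) 1, a e + t • (e : EuclideanSpace ℝ (Fin 4)) ∈ K)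
    (hs : pdim (Set.range fun e => lineOf (a e) (e : EuclideanSpace ℝ (Fin 4))) ≤ 3) :
    dimH K = 4 := by
  refine le_antisymm ((dimH_mono (Set.subset_univ K)).trans_eq ?_) (not_lt.1 fun h => ?_)
  · rw [Real.dimH_univ_eq_finrank, finrank_euclideanSpace_fin]
    rfl
  obtain ⟨d, h1, h2⟩ := ENNReal.lt_iff_exists_nnreal_btwn.1 h
  have h3 : (0 : ℝ) < d := by
    have : (0 : ENNReal) < d := lt_of_le_of_lt zero_le h1
    exact_mod_cast this
  obtain ⟨s, hs0, hc⟩ := core_fin hP h3 (by exact_mod_cast h2)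
  obtain ⟨U, x, K', C, hF, hd⟩ := geo_fin K a hK hs hs0
  exact hc U x K' C hF (hausdorffMeasure_of_dimH_lt (hd.trans_lt h1))

end Vale.Agent.P127
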