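import Vale.Agent.P127.Flat.Tup
import Vale.Agent.P127.Flat.Small
import Vale.Agent.P127.Flat.Cls
import Vale.Agent.P127.Flat.Rich
import Vale.Agent.P127.Flat.Zm

/-! # P127 Flat (SUB-LEAD): no segments transverse to maximal grains.  See notes/P127.md, part FLAT. -/

namespace Vale.Agent.P127

open Finset
open scoped Classical

theorem flat_core (D : ℕ) : ∃ C ≥ (1 : ℝ), ∀ {σ : ℝ} {m : ℕ} {d : Dat D}
    {N H K Lw R nK n1 nΘ m1 N' K' : ℝ} {p : ℕ} {Key Θ C1 : Type} (key : ℕ × ℝ → Key)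
    (θ : ℕ × ℝ → Θ) (w : Key → Θ → V D) (c1 : ℕ × ℝ → C1),
    1 ≤ m → 1 ≤ K → K ≤ N → 2 * D * (Real.logb 2 N + 2) ≤ K → 36 * K ^ 12 ≤ N' →
    C * K ^ (D + 27) ≤ K' → Reg σ m d N H K → (p = 1 ∨ p = 2) → 0 < Lw → Lw ≤ 1 →
    N' ^ 2 ≤ H * Lw → 1 / N ≤ R → 0 < nK → 0 < n1 → 0 < nΘ → 0 < m1 →
    (∀ ω ∈ d.c.E, ∀ ω' ∈ d.c.E, key ω = key ω' → ω.2 = ω'.2) →
    (∀ k t i, i ∉ d.S → w k t i = 0) → (∀ ω ∈ d.c.E, ‖w (key ω) (θ ω)‖ ≤ K) →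
    ((d.c.E.image key).card : ℝ) ≤ nK →
    (∀ k0 z1, (((d.c.L.filter fun i => (i, z1) ∈ d.c.E ∧ ∃ z0, (i, z0) ∈ d.c.E ∧
      key (i, z0) = k0 ∧ cz Lw z0 = cz Lw z1).image fun i => c1 (i, z1)).card : ℝ) ≤ n1) →
    (∀ k0, (((d.c.E.filter fun ω => key ω = k0).image θ).card : ℝ) ≤ nΘ) →
    (∀ k0 t z1 γ, ((d.c.L.filter fun i => (i, z1) ∈ d.c.E ∧ c1 (i, z1) = γ ∧ ∃ z0,
      (i, z0) ∈ d.c.E ∧ key (i, z0) = k0 ∧ θ (i, z0) = t ∧ cz Lw z0 = cz Lw z1).card : ℝ) ≤ m1) →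
    nK * n1 * nΘ * m1 ≤ K * d.c.nL * H →
    (∀ i i' z0 z1, (i, z0) ∈ d.c.E → (i', z0) ∈ d.c.E → (i, z1) ∈ d.c.E → (i', z1) ∈ d.c.E →
      key (i, z0) = key (i', z0) → c1 (i, z1) = c1 (i', z1) → cz Lw z0 = cz Lw z1 →
      ‖d.u (i, z0) - d.u (i', z0) - (z1 - z0) ^ p •
        (w (key (i, z0)) (θ (i, z0)) - w (key (i', z0)) (θ (i', z0)))‖ ≤ R) →
    (∀ (z : ℝ) (p q : V D), (((d.c.E.filter fun ω => ω.2 = z ∧ ‖d.c.e ω.1 - p‖ ≤ Lw ∧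
      ‖d.c.pos ω - q‖ ≤ 2 * Lw).image fun ω => (key ω, θ ω)).card : ℝ) ≤ K) →
    (∃ d' : Dat D, CK σ (m - 1) d' N' K') ∨
    ∃ E' ⊆ d.c.E, d.c.nL * H / (18 * K ^ 9) ≤ E'.card ∧ ∀ ω ∈ E', ∀ ω' ∈ E', key ω = key ω' →
      ‖w (key ω) (θ ω) - w (key ω') (θ ω')‖ ≤ 2 * (R * N' ^ 2 / Lw ^ p) := by
  obtain ⟨C, hC, hz⟩ := flat_zoom D
  refine ⟨5184 * C, by linarith, ?_⟩
  intro σ m d N H K Lw R nK n1 nΘ m1 N' K' p Key Θ C1 key θ w c1 hm hK hKN hlog hN' hK' hr hp hL0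
    hL1 hH hR hnK hn1 hnΘ hm1 hkey hw0 hwK h1 h2 h3 h4 h5 h6 h7
  have hN : 1 ≤ N := hK.trans hKN
  have hpre := hr.good.toPre
  have hnL := hpre.nL_pos
  have K12 : K ≤ K ^ 12 := le_self_pow₀ hK (by norm_num)
  have N'1 : 1 ≤ N' := by linarith
  have N'2 : N' ≤ N' ^ 2 := le_self_pow₀ N'1 (by norm_num)
  have hH1 : 1 ≤ H * Lw := by linarith
  have H0 : 0 < H := (pos_iff_pos_of_mul_pos (lt_of_lt_of_le one_pos hH1)).2 hL0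
  have K0 : 0 < K := by linarith
  have R0 : 0 < R := lt_of_lt_of_le (by positivity) hR
  have Lp0 : 0 < Lw ^ p := by positivity
  have Lp1 : Lw ^ p ≤ 1 := pow_le_one₀ hL0.le hL1
  obtain ⟨T, hTc, hT⟩ := flat_tup key θ c1 hpre hN hK hL0 hL1 hH1 hnK hn1 hnΘ hm1 hkey h1 h2 h4 h5
  obtain ⟨dv, hdv⟩ : ∃ dv : (ℕ × ℝ) × ℝ × Θ → V D,
      ∀ τ, dv τ = w (key τ.1) (θ τ.1) - w (key τ.1) τ.2.2 := ⟨_, fun _ => rfl⟩
  have hT' : ∀ τ ∈ T, τ.1 ∈ d.c.E ∧ τ.2.1 ∈ d.c.Z ∧ |τ.2.1 - τ.1.2| ≤ Lw ∧ ‖dv τ‖ ≤ 2 * K ∧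
      ∃ ω' ∈ d.c.E, key ω' = key τ.1 ∧ θ ω' = τ.2.2 ∧ ω'.2 = τ.1.2 ∧
        ‖d.u τ.1 - d.u ω' - (τ.2.1 - τ.1.2) ^ p • dv τ‖ ≤ R := by
    intro τ hτ
    obtain ⟨a1, a2, a3, i', a4, a5, a6, a7, a8⟩ := hT τ hτ
    refine ⟨a1, (mem_product.1 (hpre.sub a2)).2, cz_close hL0 a3.symm, ?_, (i', τ.1.2), a4, a6, a7,
      rfl, ?_⟩
    · have b1 := hwK _ a1
      have b2 := hwK _ a4
      rw [a6, a7] at b2
      rw [hdv]
      linarith [norm_sub_le (w (key τ.1) (θ τ.1)) (w (key τ.1) τ.2.2)]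
    · have b1 := h6 τ.1.1 i' τ.1.2 τ.2.1 a1 a4 a2 a5 a6.symm a8 a3
      rw [a6, a7] at b1
      rw [hdv]
      exact b1
  obtain ⟨W, hW⟩ : ∃ W, W = R * N' ^ 2 / Lw ^ p := ⟨_, rfl⟩
  rw [← hW]
  have hWR : R ≤ W := by
    rw [hW, le_div_iff₀ Lp0]
    exact mul_le_mul_of_nonneg_left (by linarith) R0.le
  have hsum : ((T.filter fun τ => ‖dv τ‖ ≤ W).card : ℝ) + (T.filter fun τ => ¬ ‖dv τ‖ ≤ W).card =
      T.card := by
    exact_mod_cast card_filter_add_card_filter_not (s := T) fun τ => ‖dv τ‖ ≤ W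
  rcases le_total ((T.card : ℝ) / 2) (T.filter fun τ => ‖dv τ‖ ≤ W).card with hs | hs
  · right
    obtain ⟨E', e1, e2, e3⟩ := flat_small (W := W) key θ w hpre hK hL0 hH1 hnΘ h3
      (T.filter fun τ => ‖dv τ‖ ≤ W) fun τ hτ => by
        obtain ⟨b1, b2⟩ := mem_filter.1 hτ
        obtain ⟨a1, a2, a3, -, ω', a4, a5, a6, -⟩ := hT' τ b1
        exact ⟨a1, a2, a3, ⟨ω', a4, a5, a6⟩, hdv τ ▸ b2⟩
    refine ⟨E', e1, le_trans ?_ e2, e3⟩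
    calc d.c.nL * H / (18 * K ^ 9)
        = nΘ * d.c.nL * H ^ 2 * Lw / (9 * K ^ 8) / 2 / (nΘ * (K * Lw * H)) := by
          field_simp
          norm_num
      _ ≤ _ := by gcongr; linarith
  · left
    have hl : nΘ * d.c.nL * H ^ 2 * Lw / (9 * K ^ 8) / 2 ≤
        ((T.filter fun τ => ¬ ‖dv τ‖ ≤ W).card : ℝ) := by linarith
    have hne : (T.filter fun τ => ¬ ‖dv τ‖ ≤ W).Nonempty :=
      card_pos.1 (Nat.cast_pos.1 (lt_of_lt_of_le (by positivity) hl))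
    obtain ⟨F, hF, i1, l0, hFc, hFl⟩ := flat_cls _ dv hN hne fun τ hτ => by
      obtain ⟨b1, b2⟩ := mem_filter.1 hτ
      exact ⟨by linarith [not_le.1 b2], by linarith [(hT' τ b1).2.2.2.1]⟩
    have hFT : ∀ τ ∈ F, τ ∈ T := fun τ hτ => (mem_filter.1 (hF hτ)).1
    have hFc' : nΘ * d.c.nL * H ^ 2 * Lw / (9 * K ^ 8) / 2 ≤ K * F.card :=
      hl.trans (hFc.trans (mul_le_mul_of_nonneg_right (by linarith) (Nat.cast_nonneg _)))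
    have hFne : F.Nonempty := card_pos.1 (Nat.cast_pos.1
      ((pos_iff_pos_of_mul_pos (lt_of_lt_of_le (by positivity) hFc')).1 K0))
    obtain ⟨F', hF', hF'c, hF't⟩ := best F (fun τ => (key τ.1, θ τ.1)) (fun τ => τ.2.2) hnΘ
      fun τ hτ => le_trans (Nat.cast_le.2 (card_le_card fun t ht => by
        obtain ⟨τ', b1, rfl⟩ := mem_image.1 ht
        simp only [mem_filter] at b1
        obtain ⟨b2, b3⟩ := b1
        obtain ⟨-, -, -, -, ω', a4, a5, a6, -⟩ := hT' τ' (hFT τ' b2)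
        exact mem_image.2 ⟨ω', mem_filter.2 ⟨a4, a5.trans (congrArg Prod.fst b3)⟩, a6⟩))
        (h3 (key τ.1))
    have hinj : ((F'.image fun τ => (τ.1, τ.2.1)).card : ℝ) = F'.card := by
      rw [card_image_of_injOn]
      intro τ hτ τ' hτ' e
      obtain ⟨e1, e2⟩ := Prod.ext_iff.1 e
      replace e1 : τ.1 = τ'.1 := e1
      exact Prod.ext e1 (Prod.ext e2 (hF't τ hτ τ' hτ' (by simp only [e1])))
    have K9 : 1 ≤ K ^ 9 := one_le_pow₀ hK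
    obtain ⟨G, hG, hGc, hGY⟩ := flat_rich (K1 := 18 * K ^ 9) hpre hN hK (by linarith) hL0 hL1
      (by linarith) (F'.image fun τ => (τ.1, τ.2.1)) (fun x hx => by
        obtain ⟨τ, b1, rfl⟩ := mem_image.1 hx
        obtain ⟨a1, a2, a3, -⟩ := hT' τ (hFT τ (hF' b1))
        exact ⟨a1, a2, a3⟩) (by
        rw [hinj]
        refine le_trans ?_ hF'c
        rw [le_div_iff₀ hnΘ]
        refine le_of_mul_le_mul_left (le_trans (le_of_eq ?_) hFc') K0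
        field_simp
        norm_num)
    obtain ⟨tt, htt⟩ : ∃ tt : Key → Θ → Θ, ∀ τ ∈ F', tt (key τ.1) (θ τ.1) = τ.2.2 := by
      refine ⟨fun k t => if h : ∃ τ ∈ F', (key τ.1, θ τ.1) = (k, t) then h.choose.2.2 else t,
        fun τ hτ => ?_⟩
      have h : ∃ τ' ∈ F', (key τ'.1, θ τ'.1) = (key τ.1, θ τ.1) := ⟨τ, hτ, rfl⟩
      simp only [dif_pos h]
      exact hF't _ h.choose_spec.1 _ hτ h.choose_spec.2
    obtain ⟨τ0, hτ0⟩ := hFne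
    have l1 : W < 2 * l0 := (not_le.1 (mem_filter.1 (hF hτ0)).2).trans_le (hFl τ0 hτ0).2.2
    have l2 : l0 ≤ 2 * K := (hFl τ0 hτ0).1.trans
      ((norm_le_pi_norm (dv τ0) i1).trans (hT' τ0 (hFT τ0 hτ0)).2.2.2.1)
    have K12' : 1 ≤ K ^ 12 := one_le_pow₀ hK
    have K10 : K ^ 10 ≤ K ^ 12 := pow_le_pow_right₀ hK (by norm_num)
    have K11 : K ^ 11 ≤ K ^ 12 := pow_le_pow_right₀ hK (by norm_num)
    refine hz (K2 := 72 * K ^ 12) (l0 := l0) (R := R) key θ (fun k t => w k t - w k (tt k t)) i1 G hr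
      hm hN hK (by linarith) hp hL0 hL1 N'1 (by linarith) (by linarith) l2 hR ?_ h7 hG
      (le_trans ?_ hGc) (fun k t i hi => by simp only [Pi.sub_apply, hw0 k _ i hi, sub_self])
      (fun ω hω => ?_) (le_trans (le_of_eq (by ring)) hK')
    · rw [hW, div_lt_iff₀ Lp0] at l1
      rw [le_div_iff₀ (by linarith), le_div_iff₀ (by positivity)]
      have : R * N' * (8 * K) ≤ R * N' * N' :=
        mul_le_mul_of_nonneg_left (by linarith) (by positivity)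
      linarith
    · exact div_le_div_of_nonneg_left (by positivity) (by positivity) (by linarith)
    · have y1 := hGY ω hω
      have y2 : ∀ z1 ∈ d.c.Z.filter fun z1 => (ω, z1) ∈ (F'.image fun τ => (τ.1, τ.2.1)) ∧
          Lw / (2 * K ^ 3 * (18 * K ^ 9)) ≤ |z1 - ω.2|, ∃ τ ∈ F', τ.1 = ω ∧ τ.2.1 = z1 ∧
            w (key ω) (θ ω) - w (key ω) (tt (key ω) (θ ω)) = dv τ := by
        intro z1 hz1
        obtain ⟨τ, b1, b2⟩ := mem_image.1 (mem_filter.1 hz1).2.1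
        have e1 : τ.1 = ω := congrArg Prod.fst b2
        refine ⟨τ, b1, e1, congrArg Prod.snd b2, ?_⟩
        rw [hdv, ← htt τ b1, e1]
      obtain ⟨z2, hz2⟩ := card_pos.1 (Nat.cast_pos.1 (lt_of_lt_of_le (by positivity) y1))
      obtain ⟨τ2, b1, -, -, b4⟩ := y2 z2 hz2
      obtain ⟨c1, c2, c3⟩ := hFl τ2 (hF' b1)
      refine ⟨b4 ▸ c1, b4 ▸ c2, b4 ▸ c3, _, filter_subset _ _, le_trans ?_ y1, fun z1 hz1 => ?_⟩
      · exact div_le_div_of_nonneg_left (by positivity) (by positivity) (by linarith)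
      · obtain ⟨τ, b1, b2, b3, b4⟩ := y2 z1 hz1
        obtain ⟨-, -, a3, -, ω', a4, -, -, a7, a8⟩ := hT' τ (hFT τ (hF' b1))
        rw [b2, b3] at a3 a8
        refine ⟨le_trans ?_ (mem_filter.1 hz1).2.2, a3, ω', a4, a7.trans (by rw [b2]), b4 ▸ a8⟩
        exact div_le_div_of_nonneg_left (by positivity) (by positivity) (by linarith)

theorem flat {D m : ℕ} {σ : ℝ} (hm : 1 ≤ m) (hNI : ¬ Inh (D := D) (CK σ (m - 1))) {ε2 : ℝ}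
    (hε2 : 0 < ε2) : ∀ ε' > (0 : ℝ), ∃ ε > (0 : ℝ), ∃ N0 : ℝ, ∀ N ≥ N0,
    ∀ (d : Dat D) (H K Lw R nK n1 nΘ m1 : ℝ) (p : ℕ) (Key Θ C1 : Type) (key : ℕ × ℝ → Key)
      (θ : ℕ × ℝ → Θ) (w : Key → Θ → V D) (c1 : ℕ × ℝ → C1),
    K = N ^ ε → Reg σ m d N H K → (p = 1 ∨ p = 2) → 0 < Lw → Lw ≤ 1 → N ^ ε2 ≤ H * Lw →
    1 / N ≤ R → 0 < nK → 0 < n1 → 0 < nΘ → 0 < m1 →
    (∀ ω ∈ d.c.E, ∀ ω' ∈ d.c.E, key ω = key ω' → ω.2 = ω'.2) →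
    (∀ k t i, i ∉ d.S → w k t i = 0) → (∀ ω ∈ d.c.E, ‖w (key ω) (θ ω)‖ ≤ K) →
    ((d.c.E.image key).card : ℝ) ≤ nK →
    (∀ k0 z1, (((d.c.L.filter fun i => (i, z1) ∈ d.c.E ∧ ∃ z0, (i, z0) ∈ d.c.E ∧
      key (i, z0) = k0 ∧ cz Lw z0 = cz Lw z1).image fun i => c1 (i, z1)).card : ℝ) ≤ n1) →
    (∀ k0, (((d.c.E.filter fun ω => key ω = k0).image θ).card : ℝ) ≤ nΘ) →
    (∀ k0 t z1 γ, ((d.c.L.filter fun i => (i, z1) ∈ d.c.E ∧ c1 (i, z1) = γ ∧ ∃ z0,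
      (i, z0) ∈ d.c.E ∧ key (i, z0) = k0 ∧ θ (i, z0) = t ∧ cz Lw z0 = cz Lw z1).card : ℝ) ≤ m1) →
    nK * n1 * nΘ * m1 ≤ K * d.c.nL * H →
    (∀ i i' z0 z1, (i, z0) ∈ d.c.E → (i', z0) ∈ d.c.E → (i, z1) ∈ d.c.E → (i', z1) ∈ d.c.E →
      key (i, z0) = key (i', z0) → c1 (i, z1) = c1 (i', z1) → cz Lw z0 = cz Lw z1 →
      ‖d.u (i, z0) - d.u (i', z0) - (z1 - z0) ^ p •
        (w (key (i, z0)) (θ (i, z0)) - w (key (i', z0)) (θ (i', z0)))‖ ≤ R) →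
    (∀ (z : ℝ) (p q : V D), (((d.c.E.filter fun ω => ω.2 = z ∧ ‖d.c.e ω.1 - p‖ ≤ Lw ∧
      ‖d.c.pos ω - q‖ ≤ 2 * Lw).image fun ω => (key ω, θ ω)).card : ℝ) ≤ K) →
    ∃ E' ⊆ d.c.E, d.c.nL * H / N ^ ε' ≤ E'.card ∧ ∀ ω ∈ E', ∀ ω' ∈ E', key ω = key ω' →
      ‖w (key ω) (θ ω) - w (key ω') (θ ω')‖ ≤ 2 * R * N ^ ε2 / Lw ^ p := by
  intro ε' hε'
  obtain ⟨C, -, hc⟩ := flat_core D
  simp only [Inh, not_forall, not_exists, not_and] at hNI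
  obtain ⟨ε1, hε1, N1, hNI⟩ := hNI
  obtain ⟨εa, ha, Na, hA⟩ := small 18 9 hε'
  obtain ⟨εb, hb, Nb, hB⟩ := small 36 12 (half_pos hε2)
  obtain ⟨εc, hc', Nc, hC⟩ := small C (D + 27) (mul_pos (half_pos hε2) hε1)
  have hε : 0 < min (min εa εb) (min εc 1) := lt_min (lt_min ha hb) (lt_min hc' one_pos)
  obtain ⟨Nd, hD⟩ := big (2 * D) hε
  obtain ⟨Ne, hE⟩ := Filter.eventually_atTop.1 ((tendsto_rpow_atTop (half_pos hε2)).eventually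
    (Filter.eventually_ge_atTop N1))
  refine ⟨_, hε, max (max (max Na Nb) (max Nc Nd)) Ne, ?_⟩
  intro N hN d H K Lw R nK n1 nΘ m1 p Key Θ C1 key θ w c1 hK hr hp hL0 hL1 hH hR hnK hn1 hnΘ hm1
    hkey hw0 hwK h1 h2 h3 h4 h5 h6 h7
  simp only [ge_iff_le, max_le_iff] at hN
  obtain ⟨⟨⟨na, nb⟩, nc, nd⟩, ne⟩ := hN
  obtain ⟨N2, kA⟩ := hA _ hε ((min_le_left _ _).trans (min_le_left _ _)) N na
  have kB := (hB _ hε ((min_le_left _ _).trans (min_le_right _ _)) N nb).2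
  have kC := (hC _ hε ((min_le_right _ _).trans (min_le_left _ _)) N nc).2
  have kD := (hD N nd).2.2
  have N1' : (1 : ℝ) ≤ N := by linarith
  have N0 : (0 : ℝ) < N := by linarith
  have K1 : 1 ≤ K := hK ▸ Real.one_le_rpow N1' hε.le
  have KN : K ≤ N := by
    rw [hK]
    exact Real.rpow_le_self_of_one_le N1' ((min_le_right _ _).trans (min_le_right _ _))
  rw [← hK] at kA kB kC kD
  have e2 : (N ^ (ε2 / 2)) ^ 2 = N ^ ε2 := by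
    rw [← Real.rpow_mul_natCast N0.le]
    norm_num
  rw [Real.rpow_mul N0.le] at kC
  rcases hc key θ w c1 hm K1 KN kD kB kC hr hp hL0 hL1 (e2 ▸ hH) hR hnK hn1 hnΘ hm1 hkey hw0 hwK
    h1 h2 h3 h4 h5 h6 h7 with ⟨d', hd'⟩ | ⟨E', e1, e3, e4⟩
  · exact absurd hd' (hNI _ (hE N ne) d')
  · have hnL := hr.good.nL_pos
    have H0 : 0 < H := (pos_iff_pos_of_mul_pos (lt_of_lt_of_le (by positivity) hH)).2 hL0
    refine ⟨E', e1, le_trans ?_ e3, fun ω a ω' b c => (e4 ω a ω' b c).trans (le_of_eq ?_)⟩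
    · exact div_le_div_of_nonneg_left (by positivity) (by positivity) kA
    · rw [e2]
      ring

end Vale.Agent.P127
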