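import Vale.Agent.P127.Flat
import Vale.Agent.P127.LipRef
import Vale.Agent.P127.G1.Fl
import Vale.Agent.P127.G1.Dc

/-! # P127 G1 (SUB-LEAD): lines through a point are parallel to the grain plane.  See notes/P127.md, part G1. -/

namespace Vale.Agent.P127

open Finset
open scoped Classical

theorem g1_mass {nL N K C1 Lw a e : ℝ} (hnL : 0 < nL) (hN : 0 < N) (hK : 0 < K) (hC : 0 < C1)
    (hL : 0 < Lw) (he : nL * N / K ≤ e) :
    nL * Lw ^ a / (2 * C1 * K ^ 3) ≤ e / (2 * (K * N * (C1 * K * (1 / Lw) ^ a))) := by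
  refine le_trans (le_of_eq ?_) (div_le_div_of_nonneg_right he (by positivity))
  rw [Real.div_rpow zero_le_one hL.le, Real.one_rpow]
  have : 0 < Lw ^ a := Real.rpow_pos_of_pos hL a
  field_simp

theorem g1_lip {D m : ℕ} {σ : ℝ} : Step (D := D) (G1A σ m) (S1 σ m) := by
  intro ε' hε'
  obtain ⟨C1, hC1, hK⟩ := g1_nK D
  obtain ⟨C3, hC3, hdc⟩ := g1_dc D
  obtain ⟨ε0, hε0, N2, hs⟩ := small (2 * (3 ^ D * (C3 * (2 * C1))) ^ (⌈1 / ε'⌉₊ + 1))
    (5 * (⌈1 / ε'⌉₊ + 1) + 1) hε'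
  obtain ⟨N3, hb⟩ := big (1 + 2 * (D * 2 ^ D * 1)) (half_pos hε')
  refine ⟨min ε0 ε', lt_min hε0 hε', max N2 N3, fun N hN d hd => ?_⟩
  simp only [ge_iff_le, max_le_iff] at hN
  obtain ⟨hN2, hs'⟩ := hs _ (lt_min hε0 hε') (min_le_left _ _) N hN.1
  obtain ⟨hR, hd⟩ := hd
  set K := N ^ min ε0 ε' with hKdef
  set M := ⌈1 / ε'⌉₊ with hM
  have hN1 : 1 ≤ N := by linarith
  have hN0 : 0 < N := by linarith
  have hK1 : 1 ≤ K := Real.one_le_rpow hN1 (lt_min hε0 hε').le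
  have hK0 : 0 < K := by linarith
  have hK' : K ≤ N ^ ε' := Real.rpow_le_rpow_of_exponent_le hN1 (min_le_right _ _)
  set Lw := N ^ (-(1 / 2) : ℝ) with hLw
  set r0 := N ^ (-(2 / 5) : ℝ) with hr0
  have hL : 0 < Lw := Real.rpow_pos_of_pos hN0 _
  have hL1 : Lw ≤ 1 := Real.rpow_le_one_of_one_le_of_nonpos hN1 (by norm_num)
  have hL2 : 1 / N ≤ Lw := by
    rw [one_div, ← Real.rpow_neg_one]
    exact Real.rpow_le_rpow_of_exponent_le hN1 (by norm_num)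
  have hL3 : Lw ≤ r0 := Real.rpow_le_rpow_of_exponent_le hN1 (by norm_num)
  have hr1 : r0 ≤ 1 := Real.rpow_le_one_of_one_le_of_nonpos hN1 (by norm_num)
  have hnL := hR.good.nL_pos
  have hc : (0 : ℝ) ≤ D * 2 ^ D * 1 := by positivity
  have hΛ : 1 ≤ N ^ (ε' / 2) := Real.one_le_rpow hN1 (half_pos hε').le
  obtain ⟨E2, hE2, hm2, hf⟩ := g1_pop d.c.E (g1key d Lw) (hK hR hN1 hN1 hK0.le hL2 hL1)
  obtain ⟨E', hE', hm', hl⟩ := lipref E2 (fun ω => ω.2) (fun ω => d.c.pos ω) (fun ω => d.s ω)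
    (Λ := N ^ (ε' / 2)) (R := C3 * K ^ 2 * (2 * C1 * K ^ 3)) (B := D * 2 ^ D * 1) M
    (hL.trans_le hL3) hr1 hΛ
    (by
      rw [hr0, ← Real.rpow_natCast, ← Real.rpow_mul hN0.le, ← Real.rpow_add hN0]
      refine Real.one_le_rpow hN1 ?_
      have a1 : 1 / ε' ≤ M := Nat.le_ceil _
      rw [div_le_iff₀ hε'] at a1
      linarith)
    (one_le_mul_of_one_le_of_one_le (one_le_mul_of_one_le_of_one_le hC3 (one_le_pow₀ hK1))
      (one_le_mul_of_one_le_of_one_le (by linarith) (one_le_pow₀ hK1))) hc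
    (fun ω hω => g1_mv hR ω.2 (g1_be hR (hE2 hω)))
    (fun β a1 a2 ω0 _ => by
      convert hdc hR hN1 hK0 (K1 := 2 * C1 * K ^ 3) (by positivity) hL2 hL3 a1 a2 hE2
        (fun ω hω => (g1_mass hnL hN0 hK0 (by linarith) hL hR.good.mass).trans (hf ω hω)) hd ω0)
  refine ⟨d.res E', hR.res hN0 hN0 hK0 hK' (hE'.trans hE2) ?_, fun ω hω ω' hω' hz => ?_⟩
  · rw [Fintype.card_fin] at hm'
    refine le_trans ?_ hm'
    have a1 : d.c.nL * N / K / 2 ≤ E2.card := by linarith [hR.good.mass]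
    refine le_trans ?_ (div_le_div_of_nonneg_right a1 (by positivity))
    rw [div_div, div_div]
    refine div_le_div_of_nonneg_left (by positivity) (by positivity) (le_trans (le_of_eq ?_) hs')
    rw [show 3 ^ D * (C3 * K ^ 2 * (2 * C1 * K ^ 3)) = 3 ^ D * (C3 * (2 * C1)) * K ^ 5 by ring,
      mul_pow _ (K ^ 5), ← pow_mul]
    ring
  · refine (hl ω hω ω' hω' hz).trans (mul_le_mul_of_nonneg_right ?_
      (add_nonneg (norm_nonneg _) (hL.le.trans hL3)))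
    have a1 := (hb N hN.2).2.1
    rw [← add_halves ε', Real.rpow_add hN0, add_halves]
    nlinarith

theorem g1 {D m : ℕ} {σ : ℝ} (hm : 1 ≤ m) (hNI : ¬ Inh (D := D) (CK σ (m - 1))) :
    Step (D := D) (S0 σ m) (S1 σ m) := by
  intro ε' hε'
  obtain ⟨ε1, hε1, N1, h1⟩ := g1_lip (D := D) (m := m) (σ := σ) ε' hε'
  obtain ⟨ε2, hε2, N2, h2⟩ := g1_fl hm hNI ε1 hε1
  refine ⟨ε2, hε2, max N1 N2, fun N hN d hd => ?_⟩
  obtain ⟨d', hd'⟩ := h2 N (le_trans (le_max_right _ _) hN) d hd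
  exact h1 N (le_trans (le_max_left _ _) hN) d' hd'

end Vale.Agent.P127
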