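import Vale.Agent.P127.HB.FlatP

/-! # P127 HB (SUB-LEAD): the slope kills differences of directions through a point.  See notes/P127.md, part HB. -/

namespace Vale.Agent.P127

open Finset
open scoped Classical

theorem hb_err {D : ℕ} {η K : ℝ} (hη : 0 < η) {A : Mt D} (hA : ‖A‖ ≤ K) (v v' : V D) :
    ‖mv A (v - (fun j => η * (cell η v j : ℝ)) - (v' - fun j => η * (cell η v' j : ℝ)))‖ ≤
      D * K * (2 * η) := by
  have K0 := (norm_nonneg A).trans hA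
  refine (norm_mv _ _).trans (mul_le_mul (mul_le_mul_of_nonneg_left hA (Nat.cast_nonneg _))
    ((norm_sub_le _ _).trans ?_) (norm_nonneg _) (by positivity))
  linarith [cell_corner hη v, cell_corner hη v']

theorem hb_fin {D : ℕ} {η K : ℝ} (hη : 0 < η) {A : Mt D} (hA : ‖A‖ ≤ K) (v v' : V D) :
    ‖mv A (v - v')‖ ≤ ‖mv A (fun j => η * (cell η v j : ℝ)) - mv A fun j => η * (cell η v' j : ℝ)‖ +
      D * K * (2 * η) := by
  refine le_trans ?_ (add_le_add le_rfl (hb_err hη hA v v'))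
  refine le_trans (le_of_eq ?_) (norm_add_le _ _)
  rw [← mv_sub, ← mv_add]
  congr 2
  abel

theorem hb_alg {D : ℕ} (P0 P1 A : Mt D) (p p' e e' t t' : V D) (τ : ℝ) :
    mv P0 p - mv P0 p' - τ ^ 2 • (mv A t - mv A t') =
      mv P0 (p + τ • e - (p' + τ • e')) - τ • (mv P1 e - mv P1 e') +
        τ • mv (P1 - P0 - τ • A) (e - e') + τ ^ 2 • mv A (e - t - (e' - t')) := by
  simp only [mv_add, mv_sub, mv_smul, sub_mv, smul_mv]
  module

theorem hb_close {D m : ℕ} {σ N H K η ξ r0 δ : ℝ} {d : Dat D} (hR : Reg σ m d N H K)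
    (h1 : Lip1 d K r0) (h2 : Lin d K η ξ) (K1 : 1 ≤ K) (η0 : 0 < η) (hη : η ≤ ξ) (hδ : δ ≤ r0)
    (hr : r0 ≤ ξ * η) (hδ' : δ ≤ ξ * η ^ 2) {i i' : ℕ} {z0 z1 : ℝ} (a1 : (i, z0) ∈ d.c.E)
    (a3 : (i, z1) ∈ d.c.E) (a4 : (i', z1) ∈ d.c.E)
    (hp : ‖d.c.pos (i, z1) - d.c.pos (i', z1)‖ ≤ δ) (hz : cz η z0 = cz η z1) :
    ‖d.u (i, z0) - d.u (i', z0) - (z1 - z0) ^ 2 •
      (mv (d.κ (cz η z0)) (fun j => η * (cell η (d.c.e i) j : ℝ)) -
        mv (d.κ (cz η z0)) fun j => η * (cell η (d.c.e i') j : ℝ))‖ ≤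
      (D * 2 ^ D + 2 + 4 * D) * K * (ξ * η ^ 2) := by
  have e : d.u (i, z0) - d.u (i', z0) - (z1 - z0) ^ 2 •
      (mv (d.κ (cz η z0)) (fun j => η * (cell η (d.c.e i) j : ℝ)) -
        mv (d.κ (cz η z0)) fun j => η * (cell η (d.c.e i') j : ℝ)) =
      mv (d.P z0) (d.c.pos (i, z1) - d.c.pos (i', z1)) - (z1 - z0) • (d.s (i, z1) - d.s (i', z1)) +
        (z1 - z0) • mv (d.P z1 - d.P z0 - (z1 - z0) • d.κ (cz η z0)) (d.c.e i - d.c.e i') +
        (z1 - z0) ^ 2 • mv (d.κ (cz η z0)) (d.c.e i - (fun j => η * (cell η (d.c.e i) j : ℝ)) -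
          (d.c.e i' - fun j => η * (cell η (d.c.e i') j : ℝ))) := by
    rw [pos_shift d.c i z0 z1, pos_shift d.c i' z0 z1]
    exact hb_alg _ _ _ _ _ _ _ _ _ _
  have τ : |z1 - z0| ≤ η := cz_close η0 hz.symm
  have ξ0 : 0 < ξ := η0.trans_le hη
  have D0 : (0 : ℝ) ≤ D := Nat.cast_nonneg _
  have b1 : ‖mv (d.P z0) (d.c.pos (i, z1) - d.c.pos (i', z1))‖ ≤ D * 2 ^ D * (ξ * η ^ 2) :=
    (norm_mv _ _).trans (mul_le_mul (mul_le_mul_of_nonneg_left (hR.gr.norm_le z0) D0)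
      (hp.trans hδ') (norm_nonneg _) (by positivity))
  have b2 : ‖(z1 - z0) • (d.s (i, z1) - d.s (i', z1))‖ ≤ η * (K * (2 * (ξ * η))) := by
    rw [norm_smul]
    exact mul_le_mul τ ((h1 _ a3 _ a4 rfl).trans (mul_le_mul_of_nonneg_left (by linarith)
      (by linarith))) (norm_nonneg _) η0.le
  have b3 : ‖(z1 - z0) • mv (d.P z1 - d.P z0 - (z1 - z0) • d.κ (cz η z0)) (d.c.e i - d.c.e i')‖ ≤
      η * (D * (ξ * η) * 2) := by
    have l := h2.2.2 _ a1 _ a3 hz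
    dsimp only at l
    rw [norm_smul]
    refine mul_le_mul τ ((norm_mv _ _).trans (mul_le_mul (mul_le_mul_of_nonneg_left
      l D0) ((norm_sub_le _ _).trans ?_) (norm_nonneg _) (by positivity)))
      (norm_nonneg _) η0.le
    linarith [hR.good.be _ (mem_product.1 (hR.good.sub a3)).1,
      hR.good.be _ (mem_product.1 (hR.good.sub a4)).1]
  have b4 : ‖(z1 - z0) ^ 2 • mv (d.κ (cz η z0)) (d.c.e i - (fun j => η * (cell η (d.c.e i) j : ℝ)) -
      (d.c.e i' - fun j => η * (cell η (d.c.e i') j : ℝ)))‖ ≤ η ^ 2 * (D * K * (2 * ξ)) := by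
    rw [norm_smul, norm_pow]
    exact mul_le_mul (pow_le_pow_left₀ (norm_nonneg _) τ 2) ((hb_err η0 (h2.2.1 _) _ _).trans
      (by gcongr)) (norm_nonneg _) (by positivity)
  rw [e]
  refine norm_add₃_le.trans ?_
  have b5 := norm_sub_le (mv (d.P z0) (d.c.pos (i, z1) - d.c.pos (i', z1)))
    ((z1 - z0) • (d.s (i, z1) - d.s (i', z1)))
  have c1 : (0 : ℝ) ≤ (D * 2 ^ D + 2 * D) * (K - 1) * (ξ * η ^ 2) :=
    mul_nonneg (mul_nonneg (by positivity) (by linarith)) (by positivity)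
  linarith

theorem hb {D m : ℕ} {σ a : ℝ} (hm : 1 ≤ m) (hNI : ¬ Inh (D := D) (CK σ (m - 1))) (ha : 0 < a)
    (ha1 : a ≤ 1 / 100) : Step (D := D) (S3 a σ m) (S4 a σ m) := by
  intro ε' hε'
  obtain ⟨ε0, h0, N0, hF⟩ := flatP hm hNI (ε2 := a / 4) (by positivity) (D * 2) (ε' / 2)
    (half_pos hε')
  obtain ⟨ε1, h1, N1, hS⟩ := small (2 * (D * 2 ^ D + 2 + 4 * D) + 2 * D) 1
    (b := a / 4) (by positivity)
  obtain ⟨N2, hB⟩ := big (3 ^ D) (half_pos hε')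
  refine ⟨min ε0 (min ε1 ε'), by positivity, max N0 (max N1 N2), fun N hN d hd => ?_⟩
  simp only [ge_iff_le, max_le_iff] at hN
  have e0 : 0 < min ε0 (min ε1 ε') := by positivity
  obtain ⟨N2', hs⟩ := hS _ e0 ((min_le_right _ _).trans (min_le_left _ _)) N hN.2.1
  obtain ⟨-, h3, -⟩ := hB N hN.2.2
  have N1' : 1 ≤ N := by linarith
  have N0' : 0 < N := by linarith
  have K1 : 1 ≤ N ^ min ε0 (min ε1 ε') := Real.one_le_rpow N1' e0.le
  have K2 : N ^ min ε0 (min ε1 ε') ≤ N ^ ε' :=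
    Real.rpow_le_rpow_of_exponent_le N1' ((min_le_right _ _).trans (min_le_right _ _))
  have hF' := hF _ e0 (min_le_left _ _) N hN.1
  generalize N ^ min ε0 (min ε1 ε') = K at *
  have ex : ∀ {x y : ℝ}, x ≤ y → N ^ x ≤ N ^ y := fun h => Real.rpow_le_rpow_of_exponent_le N1' h
  have ad : ∀ x y : ℝ, N ^ x * N ^ y = N ^ (x + y) := fun x y => (Real.rpow_add N0' x y).symm
  have iv : 1 / N = N ^ (-1 : ℝ) := by rw [Real.rpow_neg_one, one_div]
  have η0 : 0 < N ^ (-(1 / 6) : ℝ) := by positivity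
  have η1 : N ^ (-(1 / 6) : ℝ) ≤ 1 := Real.rpow_le_one_of_one_le_of_nonpos N1' (by norm_num)
  have q1 : 1 / N ≤ N ^ (-a) * (N ^ (-(1 / 6) : ℝ)) ^ 2 := by
    rw [sq, ad, ad, iv]
    exact ex (by linarith)
  have D0 : (0 : ℝ) ≤ D := Nat.cast_nonneg _
  have C1 : (1 : ℝ) ≤ D * 2 ^ D + 2 + 4 * D := by
    have : (0 : ℝ) ≤ D * 2 ^ D := by positivity
    linarith
  obtain ⟨⟨hR, hL1, hLF⟩, hLin⟩ := hd
  obtain ⟨E1, s1, m1, k1⟩ := hF' d _ (N ^ (-(1 / 6) : ℝ))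
    ((D * 2 ^ D + 2 + 4 * D) * K * (N ^ (-a) * (N ^ (-(1 / 6) : ℝ)) ^ 2)) 2
    (fun k t => mv (d.κ (cz (N ^ (-(1 / 6) : ℝ)) k.1)) fun j => N ^ (-(1 / 6) : ℝ) * (t j : ℝ))
    hR (Real.one_le_rpow N1' (by norm_num)) (Or.inr rfl) (iv ▸ ex (by norm_num)) η1
    (by rw [ad]; exact ex (by linarith))
    (q1.trans (le_mul_of_one_le_left (by positivity) (one_le_mul_of_one_le_of_one_le C1 K1)))
    (fun k t i hi => Finset.sum_eq_zero fun j _ => by rw [hLin.1 _ i j (Or.inl hi), zero_mul])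
    (fun ω hω => by
      have b1 := cell_corner η0 (d.c.e ω.1)
      have b2 := hR.good.be _ (mem_product.1 (hR.good.sub hω)).1
      have b3 := norm_sub_norm_le (fun j => N ^ (-(1 / 6) : ℝ) *
        (cell (N ^ (-(1 / 6) : ℝ)) (d.c.e ω.1) j : ℝ)) (d.c.e ω.1)
      rw [norm_sub_rev] at b3
      refine (norm_mv _ _).trans ((mul_le_mul (mul_le_mul_of_nonneg_left (hLin.2.1 _) D0)
        (show _ ≤ (2 : ℝ) from le_trans (by exact le_of_sub_nonpos (by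
          change ‖fun j => N ^ (-(1 / 6) : ℝ) * (cell (N ^ (-(1 / 6) : ℝ)) (d.c.e ω.1) j : ℝ)‖ - 2 ≤ 0
          linarith)) le_rfl) (norm_nonneg _) (by positivity)).trans_eq (by ring)))
    fun i i' z0 z1 a1 _ a3 a4 _ a6 a7 => hb_close hR hL1 hLin K1 η0 (ex (by linarith))
      (iv ▸ ex (by norm_num)) (by rw [ad]; exact ex (by linarith)) q1 a1 a3 a4 a6 a7
  obtain ⟨E2, s2, m2, k2⟩ := sep E1 (fun ω => d.c.pos ω) η0
  rw [Fintype.card_fin] at m2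
  have nL := hR.good.nL_pos
  refine ⟨d.res E2, S3.res ⟨⟨hR, hL1, hLF⟩, hLin⟩ N1' (by linarith) K2 (s2.trans s1) ?_,
    fun ω hω ω' hω' hz hp => ?_⟩
  · refine le_trans ?_ (le_trans (div_le_div_of_nonneg_right m1 (by positivity)) m2)
    rw [div_div]
    refine div_le_div_of_nonneg_left (by positivity) (by positivity) ?_
    rw [← add_halves ε', ← ad, add_halves]
    exact mul_le_mul_of_nonneg_left h3 (by positivity)
  · have k3 := k1 ω (s2 hω) ω' (s2 hω') (Prod.ext hz (k2 ω hω ω' hω' hp))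
    have k4 := hb_fin η0 (hLin.2.1 (cz (N ^ (-(1 / 6) : ℝ)) ω.2)) (d.c.e ω.1) (d.c.e ω'.1)
    simp only [keyP, thP, ← hz] at k3
    have k6 : N ^ (-(1 / 6) : ℝ) ≤ N ^ (-a) * N ^ (a / 4) := by
      rw [ad]
      exact ex (by linarith)
    have k7 : N ^ (a / 4) * (N ^ (-a) * N ^ (a / 4)) = N ^ (-(a / 2)) := by
      rw [ad, ad]
      congr 1
      ring
    have k8 : 2 * ((D * 2 ^ D + 2 + 4 * D) * K * (N ^ (-a) * (N ^ (-(1 / 6) : ℝ)) ^ 2)) *
        N ^ (a / 4) / (N ^ (-(1 / 6) : ℝ)) ^ 2 =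
        2 * (D * 2 ^ D + 2 + 4 * D) * K * (N ^ (-a) * N ^ (a / 4)) := by
      field_simp
    have k9 := mul_le_mul_of_nonneg_right hs (show 0 ≤ N ^ (-a) * N ^ (a / 4) by positivity)
    have k10 := mul_le_mul_of_nonneg_left k6 (show 0 ≤ 2 * D * K by positivity)
    rw [k8] at k3
    rw [k7] at k9
    exact k4.trans ((add_le_add k3 le_rfl).trans (by linarith))

end Vale.Agent.P127
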