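import Vale.Agent.P127.Api2

/-! # P127 Kill: three easy cases.
pk_zero, inh_le: the number of heights met by E is at least card E / card L, at least N / K^2, and it is at most the number of pairs (height, cell).
kill0: S = univ, so P z is the identity and s = e; spread (F = the lines at the heaviest height, gamma = 3 K N^(-2/5)) contradicts Lip1. -/

namespace Vale.Agent.P127

open Finset
open scoped Classical

theorem kill_hts {D : ℕ} {c : Cfg D} {N K : ℝ} (h : Pre c N N K) (hN : 1 ≤ N) (hK : 0 < K)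
    {β : Type} [DecidableEq (ℝ × β)] (f : ℕ × ℝ → β) :
    N / K ^ 2 ≤ ((c.E.image fun ω => (ω.2, f ω)).card : ℝ) := by
  have h1 := Finset.card_le_mul_card_image (f := fun ω : ℕ × ℝ => (ω.2, f ω)) c.E c.L.card
    fun a _ => by
      refine Finset.card_le_card_of_injOn Prod.fst (fun ω hω => ?_) fun ω hω ω' hω' e => ?_
      · exact (mem_product.1 (h.sub (mem_filter.1 hω).1)).1
      · exact Prod.ext e (congrArg Prod.fst ((mem_filter.1 hω).2.trans (mem_filter.1 hω').2.symm))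
  have h2 : (c.E.card : ℝ) ≤ c.L.card * ((c.E.image fun ω => (ω.2, f ω)).card : ℝ) := by
    exact_mod_cast h1
  have h3 := (h.mass.trans h2).trans (mul_le_mul_of_nonneg_right (h.cardL hN) (Nat.cast_nonneg _))
  have h4 := h.nL_pos
  rw [div_le_iff₀ hK] at h3
  rw [div_le_iff₀ (by positivity)]
  refine le_of_mul_le_mul_left ?_ h4
  linarith

theorem pk_zero : PK 0 0 := by
  intro ε hε
  refine ⟨ε / 2, by positivity, 1, fun N hN c h => ?_⟩
  have h0 : 0 < N := lt_of_lt_of_le one_pos hN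
  refine le_trans (le_of_eq ?_) (kill_hts h.toPre hN (Real.rpow_pos_of_pos h0 _) _)
  rw [← Real.rpow_natCast, ← Real.rpow_mul h0.le, show ((0 : ℕ) : ℝ) + 1 - 0 - ε =
    1 - ε / 2 * (2 : ℕ) by push_cast; ring, Real.rpow_sub h0, Real.rpow_one]

theorem pk_top (D : ℕ) : PK D (D + 1) := by
  intro ε hε
  refine ⟨1, one_pos, 1, fun N hN c h => ?_⟩
  have h0 : 0 < N := lt_of_lt_of_le one_pos hN
  refine (Real.rpow_le_one_of_one_le_of_nonpos hN (by linarith)).trans ?_
  exact_mod_cast ((h.toPre.nonempty h0 (Real.rpow_pos_of_pos h0 _)).image _).card_pos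

theorem inh_le {D m : ℕ} {σ : ℝ} (h : Inh (D := D) (CK σ m)) : σ ≤ m := by
  by_contra hc
  push Not at hc
  obtain ⟨N, hN, d, -, hg, -, h1⟩ := h ((σ - m) / 4) (by linarith) 2
  have h0 : 0 < N := by linarith
  have hK := Real.rpow_pos_of_pos h0 ((σ - m) / 4)
  have h2 := (kill_hts hg.toPre (by linarith) hK _).trans h1
  have e : N ^ ((m : ℝ) - σ) = 1 / (N ^ ((σ - m) / 4)) ^ 4 := by
    rw [← Real.rpow_natCast, ← Real.rpow_mul h0.le, one_div, ← Real.rpow_neg h0.le]
    congr 1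
    push_cast
    ring
  have h3 : 1 < N ^ ((σ - m) / 4) := Real.one_lt_rpow (by linarith) (by linarith)
  rw [e] at h2
  generalize N ^ ((σ - m) / 4) = K at *
  rw [mul_one_div, div_le_div_iff₀ (by positivity) (by positivity)] at h2
  have h4 : 0 < N * K ^ 3 * (K - 1) := by
    have : 0 < K - 1 := by linarith
    positivity
  nlinarith

theorem kill_id {D : ℕ} {S : Finset (Fin D)} {P : ℝ → Mt D} (h : Gr S P) (hS : S.card = D)
    (z : ℝ) (v : V D) : mv (P z) v = v := by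
  obtain rfl : S = univ := eq_univ_of_card _ (by simpa using hS)
  funext i
  simp [mv, fun j => (h z).2.1 i (mem_univ _) j (mem_univ _)]

theorem kill_top {D : ℕ} {c : Cfg D} {N K : ℝ} (h : Pre c N N K) (hN : 1 ≤ N) (hK : 0 < K) :
    ∃ (F : Finset ℕ) (z : ℝ), (∀ i ∈ F, (i, z) ∈ c.E) ∧ c.nL / K ^ 2 ≤ F.card := by
  obtain ⟨F, hF, h1, h2⟩ := big_comb c.E Prod.snd
  have h3 := h1.trans (mul_le_mul_of_nonneg_right ((Nat.cast_le.2 (card_le_card
    (image_subset_iff.2 fun ω hω => (mem_product.1 (h.sub hω)).2))).trans (h.cardZ hN))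
    (Nat.cast_nonneg _))
  have h4 : c.nL / K ^ 2 ≤ F.card := by
    have h5 := h.mass.trans h3
    rw [div_le_iff₀ hK] at h5
    rw [div_le_iff₀ (by positivity)]
    refine le_of_mul_le_mul_left ?_ (lt_of_lt_of_le one_pos hN)
    linarith
  have h6 : F.Nonempty := by
    rw [← card_pos, ← Nat.cast_pos (α := ℝ)]
    exact lt_of_lt_of_le (div_pos h.nL_pos (by positivity)) h4
  obtain ⟨ω, hω⟩ := h6
  refine ⟨F.image Prod.fst, ω.2, fun i hi => ?_, ?_⟩
  · obtain ⟨ω', h7, rfl⟩ := mem_image.1 hi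
    rw [h2 ω hω ω' h7]
    exact hF h7
  · rwa [card_image_of_injOn fun a ha b hb e => Prod.ext e (h2 a ha b hb)]

theorem kill0 {D : ℕ} {σ : ℝ} (h0 : 0 < σ) : ¬ Inh (D := D) (S1 σ D) := by
  intro h
  obtain ⟨C, hC, hs⟩ := spread D
  obtain ⟨ε1, he1, N1, k1⟩ := small (2 * C * 3 ^ D) (4 + D) (b := 2 / 5 * σ) (by positivity)
  obtain ⟨ε2, he2, N2, k2⟩ := small 3 1 (b := 2 / 5) (by norm_num)
  obtain ⟨N, hN, d, hR, hL⟩ := h (min ε1 ε2) (lt_min he1 he2) (max N1 N2)
  obtain ⟨hN2, a1⟩ := k1 _ (lt_min he1 he2) (min_le_left _ _) N (le_of_max_le_left hN)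
  obtain ⟨-, a2⟩ := k2 _ (lt_min he1 he2) (min_le_right _ _) N (le_of_max_le_right hN)
  have h1 : 1 ≤ N := by linarith
  have hN0 : 0 < N := by linarith
  have hK : 1 ≤ N ^ min ε1 ε2 := Real.one_le_rpow h1 (lt_min he1 he2).le
  generalize N ^ min ε1 ε2 = K at *
  have hK0 : 0 < K := by linarith
  have hr : 0 < N ^ (-(2 / 5) : ℝ) := Real.rpow_pos_of_pos hN0 _
  have b1 : 1 / N ≤ N ^ (-(2 / 5) : ℝ) := by
    rw [one_div, ← Real.rpow_neg_one]
    exact Real.rpow_le_rpow_of_exponent_le h1 (by norm_num)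
  obtain ⟨F, z, hF, hc⟩ := kill_top hR.good.toPre h1 hK0
  obtain ⟨i, hi, i', hi', c1, c2⟩ := hs hR h1 F z (K ^ 2) (3 * K * N ^ (-(2 / 5) : ℝ))
    (by positivity) hF hc (by nlinarith) (by
      rw [Real.rpow_neg hN0.le, ← div_eq_mul_inv, div_le_one (Real.rpow_pos_of_pos hN0 _)]
      simpa using a2) (by
      have p1 := Real.rpow_pos_of_pos hN0 (2 / 5 * σ)
      have p2 : (3 * K) ^ σ ≤ 3 ^ D * K ^ D := by
        rw [← mul_pow, ← Real.rpow_natCast]
        exact Real.rpow_le_rpow_of_exponent_le (by linarith) hR.sigm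
      rw [Real.mul_rpow (by positivity) hr.le, ← Real.rpow_mul hN0.le, neg_mul,
        Real.rpow_neg hN0.le, ← div_eq_mul_inv, ← mul_div_assoc, div_lt_one p1]
      have p3 : C * K ^ 2 * K ^ 2 * (3 * K) ^ σ ≤ C * 3 ^ D * K ^ (4 + D) :=
        (mul_le_mul_of_nonneg_left p2 (by positivity)).trans_eq (by ring)
      have p4 : 0 < C * 3 ^ D * K ^ (4 + D) := by positivity
      linarith)
  have c3 := hL _ (hF i hi) _ (hF i' hi') rfl
  simp only [Dat.s, kill_id hR.gr hR.card_S] at c3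
  have c4 := mul_le_mul_of_nonneg_left (c1.trans b1) hK0.le
  have c5 := mul_pos hK0 hr
  linarith

end Vale.Agent.P127
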