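import Vale.Agent.P127.Zoom
import Vale.Agent.P127.LipRef

/-! # P127 LF0: from a bound for rich pairs of heights to LipF.  See notes/P127.md, part LF.
thin to H = N^(1/3); pop1 for the map omega.2 so that every height carries at least nL / K1 lines; by rich, a set of heights in an interval of length beta whose matrices P z are pairwise
more than 2 K^c beta apart has at most 2 K K1 + 1 elements (take a maximal one), so the P z lie in at most K^c' cells of side beta; lipref with trivial key, a = fun _ : Fin 1 => omega.2,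
b = fun ij : Fin D x Fin D => P z ij.1 ij.2, r0 = N^(-1/3), Lambda = N^(eps'/2), M = ceil(1/eps'). -/

namespace Vale.Agent.P127

open Finset
open scoped Classical

/-- bound for pairs of heights with many common lines -/
def RichB {D : ℕ} (σ : ℝ) (m c : ℕ) : Prop :=
  ∀ (d : Dat D) (N H K K' z0 z1 : ℝ) (F : Finset ℕ), Reg σ m d N H K →
    Lip1 d K (N ^ (-(2 / 5) : ℝ)) → 2 ≤ K → K ≤ K' → K' ^ c ≤ N →
    (∀ i ∈ F, (i, z0) ∈ d.c.E ∧ (i, z1) ∈ d.c.E) → d.c.nL / K' ≤ F.card →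
    ‖d.P z1 - d.P z0‖ ≤ K' ^ c * (|z1 - z0| + N ^ (-(2 / 5) : ℝ))

theorem net_LF0 {τ : Type} (T0 : Finset τ) (r : τ → τ → Prop) (hr : ∀ a, r a a)
    (hs : ∀ a b, r a b → r b a) {n : ℝ}
    (h : ∀ T ⊆ T0, n ≤ T.card → ∃ t ∈ T, ∃ t' ∈ T, t ≠ t' ∧ r t t') :
    ∃ T ⊆ T0, (T.card : ℝ) ≤ n ∧ ∀ z ∈ T0, ∃ t ∈ T, r z t := by
  obtain ⟨P, hP⟩ : ∃ P : Finset τ → Prop, ∀ T, P T ↔ ∀ t ∈ T, ∀ t' ∈ T, t ≠ t' → ¬ r t t' :=
    ⟨_, fun _ => Iff.rfl⟩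
  obtain ⟨T, hT, hm⟩ := exists_max_image (T0.powerset.filter P) card ⟨∅, by simp [hP]⟩
  obtain ⟨h1, h2⟩ := mem_filter.1 hT
  rw [hP] at h2
  have h3 := mem_powerset.1 h1
  refine ⟨T, h3, ?_, fun z hz => ?_⟩
  · by_contra hc
    obtain ⟨t, ht, t', ht', e, h4⟩ := h T h3 (not_le.1 hc).le
    exact h2 t ht t' ht' e h4
  · by_contra hc
    push Not at hc
    have hzT : z ∉ T := fun hh => hc z hh (hr z)
    have h4 := hm (insert z T) (mem_filter.2 ⟨mem_powerset.2 (insert_subset hz h3), (hP _).2 ?_⟩)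
    · rw [card_insert_of_notMem hzT] at h4
      omega
    · intro t ht t' ht' e
      rcases mem_insert.1 ht with a | a <;> rcases mem_insert.1 ht' with b | b
      · exact absurd (a.trans b.symm) e
      · exact a ▸ hc t' b
      · exact fun hh => hc t a (hs _ _ (b ▸ hh))
      · exact h2 t a t' b e

theorem cells_LF0 {Ω τ n : Type} [Fintype n] (E : Finset Ω) (b : Ω → n → ℝ) (T : Finset τ)
    (q : τ → n → ℝ) {β ρ : ℝ} (hβ : 0 < β) (hρ : 0 ≤ ρ)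
    (h : ∀ ω ∈ E, ∃ t ∈ T, ‖b ω - q t‖ ≤ ρ) :
    ((E.image fun ω => cell β (b ω)).card : ℝ) ≤ T.card * (2 * ρ / β + 2) ^ Fintype.card n := by
  have h1 : (E.image fun ω => cell β (b ω)) ⊆ T.biUnion fun t =>
      (E.filter fun ω => ‖b ω - q t‖ ≤ ρ).image fun ω => cell β (b ω) := by
    intro y hy
    obtain ⟨ω, hω, rfl⟩ := mem_image.1 hy
    obtain ⟨t, ht, h2⟩ := h ω hω
    exact mem_biUnion.2 ⟨t, ht, mem_image_of_mem _ (mem_filter.2 ⟨hω, h2⟩)⟩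
  refine (Nat.cast_le.2 ((card_le_card h1).trans card_biUnion_le)).trans ?_
  rw [Nat.cast_sum, ← nsmul_eq_mul]
  exact sum_le_card_nsmul _ _ _ fun t _ => cover _ b (q t) hβ hρ fun ω hω => (mem_filter.1 hω).2

theorem rich_LF0 {ι τ : Type} (L : Finset ι) (T : Finset τ) (X : τ → Finset ι) {a b : ℝ}
    (ha : 0 < a) (hL : (L.card : ℝ) ≤ b) (hX : ∀ t ∈ T, X t ⊆ L ∧ a ≤ (X t).card)
    (hT : 2 * b / a + 1 ≤ T.card) : ∃ t ∈ T, ∃ t' ∈ T, t ≠ t' ∧ ∃ F : Finset ι,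
      (∀ i ∈ F, i ∈ X t ∧ i ∈ X t') ∧ a ^ 2 / (8 * b) ≤ F.card := by
  obtain ⟨t, h1, t', h2, h3, h4⟩ := rich L T X ha hL hX hT
  exact ⟨t, h1, t', h2, h3, _, fun i hi => mem_inter.1 hi, h4⟩

theorem pop_LF0 {Ω β : Type} (E : Finset Ω) (f : Ω → β) (Z : Finset β) {R : ℝ}
    (hZ : ∀ ω ∈ E, f ω ∈ Z) (hR : (Z.card : ℝ) ≤ R) :
    ∃ E' ⊆ E, (E.card : ℝ) / 2 ≤ E'.card ∧ ∀ ω ∈ E', ∃ F ⊆ E', (∀ ω' ∈ F, f ω' = f ω) ∧
      (E.card : ℝ) / (2 * R) ≤ F.card := by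
  obtain ⟨E', h1, h2, h3⟩ := pop1 E f (R := R)
    ((Nat.cast_le.2 (card_le_card (image_subset_iff.2 hZ))).trans hR)
  exact ⟨E', h1, h2, fun ω hω => ⟨_, filter_subset _ _, fun ω' h => (mem_filter.1 h).2, h3 ω hω⟩⟩

theorem norm_LF0 {D : ℕ} (A : Mt D) : ‖fun ij : Fin D × Fin D => A ij.1 ij.2‖ = ‖A‖ := by
  refine le_antisymm ((pi_norm_le_iff_of_nonneg (norm_nonneg _)).2 fun ij =>
    (norm_le_pi_norm (A ij.1) ij.2).trans (norm_le_pi_norm A ij.1)) ?_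
  exact (pi_norm_le_iff_of_nonneg (norm_nonneg _)).2 fun i =>
    (pi_norm_le_iff_of_nonneg (norm_nonneg _)).2 fun j =>
      norm_le_pi_norm (fun ij : Fin D × Fin D => A ij.1 ij.2) (i, j)

theorem hts_LF0 {D : ℕ} {c : Cfg D} {N H K : ℝ} (h : Pre c N H K) (hH : 0 < H) (hK : 0 < K)
    (hZ : (c.Z.card : ℝ) ≤ 3 * H) : ∃ E2 ⊆ c.E, c.nL * H / (2 * K) ≤ E2.card ∧
    ∀ ω ∈ E2, c.nL / (6 * K) ≤ ((c.L.filter fun i => (i, ω.2) ∈ c.E).card : ℝ) := by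
  obtain ⟨E2, h1, h2, h3⟩ := pop_LF0 c.E Prod.snd c.Z (fun ω hω => (mem_product.1 (h.sub hω)).2) hZ
  have hm := h.mass
  refine ⟨E2, h1, le_trans ?_ h2, fun ω hω => ?_⟩
  · rw [mul_comm 2 K, ← div_div]
    exact div_le_div_of_nonneg_right hm zero_le_two
  · obtain ⟨F, a1, a2, a3⟩ := h3 ω hω
    have a4 : c.nL / (6 * K) = c.nL * H / K / (2 * (3 * H)) := by
      field_simp
      ring
    rw [a4]
    refine ((div_le_div_of_nonneg_right hm (by positivity)).trans a3).trans (Nat.cast_le.2 ?_)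
    refine card_le_card_of_injOn Prod.fst (fun x hx => ?_) fun x hx y hy e =>
      Prod.ext e ((a2 x hx).trans (a2 y hy).symm)
    have a5 := h1 (a1 hx)
    refine mem_coe.2 (mem_filter.2 ⟨(mem_product.1 (h.sub a5)).1, ?_⟩)
    rw [← a2 x hx]
    exact a5

theorem pair_LF0 {D m c : ℕ} {σ : ℝ} (h : RichB (D := D) σ m c) {d : Dat D} {N H K : ℝ}
    (hN : 1 ≤ N) (hK : 4 ≤ K) (hR : Reg σ m d N H K) (hL : Lip1 d K (N ^ (-(2 / 5) : ℝ)))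
    (hc : (K ^ 8) ^ c ≤ N) (T : Finset ℝ)
    (hT : ∀ z ∈ T, d.c.nL / (6 * K) ≤ ((d.c.L.filter fun i => (i, z) ∈ d.c.E).card : ℝ))
    (hn : 12 * K ^ 2 + 1 ≤ T.card) :
    ∃ z ∈ T, ∃ z' ∈ T, z ≠ z' ∧
      ‖d.P z' - d.P z‖ ≤ (K ^ 8) ^ c * (|z' - z| + N ^ (-(2 / 5) : ℝ)) := by
  have h0 := hR.good.nL_pos
  have hK0 : 0 < K := by linarith
  have e1 : 2 * (K * d.c.nL) / (d.c.nL / (6 * K)) + 1 = 12 * K ^ 2 + 1 := by
    field_simp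
    ring
  have e2 : (d.c.nL / (6 * K)) ^ 2 / (8 * (K * d.c.nL)) = d.c.nL / (288 * K ^ 3) := by
    field_simp
    ring
  obtain ⟨z, a1, z', a2, a3, F, a4, a5⟩ := rich_LF0 d.c.L T
    (fun z => d.c.L.filter fun i => (i, z) ∈ d.c.E) (by positivity) (hR.good.toPre.cardL hN)
    (fun z hz => ⟨filter_subset _ _, hT z hz⟩) (e1.trans_le hn)
  have b1 : (4 : ℝ) ^ 5 ≤ K ^ 5 := pow_le_pow_left₀ (by norm_num) hK 5
  have b2 : 288 * K ^ 3 ≤ K ^ 8 := by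
    rw [show K ^ 8 = K ^ 5 * K ^ 3 by ring]
    exact mul_le_mul_of_nonneg_right (by linarith) (by positivity)
  refine ⟨z, a1, z', a2, a3, h d N H K (K ^ 8) z z' F hR hL (by linarith)
    (le_self_pow₀ (by linarith) (by norm_num)) hc
    (fun i hi => ⟨(mem_filter.1 (a4 i hi).1).2, (mem_filter.1 (a4 i hi).2).2⟩) ?_⟩
  rw [e2] at a5
  exact (div_le_div_of_nonneg_left h0.le (by positivity) b2).trans a5

theorem num_LF0 {K : ℝ} (hK : 4 ≤ K) (c n : ℕ) :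
    (12 * K ^ 2 + 1) * (6 * (K ^ 8) ^ c + 2) ^ n ≤ K ^ (4 + (8 * c + 2) * n) := by
  have h1 : (4 : ℝ) ^ 2 ≤ K ^ 2 := pow_le_pow_left₀ (by norm_num) hK 2
  have h2 : 1 ≤ (K ^ 8) ^ c := one_le_pow₀ (one_le_pow₀ (by linarith))
  have h3 : 12 * K ^ 2 + 1 ≤ K ^ 4 := by nlinarith
  have h4 : 6 * (K ^ 8) ^ c + 2 ≤ K ^ (8 * c + 2) := by
    rw [pow_add, pow_mul]
    nlinarith
  rw [pow_add, pow_mul]
  exact mul_le_mul h3 (pow_le_pow_left₀ (by positivity) h4 n) (by positivity) (by positivity)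

theorem cov_LF0 {D m c : ℕ} {σ : ℝ} (h : RichB (D := D) σ m c) {d : Dat D} {N H K : ℝ}
    (hN : 1 ≤ N) (hK : 4 ≤ K) (hR : Reg σ m d N H K) (hL : Lip1 d K (N ^ (-(2 / 5) : ℝ)))
    (hc : (K ^ 8) ^ c ≤ N) {β : ℝ} (hβ : N ^ (-(2 / 5) : ℝ) ≤ β) (z0 : ℝ) (E : Finset (ℕ × ℝ))
    (hE : ∀ ω ∈ E, |ω.2 - z0| ≤ β ∧
      d.c.nL / (6 * K) ≤ ((d.c.L.filter fun i => (i, ω.2) ∈ d.c.E).card : ℝ)) :
    ∃ T : Finset ℝ, (T.card : ℝ) ≤ 12 * K ^ 2 + 1 ∧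
      ∀ ω ∈ E, ∃ t ∈ T, ‖d.P ω.2 - d.P t‖ ≤ 3 * (K ^ 8) ^ c * β := by
  have h0 : 0 < β := lt_of_lt_of_le (Real.rpow_pos_of_pos (by linarith) _) hβ
  have h1 : 0 < (K ^ 8) ^ c := by
    have : 0 < K := by linarith
    positivity
  obtain ⟨T, -, a2, a3⟩ := net_LF0 (E.image Prod.snd)
    (fun z t => ‖d.P z - d.P t‖ ≤ 3 * (K ^ 8) ^ c * β) (fun z => by
      rw [sub_self, norm_zero]
      positivity) (fun z t hh => by rwa [norm_sub_rev]) (n := 12 * K ^ 2 + 1) fun T hT hn => by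
      have b0 : ∀ z ∈ T, |z - z0| ≤ β ∧
          d.c.nL / (6 * K) ≤ ((d.c.L.filter fun i => (i, z) ∈ d.c.E).card : ℝ) := by
        intro z hz
        obtain ⟨ω, hω, rfl⟩ := mem_image.1 (hT hz)
        exact hE ω hω
      obtain ⟨z, b1, z', b2, b3, b4⟩ := pair_LF0 h hN hK hR hL hc T (fun z hz => (b0 z hz).2) hn
      refine ⟨z', b2, z, b1, b3.symm, b4.trans ?_⟩
      have b5 := abs_le.1 (b0 z b1).1
      have b6 := abs_le.1 (b0 z' b2).1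
      have b7 : |z' - z| ≤ 2 * β := abs_le.2 ⟨by linarith [b5.2, b6.1], by linarith [b5.1, b6.2]⟩
      rw [mul_comm 3, mul_assoc]
      exact mul_le_mul_of_nonneg_left (by linarith) h1.le
  exact ⟨T, a2, fun ω hω => a3 _ (mem_image_of_mem _ hω)⟩

theorem lip_LF0 {D m c : ℕ} {σ : ℝ} (h : RichB (D := D) σ m c) {d : Dat D} {N H K t Λ : ℝ}
    (hN : 1 ≤ N) (hK : 4 ≤ K) (hR : Reg σ m d N H K) (hL : Lip1 d K (N ^ (-(2 / 5) : ℝ)))
    (hc : (K ^ 8) ^ c ≤ N) (ht : N ^ (-(2 / 5) : ℝ) ≤ t) (ht1 : t ≤ 1) (hΛ : 1 ≤ Λ) (M : ℕ)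
    (hM : 1 ≤ t * Λ ^ M) (E : Finset (ℕ × ℝ))
    (hE : ∀ ω ∈ E, d.c.nL / (6 * K) ≤ ((d.c.L.filter fun i => (i, ω.2) ∈ d.c.E).card : ℝ)) :
    ∃ E' ⊆ E, (E.card : ℝ) / (3 * K ^ (4 + (8 * c + 2) * (D * D))) ^ (M + 1) ≤ E'.card ∧
      ∀ ω ∈ E', ∀ ω' ∈ E', ‖d.P ω.2 - d.P ω'.2‖ ≤ (Λ + 2 * 2 ^ D) * (|ω.2 - ω'.2| + t) := by
  have h0 : 0 < t := lt_of_lt_of_le (Real.rpow_pos_of_pos (by linarith) _) ht
  have hK0 : 0 < K := by linarith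
  have ea : ∀ ω ω' : ℕ × ℝ, ‖(fun _ : Fin 1 => ω.2) - fun _ : Fin 1 => ω'.2‖ = |ω.2 - ω'.2| :=
    fun ω ω' => pi_norm_const (ω.2 - ω'.2)
  obtain ⟨E', a1, a2, a3⟩ := lipref E (fun _ => ()) (fun ω (_ : Fin 1) => ω.2)
    (fun ω (ij : Fin D × Fin D) => d.P ω.2 ij.1 ij.2) (R := K ^ (4 + (8 * c + 2) * (D * D)))
    (B := 2 ^ D) M h0 ht1 hΛ hM (one_le_pow₀ (by linarith)) (by positivity)
    (fun ω _ => (norm_LF0 _).trans_le (hR.gr.norm_le _)) fun β b1 _ ω0 _ => by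
      have hβ := h0.trans_le b1
      obtain ⟨T, b2, b3⟩ := cov_LF0 h hN hK hR hL hc (ht.trans b1) ω0.2
        (E.filter fun ω => |ω.2 - ω0.2| ≤ β) fun ω hω =>
          ⟨(mem_filter.1 hω).2, hE ω (mem_filter.1 hω).1⟩
      refine (cells_LF0 _ _ T (fun z (ij : Fin D × Fin D) => d.P z ij.1 ij.2) hβ
        (ρ := 3 * (K ^ 8) ^ c * β) (by positivity) fun ω hω => ?_).trans ?_
      · simp only [mem_filter, true_and, ea] at hω
        obtain ⟨z, b4, b5⟩ := b3 ω (mem_filter.2 hω)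
        exact ⟨z, b4, (norm_LF0 (d.P ω.2 - d.P z)).trans_le b5⟩
      · have e : 2 * (3 * (K ^ 8) ^ c * β) / β + 2 = 6 * (K ^ 8) ^ c + 2 := by
          field_simp
          ring
        rw [e, Fintype.card_prod, Fintype.card_fin]
        exact (mul_le_mul_of_nonneg_right b2 (by positivity)).trans (num_LF0 hK c _)
  rw [Fintype.card_fin, pow_one] at a2
  refine ⟨E', a1, a2, fun ω hω ω' hω' => ?_⟩
  have a4 := a3 ω hω ω' hω' rfl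
  rw [ea] at a4
  exact (norm_LF0 (d.P ω.2 - d.P ω'.2)).symm.trans_le a4

theorem core_LF0 {D m c : ℕ} {σ : ℝ} (h : RichB (D := D) σ m c) {d : Dat D} {N K K2 Λ : ℝ}
    (hN : 1 ≤ N) (hK : 4 ≤ K) (hR : Reg σ m d N (N ^ (1 / 3 : ℝ)) K)
    (hZ : (d.c.Z.card : ℝ) ≤ 3 * N ^ (1 / 3 : ℝ)) (hL : Lip1 d K (N ^ (-(2 / 5) : ℝ)))
    (hc : (K ^ 8) ^ c ≤ N) (hΛ : 1 ≤ Λ) (M : ℕ) (hM : 1 ≤ N ^ (-(1 / 3) : ℝ) * Λ ^ M)
    (h1 : K ^ (2 + (4 + (8 * c + 2) * (D * D) + 1) * (M + 1)) ≤ K2) (h2 : Λ + 2 * 2 ^ D ≤ K2) :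
    ∃ d' : Dat D, S2 σ m d' N K2 := by
  have hN0 : 0 < N := by linarith
  have hK0 : 0 < K := by linarith
  have hH : 0 < N ^ (1 / 3 : ℝ) := Real.rpow_pos_of_pos hN0 _
  have hn := hR.good.nL_pos
  obtain ⟨E2, a1, a2, a3⟩ := hts_LF0 hR.good.toPre hH hK0 hZ
  obtain ⟨E3, b1, b2, b3⟩ := lip_LF0 h hN hK hR hL hc
    (Real.rpow_le_rpow_of_exponent_le hN (by norm_num : (-(2 / 5) : ℝ) ≤ -(1 / 3)))
    (Real.rpow_le_one_of_one_le_of_nonpos hN (by norm_num)) hΛ M hM E2 a3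
  generalize 4 + (8 * c + 2) * (D * D) = e at h1 b2
  have c1 : K ≤ K2 := (le_self_pow₀ (by linarith) (by omega)).trans h1
  have c2 : 2 * K * (3 * K ^ e) ^ (M + 1) ≤ K2 := by
    refine le_trans ?_ h1
    rw [pow_add K 2, pow_mul]
    refine mul_le_mul (by nlinarith) (pow_le_pow_left₀ (by positivity) ?_ _) (by positivity)
      (by positivity)
    rw [pow_succ, mul_comm]
    exact mul_le_mul_of_nonneg_left (by linarith) (by positivity)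
  have c3 : d.c.nL * N ^ (1 / 3 : ℝ) / K2 ≤ E3.card := by
    refine le_trans ?_ ((div_le_div_of_nonneg_right a2 (by positivity)).trans b2)
    rw [div_div]
    exact div_le_div_of_nonneg_left (by positivity) (by positivity) c2
  refine ⟨d.res E3, hR.res hN0 hH hK0 c1 (b1.trans a1) c3, fun ω g1 ω' g2 g3 =>
    (hL ω (a1 (b1 g1)) ω' (a1 (b1 g2)) g3).trans ?_, fun ω g1 ω' g2 => (b3 ω g1 ω' g2).trans ?_⟩
  · exact mul_le_mul_of_nonneg_right c1 (by positivity)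
  · exact mul_le_mul_of_nonneg_right h2 (by positivity)

theorem lf0 {D m c : ℕ} {σ : ℝ} (h : RichB (D := D) σ m c) : Step (D := D) (S1 σ m) (S2 σ m) := by
  intro ε' hε'
  obtain ⟨M, hM⟩ := exists_nat_ge (1 / ε')
  obtain ⟨g, hg⟩ : ∃ g, g = 2 + (4 + (8 * c + 2) * (D * D) + 1) * (M + 1) := ⟨_, rfl⟩
  obtain ⟨ε, hε, N1, h1⟩ := small (4 ^ (g + 8 * c)) (2 * (g + 8 * c)) (lt_min hε' one_pos)
  obtain ⟨N2, h2⟩ := big (2 * 2 ^ D + 1) (half_pos hε')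
  refine ⟨ε, hε, max N1 N2, fun N hN d hd => ?_⟩
  obtain ⟨a1, a2⟩ := h1 ε hε le_rfl N (le_trans (le_max_left _ _) hN)
  obtain ⟨-, a3, -⟩ := h2 N (le_trans (le_max_right _ _) hN)
  have hN1 : 1 ≤ N := by linarith
  have hN0 : 0 < N := by linarith
  have hK1 : 1 ≤ N ^ ε := Real.one_le_rpow hN1 hε.le
  have hH1 : 1 ≤ N ^ (1 / 3 : ℝ) := Real.one_le_rpow hN1 (by norm_num)
  have hH2 : N ^ (1 / 3 : ℝ) ≤ N := by
    simpa using Real.rpow_le_rpow_of_exponent_le hN1 (by norm_num : (1 / 3 : ℝ) ≤ 1)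
  obtain ⟨Z', E', b1, b2, b3⟩ := thin hd.1 hN1 hK1 hH1 hH2
  have hl := hd.2
  generalize N ^ ε = K0 at a2 hK1 b3 hl
  have c1 : 1 ≤ K0 ^ 2 := one_le_pow₀ hK1
  have c2 : 4 ≤ 4 * K0 ^ 2 := by linarith
  have c3 : (4 * K0 ^ 2) ^ (g + 8 * c) ≤ N ^ min ε' 1 := by
    rwa [mul_pow, ← pow_mul]
  have c4 : (2 : ℝ) ^ D ≥ 0 := by positivity
  refine core_LF0 h hN1 c2 b3 (b2.trans (by linarith)) (fun ω g1 ω' g2 g3 =>
    (hl ω (b1 g1) ω' (b1 g2) g3).trans (mul_le_mul_of_nonneg_right (by nlinarith) (by positivity)))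
    ?_ (Λ := N ^ (ε' / 2)) (by linarith) M ?_ ?_ ?_
  · rw [← pow_mul]
    refine ((pow_le_pow_right₀ (by linarith) (Nat.le_add_left _ g)).trans c3).trans ?_
    simpa using Real.rpow_le_rpow_of_exponent_le hN1 (min_le_right ε' 1)
  · rw [← Real.rpow_mul_natCast hN0.le, ← Real.rpow_add hN0]
    refine Real.one_le_rpow hN1 ?_
    rw [div_le_iff₀ hε'] at hM
    linarith
  · rw [← hg]
    exact ((pow_le_pow_right₀ (by linarith) (Nat.le_add_right g _)).trans c3).trans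
      (Real.rpow_le_rpow_of_exponent_le hN1 (min_le_left ε' 1))
  · have e : N ^ ε' = N ^ (ε' / 2) * N ^ (ε' / 2) := by rw [← Real.rpow_add hN0, add_halves]
    rw [e]
    nlinarith

end Vale.Agent.P127
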