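import Vale.Agent.P127.LF0

/-! # P127 LF1: rich pairs, one dimensional grains.  S = complement of one index j0.
spread at z0 with gamma = K'^(-c0) gives i, i' in F with pos within 1/N and e - e' of norm at least gamma. Lip1 at z0: s0 - s0' has norm at most 2 K r0, so (Gr.norm_le_of) the coordinate j0 of e - e' is at least gamma / C.
Lip1 at z1 (pos_shift): s1 - s1' has norm at most K (1/N + 2 |z1 - z0| + r0). And s1 - s1' - (s0 - s0') = mv (P z1 - P z0) (e - e') = (e - e') j0 times the column j0 of P z1 - P z0, the only nonzero column. -/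

namespace Vale.Agent.P127

open Finset
open scoped Classical

theorem col_LF1 {D : ℕ} {S : Finset (Fin D)} {P : ℝ → Mt D} (h : Gr S P) {j0 : Fin D}
    (hj : ∀ j ∉ S, j = j0) (z0 z1 : ℝ) (v : V D) :
    |v j0| * ‖P z1 - P z0‖ ≤ ‖mv (P z1 - P z0) v‖ := by
  have e : ∀ i, ∀ j ∈ S, (P z1 - P z0) i j = 0 := fun i j hjS => by
    by_cases hi : i ∈ S
    · simp only [Pi.sub_apply, (h z1).2.1 i hi j hjS, (h z0).2.1 i hi j hjS, sub_self]
    · simp only [Pi.sub_apply, (h z1).1 i hi j, (h z0).1 i hi j, sub_self]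
  rw [← Real.norm_eq_abs, ← norm_smul]
  refine (pi_norm_le_iff_of_nonneg (norm_nonneg _)).2 fun i =>
    (pi_norm_le_iff_of_nonneg (norm_nonneg _)).2 fun j => ?_
  by_cases hjS : j ∈ S
  · rw [Pi.smul_apply, Pi.smul_apply, e i j hjS, smul_zero, norm_zero]
    exact norm_nonneg _
  · refine le_of_eq_of_le ?_ (norm_le_pi_norm _ i)
    rw [hj j hjS, mv, sum_eq_single j0 (fun k _ hk => by
      rw [e i k (not_not.1 fun hk' => hk (hj k hk')), zero_mul]) (fun h => absurd (mem_univ _) h),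
      Pi.smul_apply, Pi.smul_apply, smul_eq_mul, mul_comm]

theorem pow_LF1 (C : ℝ) : ∃ k : ℕ, ∀ K : ℝ, 2 ≤ K → C ≤ K ^ k := by
  obtain ⟨k, hk⟩ := pow_unbounded_of_one_lt C (one_lt_two (α := ℝ))
  exact ⟨k, fun K hK => hk.le.trans (pow_le_pow_left₀ zero_le_two hK k)⟩

theorem rich1 {D m : ℕ} {σ : ℝ} (h0 : 0 < σ) (hm : m + 1 = D) : ∃ c, RichB (D := D) σ m c := by
  obtain ⟨C, hC, hsp⟩ := spread D
  obtain ⟨k, hk⟩ := pow_LF1 C
  obtain ⟨l, hl⟩ := pow_LF1 (4 * 2 ^ D + 4 * (1 + D * 2 ^ D))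
  obtain ⟨c, hc⟩ := exists_nat_ge (((k + 4 : ℕ) : ℝ) / σ)
  rw [div_le_iff₀ h0] at hc
  refine ⟨c + (l + 1), fun d N H K K' z0 z1 F hR hL hK hK' hN hF hFc => ?_⟩
  have h2 : 2 ≤ K' := hK.trans hK'
  have h1 : 1 ≤ K' := by linarith
  have hp : 0 < K' := by linarith
  have hcN : K' ^ c ≤ N := (pow_le_pow_right₀ h1 (Nat.le_add_right _ _)).trans hN
  have hc1 : 1 ≤ K' ^ c := one_le_pow₀ h1
  have hN1 : 1 ≤ N := hc1.trans hcN
  have hγ : C * K ^ 2 * K' * (K' ^ c)⁻¹ ^ σ < 1 := by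
    have e1 : K' ^ (k + 4) ≤ (K' ^ c) ^ σ := by
      rw [← Real.rpow_natCast K' c, ← Real.rpow_mul hp.le, ← Real.rpow_natCast]
      exact Real.rpow_le_rpow_of_exponent_le h1 hc
    rw [Real.inv_rpow (by positivity), ← div_eq_mul_inv, div_lt_one (by positivity)]
    calc C * K ^ 2 * K' ≤ K' ^ k * K' ^ 2 * K' := by
          have := hk K' h2
          gcongr
      _ = K' ^ (k + 3) := by ring
      _ < K' ^ (k + 4) := pow_lt_pow_right₀ (by linarith) (by omega)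
      _ ≤ _ := e1
  obtain ⟨i, hi, i', hi', hpos, he⟩ := hsp hR hN1 F z0 K' (K' ^ c)⁻¹ hp (fun i hi => (hF i hi).1)
    hFc (by rw [one_div]; exact inv_anti₀ (by positivity) hcN) (inv_le_one_of_one_le₀ hc1) hγ
  obtain ⟨j0, hj0⟩ := card_eq_one.1 (show d.Sᶜ.card = 1 by
    rw [card_compl, Fintype.card_fin, hR.card_S]
    omega)
  have hj : ∀ j ∉ d.S, j = j0 := fun j hj => mem_singleton.1 (hj0 ▸ mem_compl.2 hj)
  set r := N ^ (-(2 / 5) : ℝ)
  have hr : 1 / N ≤ r := by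
    rw [one_div, ← Real.rpow_neg_one]
    exact Real.rpow_le_rpow_of_exponent_le hN1 (by norm_num)
  have hr0 : 0 ≤ r := le_trans (by positivity) hr
  have bi : ∀ i ∈ F, ‖d.c.e i‖ ≤ 1 := fun i hi =>
    hR.good.be i (mem_product.1 (hR.good.sub (hF i hi).1)).1
  have s0 : ‖mv (d.P z0) (d.c.e i - d.c.e i')‖ ≤ K' * (2 * r) := by
    rw [mv_sub]
    refine (hL _ (hF i hi).1 _ (hF i' hi').1 rfl).trans ?_
    gcongr
    linarith
  have s1 : ‖mv (d.P z1) (d.c.e i - d.c.e i')‖ ≤ K' * (2 * |z1 - z0| + 2 * r) := by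
    rw [mv_sub]
    refine (hL _ (hF i hi).2 _ (hF i' hi').2 rfl).trans ?_
    have e : d.c.pos (i, z1) - d.c.pos (i', z1) = d.c.pos (i, z0) - d.c.pos (i', z0) +
        (z1 - z0) • (d.c.e i - d.c.e i') := by
      rw [pos_shift d.c i z0 z1, pos_shift d.c i' z0 z1, smul_sub]
      abel
    have e2 : ‖d.c.e i - d.c.e i'‖ ≤ 2 :=
      (norm_sub_le _ _).trans (by linarith [bi i hi, bi i' hi'])
    have e3 := norm_add_le (d.c.pos (i, z0) - d.c.pos (i', z0)) ((z1 - z0) • (d.c.e i - d.c.e i'))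
    rw [norm_smul, Real.norm_eq_abs, ← e] at e3
    have e4 := mul_le_mul_of_nonneg_left e2 (abs_nonneg (z1 - z0))
    exact mul_le_mul hK' (by linarith) (by positivity) hp.le
  have g1 := he.trans (hR.gr.norm_le_of z0 _ (abs_nonneg ((d.c.e i - d.c.e i') j0))
    fun j h => by rw [hj j h])
  have g2 := col_LF1 hR.gr hj z0 z1 (d.c.e i - d.c.e i')
  rw [sub_mv] at g2
  have g3 := g2.trans ((norm_sub_le _ _).trans (add_le_add s1 s0))
  have g4 : ‖d.P z1 - d.P z0‖ ≤ 2 * 2 ^ D :=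
    (norm_sub_le _ _).trans (by linarith [hR.gr.norm_le z0, hR.gr.norm_le z1])
  have g5 := hl K' h2
  set M := ‖d.P z1 - d.P z0‖
  set b := |(d.c.e i - d.c.e i') j0|
  set τ := |z1 - z0|
  set A : ℝ := 1 + D * 2 ^ D
  have hτ : 0 ≤ τ := abs_nonneg _
  have hM : 0 ≤ M := norm_nonneg _
  have hA : 0 ≤ A := by positivity
  rw [pow_add, mul_assoc, ← inv_mul_le_iff₀ (by positivity)]
  calc (K' ^ c)⁻¹ * M ≤ (K' * (2 * r) + A * b) * M := by
        gcongr
        linarith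
    _ = K' * (2 * r) * M + A * (b * M) := by ring
    _ ≤ K' * (2 * (τ + r)) * (2 * 2 ^ D) + A * (K' * (4 * (τ + r))) := by
        have g6 : b * M ≤ K' * (4 * (τ + r)) := by nlinarith [mul_nonneg hp.le hτ]
        have g7 : r ≤ τ + r := by linarith
        gcongr
    _ = (4 * 2 ^ D + 4 * A) * K' * (τ + r) := by ring
    _ ≤ _ := by
        rw [pow_succ]
        gcongr

theorem lf1 {D m : ℕ} {σ : ℝ} (h0 : 0 < σ) (hm : m + 1 = D) : Step (D := D) (S1 σ m) (S2 σ m) := by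
  obtain ⟨c, hc⟩ := rich1 h0 hm
  exact lf0 hc

end Vale.Agent.P127
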