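import Vale.Agent.P127.LF0
import Vale.Agent.P127.LemA

/-! # P127 LF2: rich pairs, grains of codimension one.  S = {i0}, Ev = row i0 of P z1 - P z0 (the only nonzero row, Ev i0 = 0, norm at most 2^(D+1)).
u(i,z0) - u(i',z0) = u(i,z1) - u(i',z1) - mv (P z1 - P z0) (pos1 - pos1') - (z1 - z0) (s0 - s0'), and s is bounded by D 2^D. Apply lemA with rho = 1/N + C |z1 - z0| and K' replaced by K'^(D+1). -/

namespace Vale.Agent.P127

open Finset
open scoped Classical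

theorem rich2 (D : ℕ) {σ : ℝ} (h0 : 0 < σ) : ∃ c, RichB (D := D) σ 1 c := by
  obtain ⟨c, hc⟩ := lemA D h0
  refine ⟨(D + 1) * c + (2 * D + 1), fun d N H K K' z0 z1 F hR _ hK hK' hN hF hm => ?_⟩
  obtain ⟨i0, hS⟩ := card_eq_one.1 hR.card_S
  have h2 : (2 : ℝ) ≤ K' := hK.trans hK'
  have h1 : (1 : ℝ) ≤ K' := by linarith
  have hN1 : 1 ≤ N := (one_le_pow₀ h1).trans hN
  have hi0 : i0 ∈ d.S := by rw [hS]; exact mem_singleton_self i0
  have hKK : K' ≤ K' ^ (D + 1) := le_self_pow₀ h1 (Nat.succ_ne_zero D)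
  have hnL := hR.good.nL_pos
  have hE : ‖d.P z1 i0 - d.P z0 i0‖ ≤ K' ^ (D + 1) := by
    have h3 := (norm_le_pi_norm (d.P z1) i0).trans (hR.gr.norm_le z1)
    have h4 := (norm_le_pi_norm (d.P z0) i0).trans (hR.gr.norm_le z0)
    have h5 : (2 : ℝ) ^ (D + 1) ≤ K' ^ (D + 1) := pow_le_pow_left₀ zero_le_two h2 _
    rw [pow_succ (2 : ℝ)] at h5
    linarith [norm_sub_le (d.P z1 i0) (d.P z0 i0)]
  have key := hc d N H K (K' ^ (D + 1)) z0 z1 (1 / N + |z1 - z0| * (D * 2 ^ D * 2)) F i0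
    (d.P z1 i0 - d.P z0 i0) hR hS hK (hK'.trans hKK)
    (by rw [← pow_mul]; exact (pow_le_pow_right₀ h1 (Nat.le_add_right _ _)).trans hN) hF
    (le_trans (by gcongr) hm)
    (by rw [Pi.sub_apply, (hR.gr z1).2.1 i0 hi0 i0 hi0, (hR.gr z0).2.1 i0 hi0 i0 hi0, sub_self])
    hE (le_add_of_nonneg_right (by positivity)) fun i hi i' hi' hu => by
      have e : d.u (i, z0) i0 - d.u (i', z0) i0 + ∑ j, (d.P z1 i0 - d.P z0 i0) j *
          (d.c.pos (i, z1) j - d.c.pos (i', z1) j) = (d.u (i, z1) - d.u (i', z1)) i0 -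
            (z1 - z0) * mv (d.P z0) (d.c.e i - d.c.e i') i0 := by
        simp only [Dat.u, mv, Cfg.pos, Pi.sub_apply, Pi.add_apply, Pi.smul_apply, smul_eq_mul,
          Finset.mul_sum, ← Finset.sum_sub_distrib, ← Finset.sum_add_distrib]
        exact Finset.sum_congr rfl fun j _ => by ring
      have h3 : ‖d.c.e i - d.c.e i'‖ ≤ 2 := by
        have h4 := hR.good.be i (mem_product.1 (hR.good.sub (hF i hi).1)).1
        have h5 := hR.good.be i' (mem_product.1 (hR.good.sub (hF i' hi').1)).1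
        linarith [norm_sub_le (d.c.e i) (d.c.e i')]
      have h4 : |mv (d.P z0) (d.c.e i - d.c.e i') i0| ≤ D * 2 ^ D * 2 :=
        (norm_le_pi_norm (mv (d.P z0) (d.c.e i - d.c.e i')) i0).trans ((norm_mv _ _).trans
          (by gcongr; exact hR.gr.norm_le z0))
      have h5 : |(d.u (i, z1) - d.u (i', z1)) i0| ≤ 1 / N :=
        (norm_le_pi_norm (d.u (i, z1) - d.u (i', z1)) i0).trans hu
      rw [e]
      refine (abs_sub _ _).trans (add_le_add h5 ?_)
      rw [abs_mul]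
      gcongr
  have h3 : ‖d.P z1 - d.P z0‖ ≤ ‖d.P z1 i0 - d.P z0 i0‖ := by
    refine (pi_norm_le_iff_of_nonneg (norm_nonneg _)).2 fun i => ?_
    by_cases hi : i = i0
    · rw [hi]
      exact le_rfl
    · have h4 : i ∉ d.S := by rw [hS]; simpa using hi
      have h5 : (d.P z1 - d.P z0) i = 0 := by
        funext j
        simp [(hR.gr z1).1 i h4 j, (hR.gr z0).1 i h4 j]
      rw [h5, norm_zero]
      exact norm_nonneg _
  have h4 : 1 / N ≤ N ^ (-(2 / 5) : ℝ) := by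
    rw [one_div, ← Real.rpow_neg_one]
    exact Real.rpow_le_rpow_of_exponent_le hN1 (by norm_num)
  have h5 : (D : ℝ) * 2 ^ D * 2 ≤ K' ^ (2 * D + 1) := by
    have h6 : (D : ℝ) ≤ 2 ^ D := by exact_mod_cast Nat.lt_two_pow_self.le
    calc (D : ℝ) * 2 ^ D * 2 ≤ 2 ^ D * 2 ^ D * 2 := by gcongr
      _ = 2 ^ (2 * D + 1) := by ring
      _ ≤ K' ^ (2 * D + 1) := pow_le_pow_left₀ zero_le_two h2 _
  have h6 : (1 : ℝ) ≤ K' ^ (2 * D + 1) := one_le_pow₀ h1
  have h7 : 0 ≤ N ^ (-(2 / 5) : ℝ) := by positivity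
  refine (h3.trans key).trans ?_
  rw [pow_add K' ((D + 1) * c), pow_mul K' (D + 1) c, mul_assoc (_ ^ c)]
  refine mul_le_mul_of_nonneg_left ?_ (by positivity)
  nlinarith [abs_nonneg (z1 - z0), mul_le_mul_of_nonneg_left h5 (abs_nonneg (z1 - z0)),
    mul_le_mul_of_nonneg_right h6 h7]

theorem lf2 (D : ℕ) {σ : ℝ} (h0 : 0 < σ) : Step (D := D) (S1 σ 1) (S2 σ 1) := by
  obtain ⟨c, hc⟩ := rich2 D h0
  exact lf0 hc

end Vale.Agent.P127
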