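import Vale.Agent.P127.Zoom
import Vale.Agent.P127.Lab.Heavy
import Vale.Agent.P127.Lab.One
import Vale.Agent.P127.Lab.Two
import Vale.Agent.P127.Lab.CntU
import Vale.Agent.P127.Lab.Three

/-! # P127 Lab (SUB-LEAD): near extremal configurations are regular.  See notes/P127.md, part LAB. -/

namespace Vale.Agent.P127

open Finset
open scoped Classical

theorem lab_sc {N : ℝ} (hN : 1 ≤ N) : ∃ T : Finset ℝ, Sc T N (Real.logb 2 N + 2) := by
  have hN0 : 0 < N := by linarith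
  have hl : 0 ≤ Real.logb 2 N := Real.logb_nonneg one_lt_two hN
  refine ⟨(range (⌈Real.logb 2 N⌉₊ + 1)).image fun j => min 1 (2 ^ j / N), ?_, fun ρ hρ => ?_,
    fun r h1 h2 => ?_⟩
  · refine (Nat.cast_le.2 card_image_le).trans ?_
    rw [card_range]
    push_cast
    linarith [Nat.ceil_lt_add_one hl]
  · obtain ⟨j, _, rfl⟩ := mem_image.1 hρ
    refine ⟨le_min ((div_le_one hN0).2 hN) ?_, min_le_left _ _⟩
    exact div_le_div_of_nonneg_right (one_le_pow₀ one_le_two) hN0.le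
  · have h3 : 1 ≤ r * N := (div_le_iff₀ hN0).1 h1
    have hr : 0 < r := lt_of_lt_of_le (by positivity) h1
    have h4 : 0 ≤ Real.logb 2 (r * N) := Real.logb_nonneg one_lt_two h3
    have h5 : Real.logb 2 (r * N) ≤ Real.logb 2 N :=
      Real.logb_le_logb_of_le one_lt_two (by positivity) (by nlinarith)
    have h6 : (2 : ℝ) ^ Real.logb 2 (r * N) = r * N :=
      Real.rpow_logb two_pos (by norm_num) (by positivity)
    refine ⟨min 1 (2 ^ ⌈Real.logb 2 (r * N)⌉₊ / N), mem_image.2 ⟨_, mem_range.2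
      (Nat.lt_succ_of_le (Nat.ceil_mono h5)), rfl⟩, le_min h2 ?_, (min_le_right _ _).trans ?_⟩
    · rw [le_div_iff₀ hN0, ← Real.rpow_natCast]
      exact h6.symm.le.trans (Real.rpow_le_rpow_of_exponent_le one_le_two (Nat.le_ceil _))
    · rw [div_le_iff₀ hN0, ← Real.rpow_natCast]
      refine (Real.rpow_le_rpow_of_exponent_le one_le_two (Nat.ceil_lt_add_one h4).le).trans ?_
      rw [Real.rpow_add two_pos, h6, Real.rpow_one]
      linarith

theorem Sc.mono {T : Finset ℝ} {N K K' : ℝ} (h : Sc T N K) (hK : K ≤ K') : Sc T N K' :=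
  ⟨h.1.trans hK, h.2⟩

variable {D : ℕ}

theorem R1.res {σ : ℝ} {c : Cfg D} {N K K' : ℝ} (h : R1 σ c N K) (hN : 0 < N) (hnL : 0 < c.nL)
    (hK : K ≤ K') {E' : Finset (ℕ × ℝ)} (hE : E' ⊆ c.E) : R1 σ (c.res E') N K' := by
  intro A z α β p q h0 h1 h2 h3
  refine le_trans (Nat.cast_le.2 (card_le_card (filter_subset_filter _ hE)))
    ((h A z α β p q h0 h1 h2 h3).trans ?_)
  have hβ : 0 < β := lt_of_lt_of_le (by positivity) h1
  have hα : 0 < α := hβ.trans_le h2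
  show _ ≤ A ^ (2 * D) * K' * c.nL * β ^ ((D : ℝ) - σ) * α ^ σ
  gcongr

theorem R2.res {σ : ℝ} {c : Cfg D} {N K K' : ℝ} (h : R2 σ c N K) (hN : 0 < N)
    (hK : K ≤ K') {E' : Finset (ℕ × ℝ)} (hE : E' ⊆ c.E) : R2 σ (c.res E') N K' := by
  intro z α β p q h1 h2 h3
  refine le_trans (Nat.cast_le.2 (card_le_card (image_subset_image (filter_subset_filter _ hE))))
    ((h z α β p q h1 h2 h3).trans ?_)
  have hβ : 0 < β := lt_of_lt_of_le (by positivity) h1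
  have hα : 0 < α := hβ.trans_le h2
  gcongr

theorem CK.res {σ : ℝ} {m : ℕ} {d : Dat D} {N K K' : ℝ} (h : CK σ m d N K) (hN : 0 < N)
    (hK : 0 < K) (hK' : K ≤ K') {E' : Finset (ℕ × ℝ)} (hE : E' ⊆ d.c.E)
    (hm : d.c.nL * N / K' ≤ E'.card) : CK σ m (d.res E') N K' := by
  refine ⟨h.1, h.2.1.res hN hN hK hK' hE hm, h.2.2.1, ?_⟩
  refine le_trans (Nat.cast_le.2 (card_le_card (image_subset_image hE))) (h.2.2.2.trans ?_)
  gcongr

theorem lab_reg {σ : ℝ} {m : ℕ} {d : Dat D} {N K : ℝ} (h : CK σ m d N K) (h0 : 0 < σ)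
    (hm : σ ≤ m) (h1 : R1 σ d.c N K) (h2 : R2 σ d.c N K) (h3 : R3 σ m d N K) :
    Reg σ m d N N K := by
  refine ⟨h.1, h.2.1, h.2.2.1, h0, hm, fun z α β p q a1 a2 a3 => ?_, h2, h3⟩
  have h4 := h1 1 z α β p q le_rfl a1 a2 a3
  rw [one_pow, one_mul, one_mul, one_mul] at h4
  refine le_trans (Nat.cast_le.2 (card_le_card_of_injOn (fun i => (i, z)) (fun i hi => ?_)
    fun i _ j _ e => congrArg Prod.fst e)) h4
  obtain ⟨_, b1, b2, b3⟩ := mem_filter.1 hi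
  exact mem_filter.2 ⟨b1, rfl, b2, b3⟩

theorem lab_core (D : ℕ) : ∃ C ≥ (1 : ℝ), ∀ {σ : ℝ} {m : ℕ} {d : Dat D} {N K : ℝ} {T : Finset ℝ},
    CK σ m d N K → R1 σ d.c N K → Sc T N K → 1 ≤ N → 1 ≤ K → 0 < σ → σ ≤ m →
    ∃ d' : Dat D, Reg σ m d' N N (C * K ^ 24) := by
  obtain ⟨C2, hC2, H2⟩ := lab_r2 D
  obtain ⟨C3, hC3, H3⟩ := cnt_U D
  obtain ⟨C4, hC4, H4⟩ := lab_r3 D
  have hC : 1 ≤ C2 * C4 * (256 * C3) ^ 4 :=
    one_le_mul_of_one_le_of_one_le (one_le_mul_of_one_le_of_one_le hC2 hC4)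
      (one_le_pow₀ (by linarith))
  refine ⟨C2 * C4 * (256 * C3) ^ 4, hC, fun {σ m d N K T} h h1 hT hN hK h0 hm => ?_⟩
  have hN0 : 0 < N := by linarith
  have hK0 : 0 < K := by linarith
  have hnL := h.2.1.nL_pos
  have hmD : (m : ℝ) ≤ D := by
    have := card_le_univ d.S
    rw [h.1, Fintype.card_fin] at this
    exact_mod_cast this
  have hM := h.2.1.mass
  have key : ∀ (t K' : ℝ) (E' : Finset (ℕ × ℝ)), 0 < t → t * K ≤ K' →
      (d.c.E.card : ℝ) / t ≤ E'.card → d.c.nL * N / K' ≤ E'.card := fun t K' E' ht a1 a2 => by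
    refine le_trans ?_ ((div_le_div_of_nonneg_right hM ht.le).trans a2)
    rw [div_div, mul_comm K t]
    exact div_le_div_of_nonneg_left (by positivity) (by positivity) a1
  obtain ⟨E2, s2, m2, r2⟩ := H2 h.2.1 h1 hT hN hK h0.le (hm.trans hmD)
  have k2 : K ≤ 2 * K := by linarith
  obtain ⟨E3, s3, m3, r3⟩ := H3 (h.res hN0 hK0 k2 s2 (key 2 _ _ two_pos le_rfl m2))
    (h1.res hN0 hnL k2 s2) (hT.mono k2) hN (hK.trans k2) h0.le hm
  have p6 : K ≤ K ^ 6 := le_self_pow₀ hK (by norm_num)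
  have p6' : K ^ 6 ≤ C3 * K ^ 6 := le_mul_of_one_le_left (by positivity) hC3
  have k3 : 8 * K ≤ 256 * C3 * K ^ 6 := by linarith
  have k4 : K ≤ 256 * C3 * K ^ 6 := by linarith
  have s3' : E3 ⊆ d.c.E := s3.trans s2
  have m3' : (d.c.E.card : ℝ) / 4 ≤ E3.card := by
    have : (E2.card : ℝ) / 2 ≤ E3.card := m3
    linarith
  have g3 := h.res hN0 hK0 k4 s3' (key 4 _ _ four_pos (by linarith) m3')
  obtain ⟨E4, s4, m4, r4⟩ := H4 (T := T) g3.1 g3.2.1.toPre g3.2.2.1 (h1.res hN0 hnL k4 s3')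
    (hT.mono k4) hN (hK.trans k4) h0.le hm fun ρ hρ => (r3 ρ hρ).trans (by
      have : 0 < ρ := lt_of_lt_of_le (by positivity) (hT.2.1 ρ hρ).1
      have e : C3 * (2 * K) ^ 6 ≤ 256 * C3 * K ^ 6 := by
        rw [mul_pow]
        linarith
      gcongr)
  have s4' : E4 ⊆ d.c.E := s4.trans s3'
  have m4' : (d.c.E.card : ℝ) / 8 ≤ E4.card := by
    have : (E3.card : ℝ) / 2 ≤ E4.card := m4
    linarith
  have e4 : (256 * C3 * K ^ 6) ^ 4 = (256 * C3) ^ 4 * K ^ 24 := by ring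
  have k5 : C4 * (256 * C3 * K ^ 6) ^ 4 ≤ C2 * C4 * (256 * C3) ^ 4 * K ^ 24 := by
    rw [e4, mul_assoc, mul_assoc, ← mul_assoc C4]
    exact le_mul_of_one_le_left (by positivity) hC2
  have k6 : 256 * C3 * K ^ 6 ≤ C2 * C4 * (256 * C3) ^ 4 * K ^ 24 :=
    ((le_self_pow₀ (hK.trans k4) (by norm_num)).trans
      (le_mul_of_one_le_left (by positivity) hC4)).trans k5
  have k7 : C2 * K ^ 5 ≤ C2 * C4 * (256 * C3) ^ 4 * K ^ 24 := by
    rw [mul_assoc, mul_assoc, ← mul_assoc C4]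
    refine mul_le_mul_of_nonneg_left ((pow_le_pow_right₀ hK (by norm_num)).trans
      (le_mul_of_one_le_left (by positivity) ?_)) (by positivity)
    exact one_le_mul_of_one_le_of_one_le hC4 (one_le_pow₀ (by linarith))
  refine ⟨d.res E4, lab_reg (h.res hN0 hK0 (k4.trans k6) s4' (key 8 _ _ (by norm_num) (k3.trans k6) m4'))
    h0 hm (h1.res hN0 hnL (k4.trans k6) s4') (r2.res hN0 k7 (s4.trans s3))
    fun z β β' q a1 a2 a3 => (r4 z β β' q a1 a2 a3).trans ?_⟩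
  have hβ : 0 < β' := lt_of_lt_of_le (by positivity) a1
  have hα : 0 < β := hβ.trans_le a2
  gcongr

theorem lab {D m : ℕ} {σ : ℝ} (hP : PK D σ) (h0 : 0 < σ) (hm : σ ≤ m) :
    Step (D := D) (CK σ m) (S0 σ m) := by
  intro ε' hε'
  obtain ⟨C, hC, H⟩ := lab_core D
  obtain ⟨ε1, hε1, N1, h1⟩ := small (C * (2 * 32 ^ D * 4 ^ (D + 1)) ^ 24) ((D + 2) * 24) hε'
  obtain ⟨η, hη, N2, h2⟩ := hP ε1 hε1
  obtain ⟨ε0, hε0, N3, h3⟩ := small (2 * 4 ^ (D + 1)) 5 (mul_pos hε1 hη)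
  obtain ⟨N4, h4⟩ := big 1 (lt_min hε0 hε1)
  obtain ⟨N5, h5⟩ := big N2 hε1
  refine ⟨min ε0 ε1, lt_min hε0 hε1, max (max N1 N3) (max N4 N5), fun N hN d hd => ?_⟩
  obtain ⟨hN2, a1⟩ := h1 ε1 hε1 le_rfl N (le_trans (le_max_of_le_left (le_max_left _ _)) hN)
  have a3 := (h3 _ (lt_min hε0 hε1) (min_le_left _ _) N
    (le_trans (le_max_of_le_left (le_max_right _ _)) hN)).2
  obtain ⟨_, a4, a4'⟩ := h4 N (le_trans (le_max_of_le_right (le_max_left _ _)) hN)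
  have a5 := (h5 N (le_trans (le_max_of_le_right (le_max_right _ _)) hN)).2.1
  have hN1 : 1 ≤ N := by linarith
  have hN0 : 0 < N := by linarith
  have a6 : N ^ min ε0 ε1 ≤ N ^ ε1 := Real.rpow_le_rpow_of_exponent_le hN1 (min_le_right _ _)
  rw [Real.rpow_mul hN0.le] at a3
  have a7 : ∀ N' : ℝ, N' ≤ N → 0 ≤ N' → N' ^ ε1 ≤ N ^ ε1 := fun N' b1 b2 =>
    Real.rpow_le_rpow b2 b1 hε1.le
  generalize N ^ min ε0 ε1 = K at hd a3 a4 a4' a6
  generalize N ^ ε1 = Λ at a1 a3 a5 a6 a7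
  have hΛ : 1 ≤ Λ := a4.trans a6
  have hK0 : 0 < K := by linarith
  have hmD : (m : ℝ) ≤ D := by
    have := card_le_univ d.S
    rw [hd.1, Fintype.card_fin] at this
    exact_mod_cast this
  obtain ⟨T, hT⟩ := lab_sc hN1
  have hT' : Sc T N K := hT.mono (by linarith)
  obtain ⟨E1, s1, m1, r1⟩ := lab_r1 (K2 := 4 ^ (D + 1) * K * Λ ^ (D + 1)) hd.2.1.nL_pos hN1 a4
    (by positivity) h0.le (hm.trans hmD) hT' fun α β b1 b2 b3 =>
    heavy_le hd.2.1 hN1 a4 hΛ h0.le (hm.trans hmD) (fun N' c1 c2 c' hc' => by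
      have hN' : 0 < N' := by linarith
      have c3 : 4 ^ (D + 1) * K ^ 2 * (2 * K ^ 3) ≤ N' ^ η := by
        refine le_trans (le_of_eq (by ring)) (a3.trans ?_)
        exact Real.rpow_le_rpow (by linarith) c1 hη.le
      refine le_trans ?_ (h2 N' (a5.trans c1) c' (hc'.mono hN' hN' (by positivity) c3))
      rw [Real.rpow_sub hN' _ ε1]
      exact div_le_div_of_nonneg_left (by positivity) (by positivity) (a7 N' c2 hN'.le)) b1 b2 b3
  have q1 : (1 : ℝ) ≤ 32 ^ D * 4 ^ (D + 1) :=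
    one_le_mul_of_one_le_of_one_le (one_le_pow₀ (by norm_num)) (one_le_pow₀ (by norm_num))
  have q2 : K * Λ ^ (D + 1) ≤ Λ ^ (D + 2) := by
    rw [pow_succ' Λ (D + 1)]
    gcongr
  have q3 : K ≤ K * Λ ^ (D + 1) := le_mul_of_one_le_right hK0.le (one_le_pow₀ hΛ)
  have q4 : Λ ^ (D + 2) ≤ 32 ^ D * 4 ^ (D + 1) * Λ ^ (D + 2) :=
    le_mul_of_one_le_left (by positivity) q1
  have q5 : 2 * K ≤ 2 * 32 ^ D * 4 ^ (D + 1) * Λ ^ (D + 2) := by nlinarith
  have q6 : 32 ^ D * (4 ^ (D + 1) * K * Λ ^ (D + 1)) ≤ 2 * 32 ^ D * 4 ^ (D + 1) * Λ ^ (D + 2) := by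
    have := mul_le_mul_of_nonneg_left q2 (zero_le_one.trans q1)
    nlinarith
  have q7 : K ≤ 2 * 32 ^ D * 4 ^ (D + 1) * Λ ^ (D + 2) := by linarith
  have hnL := hd.2.1.nL_pos
  have m2 : d.c.nL * N / (2 * 32 ^ D * 4 ^ (D + 1) * Λ ^ (D + 2)) ≤ E1.card := by
    refine le_trans ?_ ((div_le_div_of_nonneg_right hd.2.1.mass two_pos.le).trans m1)
    rw [div_div, mul_comm K 2]
    exact div_le_div_of_nonneg_left (by positivity) (by positivity) q5
  obtain ⟨d', hd'⟩ := H (hd.res hN0 hK0 q7 s1 m2) (r1.res hN0 hnL q6 Subset.rfl) (hT'.mono q7) hN1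
    (a4.trans q7) h0 hm
  refine ⟨d', hd'.mono hN0 hN0 (by positivity) (le_trans (le_of_eq ?_) a1)⟩
  rw [mul_pow, pow_mul, ← mul_assoc]

end Vale.Agent.P127
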