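import Vale.Agent.P127.Proj.A

/-! # P127 Proj: projection along the common direction.  See notes/P127.md, part PROJ. -/

namespace Vale.Agent.P127

open Finset
open scoped Classical

/-- at one height and in one cell of `u` there are few cells of the projected position -/
theorem proj_fib {D m : ℕ} {σ N M K : ℝ} {d : Dat (D + 1)} (h : Reg σ m d N M K) (hM : 1 ≤ M)
    (hK : 1 ≤ K) {v : V (D + 1)} {j0 : Fin (D + 1)} (hj : j0 ∉ d.S) (h1 : v j0 = 1)
    (hv : ‖v‖ ≤ K) (hP : ∀ ω ∈ d.c.E, ‖mv (d.P ω.2) v‖ ≤ 1 / M) {z : ℝ} {B : Finset (ℕ × ℝ)}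
    (hB : B ⊆ d.c.E) (hz : ∀ ω ∈ B, ω.2 = z)
    (hu : ∀ ω ∈ B, ∀ ω' ∈ B, ‖d.u ω - d.u ω'‖ ≤ 1 / M) :
    ((B.image fun ω => (ω.2, cell (1 / M) (prj v j0 K (d.c.pos ω)))).card : ℝ) ≤
      (10 * K * M) ^ (D - m) * (2 * (6 + (D + 1 : ℕ) * 2 ^ (D + 1)) + 2) ^ D := by
  have hM0 : 0 < M := by linarith
  have hT : Fintype.card {j : Fin (D + 1) // j ∉ insert j0 d.S} = D - m := by
    rw [Fintype.card_subtype_compl, Fintype.card_fin, Fintype.card_coe, card_insert_of_notMem hj,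
      h.card_S]
    omega
  have hp : ∀ ω ∈ B, ‖d.c.pos ω‖ ≤ 2 := fun ω hω => h.good.toPre.norm_pos (hB hω)
  have hp0 : ∀ ω ∈ B, |d.c.pos ω j0| ≤ 2 := fun ω hω =>
    (norm_le_pi_norm (d.c.pos ω) j0).trans (hp ω hω)
  set w : ℕ × ℝ → V (D + 1) := fun ω => d.c.pos ω - d.c.pos ω j0 • v with hw
  refine proj_mul B (fun ω => cell (1 / M)
    fun j : {j : Fin (D + 1) // j ∉ insert j0 d.S} => w ω j) _ (by positivity) ?_
    fun ω1 h1B F hF hc => ?_
  · refine (cover B (fun ω (j : {j : Fin (D + 1) // j ∉ insert j0 d.S}) => w ω j) 0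
      (ρ := 4 * K) (by positivity) (by positivity) fun ω hω => ?_).trans ?_
    · rw [sub_zero]
      refine (pi_norm_le_iff_of_nonneg (by positivity)).2 fun j =>
        (norm_le_pi_norm (w ω) j).trans ((norm_sub_le _ _).trans ?_)
      rw [norm_smul, Real.norm_eq_abs]
      have := mul_le_mul (hp0 ω hω) hv (norm_nonneg _) zero_le_two
      linarith [hp ω hω]
    · rw [hT]
      have h2 : 2 * (4 * K) / (1 / M) = 8 * (K * M) := by field_simp; norm_num
      have h3 : 1 ≤ K * M := one_le_mul_of_one_le_of_one_le hK hM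
      rw [h2]
      gcongr
      linarith
  · have e1 : (F.image fun ω => (ω.2, cell (1 / M) (prj v j0 K (d.c.pos ω)))) =
        (F.image fun ω => cell (1 / M) (prj v j0 K (d.c.pos ω))).image fun y => (z, y) := by
      rw [image_image]
      exact image_congr fun ω hω => by simp only [Function.comp, hz ω (hF hω)]
    rw [e1]
    refine (Nat.cast_le.2 card_image_le).trans ((cover F (fun ω => prj v j0 K (d.c.pos ω))
      (prj v j0 K (d.c.pos ω1)) (ρ := (6 + (D + 1 : ℕ) * 2 ^ (D + 1)) * (1 / M)) (by positivity)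
      (by positivity) fun ω hω => ?_).trans (le_of_eq ?_))
    · have hω' := hF hω
      have e2 : d.c.pos ω - d.c.pos ω1 - (d.c.pos ω - d.c.pos ω1) j0 • v = w ω - w ω1 := by
        simp only [hw, Pi.sub_apply, sub_smul]
        abel
      rw [← prj_sub]
      refine (prj_le' (by linarith) _).trans ?_
      rw [e2]
      have h2 := cell_close (by positivity) (hc ω hω)
      have h3 := h.gr.norm_le_of z (w ω - w ω1) (b := 1 / M) (by positivity) fun j hjS => by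
        by_cases e : j = j0
        · subst e
          simp only [hw, Pi.sub_apply, Pi.smul_apply, h1, smul_eq_mul, mul_one, sub_self, abs_zero]
          positivity
        · exact (norm_le_pi_norm _ (⟨j, fun hh => (mem_insert.1 hh).elim e hjS⟩ :
            {j : Fin (D + 1) // j ∉ insert j0 d.S})).trans h2
      have e3 : mv (d.P z) (w ω - w ω1) = (d.u ω - d.u ω1) -
          (d.c.pos ω j0 - d.c.pos ω1 j0) • mv (d.P z) v := by
        rw [← e2, mv_sub, mv_sub, mv_smul, Dat.u, Dat.u, hz ω hω', hz ω1 h1B, Pi.sub_apply]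
      have h4 : ‖mv (d.P z) (w ω - w ω1)‖ ≤ 5 * (1 / M) := by
        rw [e3]
        refine (norm_sub_le _ _).trans ?_
        rw [norm_smul, Real.norm_eq_abs]
        have h5 : |d.c.pos ω j0 - d.c.pos ω1 j0| ≤ 4 :=
          (abs_sub _ _).trans (by linarith [hp0 ω hω', hp0 ω1 h1B])
        have h6 := hP ω (hB hω')
        rw [hz ω hω'] at h6
        have h7 := mul_le_mul h5 h6 (norm_nonneg _) (by norm_num)
        linarith [hu ω hω' ω1 h1B]
      linarith
    · rw [Fintype.card_fin, mul_div_assoc, mul_div_cancel_right₀ _ (by positivity)]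

theorem proj_count (D : ℕ) : ∃ C ≥ (1 : ℝ), ∀ {m : ℕ} {σ N M K : ℝ} {d : Dat (D + 1)},
    Reg σ m d N M K → 1 ≤ M → M ≤ N → 1 ≤ K → (d.c.Z.card : ℝ) ≤ M + 2 →
    ∀ {v : V (D + 1)} {j0 : Fin (D + 1)}, j0 ∉ d.S → v j0 = 1 → ‖v‖ ≤ K →
    (∀ ω ∈ d.c.E, ‖mv (d.P ω.2) v‖ ≤ 1 / M) →
    ((d.c.E.image fun ω => (ω.2, cell (1 / M) (prj v j0 K (d.c.pos ω)))).card : ℝ) ≤
      C * K ^ (D + 2) * M ^ ((D : ℝ) + 1 - σ) := by
  obtain ⟨C, hC, h3⟩ := r3A (D + 1)
  obtain ⟨A, hA⟩ : ∃ A : ℝ, A = (D + 1 : ℕ) * 2 ^ (D + 1) * 2 := ⟨_, rfl⟩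
  obtain ⟨B, hB⟩ : ∃ B : ℝ, B = (2 * (6 + (D + 1 : ℕ) * 2 ^ (D + 1)) + 2) ^ D := ⟨_, rfl⟩
  have hA1 : 1 ≤ A := by
    have h1 : (1 : ℝ) ≤ (D + 1 : ℕ) := by exact_mod_cast Nat.succ_le_succ (Nat.zero_le D)
    have h2 : (1 : ℝ) ≤ 2 ^ (D + 1) := one_le_pow₀ one_le_two
    have := one_le_mul_of_one_le_of_one_le h1 h2
    linarith
  have hB1 : 1 ≤ B := by
    rw [hB]
    refine one_le_pow₀ ?_
    have : (0 : ℝ) ≤ (D + 1 : ℕ) * 2 ^ (D + 1) := by positivity
    linarith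
  have hC1 : 1 ≤ 3 * C * A ^ (D + 1) * 10 ^ D * B := by
    have h1 : (1 : ℝ) ≤ 3 * C := by linarith
    exact one_le_mul_of_one_le_of_one_le (one_le_mul_of_one_le_of_one_le
      (one_le_mul_of_one_le_of_one_le h1 (one_le_pow₀ hA1)) (one_le_pow₀ (by norm_num))) hB1
  refine ⟨3 * C * A ^ (D + 1) * 10 ^ D * B, hC1, ?_⟩
  intro m σ N M K d h hM hN hK hZ v j0 hj h1 hv hP
  have hM0 : 0 < M := by linarith
  have hm : m ≤ D := by
    have h4 := card_le_univ (insert j0 d.S)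
    rw [card_insert_of_notMem hj, h.card_S, Fintype.card_fin] at h4
    omega
  have key := proj_mul d.c.E (fun ω => ω.2)
    (fun ω => (ω.2, cell (1 / M) (prj v j0 K (d.c.pos ω)))) (R := 3 * M)
    (M := (C * A ^ (D + 1) * K * M ^ ((m : ℝ) - σ)) * ((10 * K * M) ^ (D - m) * B))
    (by positivity) ?_ ?_
  · refine key.trans ?_
    have e1 : M ^ ((D : ℝ) + 1 - σ) = M * M ^ ((m : ℝ) - σ) * M ^ (D - m) := by
      rw [← Real.rpow_natCast, ← Real.rpow_one_add' hM0.le, ← Real.rpow_add hM0, Nat.cast_sub hm]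
      · congr 1
        ring
      · have := h.sigm
        linarith
    have h4 : (10 * K) ^ (D - m) ≤ 10 ^ D * K ^ (D + 1) := by
      calc (10 * K) ^ (D - m) ≤ (10 * K) ^ D := pow_le_pow_right₀ (by linarith) (Nat.sub_le _ _)
        _ = 10 ^ D * K ^ D := mul_pow _ _ _
        _ ≤ _ := by gcongr; omega
    rw [e1, mul_pow (10 * K)]
    calc 3 * M * (C * A ^ (D + 1) * K * M ^ ((m : ℝ) - σ) * ((10 * K) ^ (D - m) * M ^ (D - m) * B))
        ≤ 3 * M * (C * A ^ (D + 1) * K * M ^ ((m : ℝ) - σ) *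
          (10 ^ D * K ^ (D + 1) * M ^ (D - m) * B)) := by gcongr
      _ = _ := by ring
  · refine le_trans (Nat.cast_le.2 (card_le_card fun z hz => ?_)) (hZ.trans (by linarith))
    obtain ⟨ω, hω, rfl⟩ := mem_image.1 hz
    exact (mem_product.1 (h.good.sub hω)).2
  · intro ω0 _ F hF hz
    refine proj_mul F (fun ω => cell (1 / M) (d.u ω)) _ (by positivity) ?_ fun ω1 _ F1 hF1 hc => ?_
    · have h4 := h3 h (hM.trans hN) A ω0.2 1 (1 / M) 0 hA1 (one_div_le_one_div_of_le hM0 hN)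
        ((div_le_one hM0).2 hM) le_rfl
      rw [one_div_one_div] at h4
      refine le_trans (Nat.cast_le.2 (card_le_card (image_subset_image fun ω hω => ?_))) h4
      refine mem_filter.2 ⟨hF hω, hz ω hω, ?_⟩
      rw [sub_zero, mul_one, hA]
      refine (norm_mv _ _).trans ?_
      have h5 := h.gr.norm_le ω.2
      have h6 := h.good.toPre.norm_pos (hF hω)
      gcongr
    · rw [hB]
      exact proj_fib h hM hK hj h1 hv hP (hF1.trans hF) (fun ω hω => hz ω (hF1 hω))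
        fun ω hω ω' hω' => cell_close (by positivity) ((hc ω hω).trans (hc ω' hω').symm)

theorem proj {D m : ℕ} {σ a : ℝ} (hP : PK D 0) (h0 : 0 < σ) (ha : 0 < a) (ha1 : a ≤ 1 / 100) :
    ¬ Inh (D := D + 1) (S6 a σ m) := by
  intro hI
  obtain ⟨η, hη, N1, hP⟩ := hP (σ / 2) (half_pos h0)
  obtain ⟨C, hC, hcount⟩ := proj_count D
  have hb : 0 < min η (σ / 4) := lt_min hη (by positivity)
  obtain ⟨ε, hε, N2, hs⟩ := small ((C + 56 ^ (D + 1)) * 4 ^ (D + 2)) (2 * (D + 2))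
    (b := a / 10 * min η (σ / 4)) (by positivity)
  obtain ⟨N3, hN3⟩ := big N1 (ε := a / 10) (by positivity)
  obtain ⟨N, hN, d, hR, v, j0, hj, h1, hv, hPv⟩ := hI ε hε (max N2 N3)
  obtain ⟨hN2, hs⟩ := hs ε hε le_rfl N ((le_max_left _ _).trans hN)
  have hN1 : N1 ≤ N ^ (a / 10) := (hN3 N ((le_max_right _ _).trans hN)).2.1
  have hN0 : 0 < N := by linarith
  have hN' : 1 ≤ N := by linarith
  have hK : 1 ≤ N ^ ε := Real.one_le_rpow hN' hε.le
  have hM1 : 1 < N ^ (a / 10) := Real.one_lt_rpow (by linarith) (by positivity)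
  have hMH : N ^ (a / 10) ≤ N ^ (1 / 3 : ℝ) := Real.rpow_le_rpow_of_exponent_le hN' (by linarith)
  have hMN : N ^ (a / 10) ≤ N := by
    have := Real.rpow_le_rpow_of_exponent_le hN' (by linarith : a / 10 ≤ 1)
    rwa [Real.rpow_one] at this
  have hv' : N ^ (-(a / 8)) ≤ 1 / N ^ (a / 10) := by
    rw [one_div, ← Real.rpow_neg hN0.le]
    exact Real.rpow_le_rpow_of_exponent_le hN' (by linarith)
  rw [Real.rpow_mul hN0.le] at hs
  obtain ⟨Z', E', hE', hZ', hR'⟩ := thin hR hN' hK hM1.le hMH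
  generalize N ^ (a / 10) = M at *
  generalize N ^ ε = K at *
  have hM0 : 0 < M := by linarith
  have hK1 : K ≤ 4 * K ^ 2 := by nlinarith
  have e1 : (C + 56 ^ (D + 1)) * 4 ^ (D + 2) * K ^ (2 * (D + 2)) =
      C * (4 * K ^ 2) ^ (D + 2) + 56 ^ (D + 1) * (4 * K ^ 2) ^ (D + 2) := by
    rw [mul_pow, ← pow_mul]
    ring
  rw [e1] at hs
  have p1 : 0 < C * (4 * K ^ 2) ^ (D + 2) := by positivity
  have p2 : 0 < 56 ^ (D + 1) * (4 * K ^ 2) ^ (D + 2) := by positivity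
  have hc := hcount hR' hM1.le hMN (hK.trans hK1) hZ' hj h1 (hv.trans hK1)
    fun ω hω => (hPv ω (hE' hω)).trans hv'
  obtain ⟨t, F, hF, hG⟩ := prC_good hR'.good (hv.trans hK1) (hK.trans hK1) hM1.le hMN j0
  have q1 : M ^ min η (σ / 4) ≤ M ^ η := Real.rpow_le_rpow_of_exponent_le hM1.le (min_le_left _ _)
  have q2 : M ^ min η (σ / 4) ≤ M ^ (σ / 4) :=
    Real.rpow_le_rpow_of_exponent_le hM1.le (min_le_right _ _)
  have h2 := hP M hN1 _ (hG.mono hM0 hM0 p2 (by linarith))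
  simp only [prC_pos] at h2
  have h3 := h2.trans ((Nat.cast_le.2 (card_le_card (image_subset_image hF))).trans hc)
  have h4 : C * (4 * K ^ 2) ^ (D + 2) * M ^ ((D : ℝ) + 1 - σ) ≤
      M ^ (σ / 4) * M ^ ((D : ℝ) + 1 - σ) :=
    mul_le_mul_of_nonneg_right (by linarith) (by positivity)
  rw [← Real.rpow_add hM0] at h4
  have h5 := (Real.rpow_le_rpow_left_iff hM1).1 (h3.trans h4)
  linarith

end Vale.Agent.P127
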