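import Vale.Agent.P127.Api2

/-! # P127 Zoom: rescaling a tube, thinning the heights, local stickiness.
zoom: lines of E' lie in at most (4/alpha)^D * K tubes (cell alpha x, cell alpha e) (cover for e, st for x); take the heaviest tube, xc, ec = corners of its cells; in every
interval cz (1/N') keep the height carrying the most mass (an interval has at most K H / N' heights by hts); nL' = nL alpha^D, L' = lines of L in the tube, Z' = kept heights.
thin: the same choice of heights only. loc: pop with the maps (cell rho x, cell rho e), rho = 2^(-j) at least 1/N, L' = lines that still carry mass; a cap of radius r has mass at most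
K (3r)^D nL * K H, every surviving cell of side rho in [r, 2r) has mass at least nL H rho^D / (4 J K^2); a rho-cell meets at most 6^D cells of side r. -/

namespace Vale.Agent.P127

open Finset
open scoped Classical

variable {D : ℕ}

theorem iml_Zoom {Ω β γ : Type} [i1 : DecidableEq β] [i2 : DecidableEq γ] (E : Finset Ω) (f : Ω → β)
    (g : Ω → γ) {M : ℝ} (h : ∀ ω ∈ E, (((E.filter fun ω' => f ω' = f ω).image g).card : ℝ) ≤ M) :
    ((E.image g).card : ℝ) ≤ (E.image f).card * M := by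
  obtain rfl : i1 = fun a b => Classical.propDecidable (a = b) := Subsingleton.elim _ _
  obtain rfl : i2 = fun a b => Classical.propDecidable (a = b) := Subsingleton.elim _ _
  exact image_le_mul E f g h

theorem fib_Zoom {Ω β : Type} [i1 : DecidableEq β] (E E0 T : Finset Ω) (f : Ω → β) {M : ℝ}
    (h : ∀ ω ∈ E, M ≤ ((E0.filter fun ω' => f ω' = f ω).card : ℝ))
    (hT : ∀ ω' ∈ E0, ∀ ω ∈ E, f ω = f ω' → ω' ∈ T) : ((E.image f).card : ℝ) * M ≤ T.card := by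
  obtain rfl : i1 = fun a b => Classical.propDecidable (a = b) := Subsingleton.elim _ _
  refine (fib_le_card E E0 f h).trans (Nat.cast_le.2 (card_le_card fun x hx => ?_))
  simp only [mem_filter, mem_image] at hx
  obtain ⟨h1, ω, h2, h3⟩ := hx
  exact hT x h1 ω h2 h3

theorem pop_Zoom {Ω ι β : Type} [i1 : DecidableEq β] (E : Finset Ω) (I : Finset ι) (f : ι → Ω → β)
    (R : ι → ℝ) (hR : ∀ i ∈ I, ((E.image (f i)).card : ℝ) ≤ R i) :
    ∃ E' ⊆ E, (E.card : ℝ) / 2 ≤ E'.card ∧ ∀ i ∈ I, ∀ ω ∈ E',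
      (E.card : ℝ) / (2 * I.card * R i) ≤ ((E'.filter fun ω' => f i ω' = f i ω).card : ℝ) := by
  obtain rfl : i1 = fun a b => Classical.propDecidable (a = b) := Subsingleton.elim _ _
  exact pop E I f R hR

theorem big_Zoom {Ω β : Type} [i1 : DecidableEq β] (E : Finset Ω) (f : Ω → β) :
    ∃ F ⊆ E, (E.card : ℝ) ≤ (E.image f).card * F.card ∧ ∀ ω ∈ F, ∀ ω' ∈ F, f ω = f ω' := by
  obtain rfl : i1 = fun a b => Classical.propDecidable (a = b) := Subsingleton.elim _ _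
  exact big_comb E f

theorem best_Zoom {Ω κ β : Type} [i1 : DecidableEq κ] [i2 : DecidableEq β] (E : Finset Ω)
    (k : Ω → κ) (t : Ω → β) {R : ℝ} (hR : 0 < R)
    (h : ∀ ω ∈ E, (((E.filter fun ω' => k ω' = k ω).image t).card : ℝ) ≤ R) :
    ∃ E' ⊆ E, (E.card : ℝ) / R ≤ E'.card ∧ ∀ ω ∈ E', ∀ ω' ∈ E', k ω = k ω' → t ω = t ω' := by
  obtain rfl : i1 = fun a b => Classical.propDecidable (a = b) := Subsingleton.elim _ _
  obtain rfl : i2 = fun a b => Classical.propDecidable (a = b) := Subsingleton.elim _ _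
  exact best E k t hR h

theorem cov_Zoom {Ω : Type} (E : Finset Ω) (a : Ω → V D) (q : V D) {β ρ : ℝ}
    (hβ : 0 < β) (hρ : 0 ≤ ρ) (h : ∀ ω ∈ E, ‖a ω - q‖ ≤ ρ) :
    ((E.image fun ω => cell β (a ω)).card : ℝ) ≤ (2 * ρ / β + 2) ^ D := by
  simpa only [Fintype.card_fin] using cover E a q hβ hρ h

/-- One height in every interval of length `1 / N'`. -/
theorem hgt_Zoom {c : Cfg D} {N H K N' : ℝ} (h : Pre c N H K) {E1 : Finset (ℕ × ℝ)}
    (hE : E1 ⊆ c.E) (hK : 1 ≤ K) (hN' : 1 ≤ N') (hH : N' ≤ H) :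
    ∃ E2 ⊆ E1, ∃ Z' ⊆ c.Z, (∀ ω ∈ E2, ω.2 ∈ Z') ∧ E1.card * N' / (K * H) ≤ E2.card ∧
      (Z'.card : ℝ) ≤ N' + 2 ∧
      ∀ a r : ℝ, 1 / N' ≤ r → ((Z'.filter fun z => |z - a| ≤ r).card : ℝ) ≤ 4 * r * N' := by
  have h0 : 0 < N' := by linarith
  have h1 : 0 < 1 / N' := by positivity
  have hH0 : 0 < H := by linarith
  obtain ⟨E2, h2, h3, h4⟩ := best_Zoom E1 (fun ω => cz (1 / N') ω.2) Prod.snd
    (R := K * (1 / N') * H) (by positivity) fun ω _ =>
      le_trans (Nat.cast_le.2 (card_le_card fun z hz => by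
        obtain ⟨ω', h5, rfl⟩ := mem_image.1 hz
        obtain ⟨h6, h7⟩ := mem_filter.1 h5
        exact mem_filter.2 ⟨(mem_product.1 (h.sub (hE h6))).2, cz_close h1 h7⟩))
        (h.hts ω.2 (1 / N') (one_div_le_one_div_of_le h0 hH))
  have hZ : E2.image Prod.snd ⊆ c.Z := fun z hz => by
    obtain ⟨ω, h5, rfl⟩ := mem_image.1 hz
    exact (mem_product.1 (h.sub (hE (h2 h5)))).2
  have key : ∀ a r : ℝ, 0 ≤ r →
      (((E2.image Prod.snd).filter fun z => |z - a| ≤ r).card : ℝ) ≤ 2 * r * N' + 2 := by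
    intro a r hr
    have h5 := cover_z ((E2.image Prod.snd).filter fun z => |z - a| ≤ r) id a h1 hr
      fun z hz => (mem_filter.1 hz).2
    rw [card_image_of_injOn, div_div_eq_mul_div, div_one] at h5
    · exact h5
    · intro z hz z' hz' e
      obtain ⟨ω, h6, rfl⟩ := mem_image.1 (mem_filter.1 hz).1
      obtain ⟨ω', h7, rfl⟩ := mem_image.1 (mem_filter.1 hz').1
      exact h4 ω h6 ω' h7 e
  refine ⟨E2, h2, _, hZ, fun ω hω => mem_image_of_mem _ hω, le_trans (le_of_eq ?_) h3, ?_,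
    fun a r hr => (key a r (h1.le.trans hr)).trans ?_⟩
  · field_simp
  · have h5 := key (1 / 2) (1 / 2) (by norm_num)
    rw [filter_true_of_mem fun z hz => abs_le.2
      ⟨by linarith [(h.bz z (hZ hz)).1], by linarith [(h.bz z (hZ hz)).2]⟩] at h5
    linarith
  · rw [div_le_iff₀ h0] at hr
    linarith

theorem scale_Zoom {α : ℝ} (hα : 0 < α) (v w p : V D) (r : ℝ) :
    ‖α⁻¹ • (v - w) - p‖ ≤ r ↔ ‖v - (w + α • p)‖ ≤ α * r := by
  rw [show α⁻¹ • (v - w) - p = α⁻¹ • (v - (w + α • p)) by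
    rw [sub_add_eq_sub_sub, smul_sub α⁻¹ (v - w), inv_smul_smul₀ hα.ne'],
    norm_smul, norm_inv, Real.norm_of_nonneg hα.le, inv_mul_le_iff₀ hα]

theorem zoom {c : Cfg D} {N H K K' α N' : ℝ} (h : Good c N H K) {E' : Finset (ℕ × ℝ)}
    (hE : E' ⊆ c.E) (hm : c.nL * H / K' ≤ E'.card) (hN : 1 ≤ N) (hK : 1 ≤ K) (hK' : 1 ≤ K')
    (hα : 0 < α) (hα1 : α ≤ 1) (hN' : 1 ≤ N') (hH : N' ≤ H) (hr : 1 / N ≤ α / N') :
    ∃ (xc ec : V D) (c' : Cfg D), c'.E ⊆ E' ∧ c'.L ⊆ c.L ∧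
      (∀ i ∈ c'.L, cell α (c.x i) = cell α xc ∧ cell α (c.e i) = cell α ec ∧
        ‖c.x i - xc‖ ≤ α ∧ ‖c.e i - ec‖ ≤ α) ∧
      (c'.x = fun i => α⁻¹ • (c.x i - xc)) ∧ (c'.e = fun i => α⁻¹ • (c.e i - ec)) ∧
      (c'.Z.card : ℝ) ≤ N' + 2 ∧ Good c' N' N' (4 ^ (D + 1) * K ^ 2 * K') := by
  have hN0 : 0 < N := by linarith
  have hN'0 : 0 < N' := by linarith
  have hH0 : 0 < H := by linarith
  have hnL := h.nL_pos
  have hL : ∀ ω ∈ E', ω.1 ∈ c.L := fun ω hω => (mem_product.1 (h.sub (hE hω))).1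
  have hsc : ∀ r, 1 / N' ≤ r → 1 / N ≤ α * r := fun r h1 => hr.trans (by
    rw [div_eq_mul_one_div]
    exact mul_le_mul_of_nonneg_left h1 hα.le)
  have hT : ((E'.image fun ω => (cell α (c.x ω.1), cell α (c.e ω.1))).card : ℝ) ≤
      (4 / α) ^ D * K := by
    refine (iml_Zoom E' (fun ω => cell α (c.e ω.1)) _ (M := K) fun ω _ => ?_).trans
      (mul_le_mul_of_nonneg_right ((cov_Zoom E' (fun ω => c.e ω.1) 0 hα zero_le_one
        fun ω hω => by simpa using h.be _ (hL ω hω)).trans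
        (pow_le_pow_left₀ (by positivity) ?_ D)) (by linarith))
    · refine le_trans (Nat.cast_le.2 (card_le_card_of_injOn Prod.fst (fun y hy => ?_)
        fun y hy y' hy' e => ?_)) (h.st (c.e ω.1) α
          (by simpa using hsc 1 ((div_le_one hN'0).2 hN')) hα1)
      · obtain ⟨ω', h1, rfl⟩ := mem_image.1 hy
        obtain ⟨h2, h3⟩ := mem_filter.1 h1
        exact mem_image.2 ⟨ω'.1, mem_filter.2 ⟨hL _ h2, cell_close hα h3⟩, rfl⟩
      · obtain ⟨ω1, h1, rfl⟩ := mem_image.1 hy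
        obtain ⟨ω2, h2, rfl⟩ := mem_image.1 hy'
        exact Prod.ext e ((mem_filter.1 h1).2.trans (mem_filter.1 h2).2.symm)
    · rw [div_add' _ _ _ hα.ne']
      exact div_le_div_of_nonneg_right (by linarith) hα.le
  obtain ⟨F, hF, h1, h2⟩ := big_Zoom E' fun ω => (cell α (c.x ω.1), cell α (c.e ω.1))
  have h3 : c.nL * H / K' ≤ (4 / α) ^ D * K * F.card :=
    hm.trans (h1.trans (mul_le_mul_of_nonneg_right hT (Nat.cast_nonneg _)))
  obtain ⟨ω0, h0⟩ : F.Nonempty := by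
    rw [nonempty_iff_ne_empty]
    rintro rfl
    rw [card_empty, Nat.cast_zero, mul_zero] at h3
    exact absurd h3 (not_le.2 (by positivity))
  obtain ⟨E2, h4, Z', h5, h6, h7, h8, h9⟩ := hgt_Zoom h.toPre (hF.trans hE) hK hN' hH
  have hc : ∀ i ∈ c.L.filter fun i => cell α (c.x i) = cell α (c.x ω0.1) ∧
      cell α (c.e i) = cell α (c.e ω0.1), ‖c.x i - c.x ω0.1‖ ≤ α ∧ ‖c.e i - c.e ω0.1‖ ≤ α :=
    fun i hi => ⟨cell_close hα (mem_filter.1 hi).2.1, cell_close hα (mem_filter.1 hi).2.2⟩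
  have hn : ∀ v : V D, ‖v‖ ≤ α → ‖α⁻¹ • v‖ ≤ 1 := fun v hv => by
    rwa [norm_smul, norm_inv, Real.norm_of_nonneg hα.le, inv_mul_le_iff₀ hα, mul_one]
  have k1 : (1 : ℝ) ≤ 4 ^ D := one_le_pow₀ (by norm_num)
  have k2 : 1 ≤ K * K' := one_le_mul_of_one_le_of_one_le hK hK'
  have k3 : 4 ^ D * K ≤ 4 ^ (D + 1) * K ^ 2 * K' := by
    have := mul_le_mul_of_nonneg_left k2 (show 0 ≤ 4 ^ D * K by positivity)
    rw [pow_succ]
    nlinarith
  have k4 : K ≤ 4 ^ D * K := le_mul_of_one_le_left (by linarith) k1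
  have k5 : 4 ≤ 4 ^ (D + 1) * K ^ 2 * K' := by
    have := one_le_mul_of_one_le_of_one_le (hK.trans k4) k2
    rw [pow_succ]
    nlinarith
  refine ⟨c.x ω0.1, c.e ω0.1, ⟨c.L.filter fun i => cell α (c.x i) = cell α (c.x ω0.1) ∧
      cell α (c.e i) = cell α (c.e ω0.1), fun i => α⁻¹ • (c.x i - c.x ω0.1),
      fun i => α⁻¹ • (c.e i - c.e ω0.1), Z', E2, c.nL * α ^ D⟩, h4.trans hF, filter_subset _ _,
    fun i hi => ⟨(mem_filter.1 hi).2.1, (mem_filter.1 hi).2.2, hc i hi⟩, rfl, rfl, h8,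
    ⟨fun ω hω => mem_product.2 ⟨mem_filter.2 ⟨hL _ (hF (h4 hω)),
      Prod.ext_iff.1 (h2 ω (h4 hω) ω0 h0)⟩, h6 ω hω⟩, by positivity,
      fun i hi => hn _ (hc i hi).1, fun i hi => hn _ (hc i hi).2, fun z hz => h.bz z (h5 hz),
      fun a r h10 => (h9 a r h10).trans ?_, fun p r h10 => ?_, le_trans ?_ h7⟩,
    fun p r h10 h11 => ?_⟩
  · have : 0 < r := lt_of_lt_of_le (by positivity) h10
    gcongr
  · have : 0 < r := lt_of_lt_of_le (by positivity) h10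
    refine le_trans (Nat.cast_le.2 (card_le_card fun i hi => ?_))
      ((h.dirs (c.e ω0.1 + α • p) (α * r) (hsc r h10)).trans ?_)
    · obtain ⟨h12, h13⟩ := mem_filter.1 hi
      exact mem_filter.2 ⟨(mem_filter.1 h12).1, (scale_Zoom hα _ _ _ _).1 h13⟩
    · show _ ≤ 4 ^ (D + 1) * K ^ 2 * K' * r ^ D * (c.nL * α ^ D)
      calc K * (α * r) ^ D * c.nL = K * r ^ D * (c.nL * α ^ D) := by rw [mul_pow]; ring
        _ ≤ _ := by gcongr; exact k4.trans k3
  · show c.nL * α ^ D * N' / (4 ^ (D + 1) * K ^ 2 * K') ≤ _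
    have h10 : c.nL * H / K' / ((4 / α) ^ D * K) ≤ F.card := by
      rwa [div_le_iff₀' (by positivity)]
    calc c.nL * α ^ D * N' / (4 ^ (D + 1) * K ^ 2 * K')
        ≤ c.nL * α ^ D * N' / (4 ^ D * K ^ 2 * K') := by gcongr <;> norm_num
      _ = c.nL * H / K' / ((4 / α) ^ D * K) * N' / (K * H) := by
        rw [div_pow]
        field_simp
      _ ≤ _ := by gcongr
  · have h12 : 0 < r := lt_of_lt_of_le (by positivity) h10
    refine (iml_Zoom _ (fun i => cell (α * r) (c.x i)) _ (M := 4 ^ D) fun i _ => ?_).trans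
      (le_trans ?_ k3)
    · refine (cov_Zoom _ (fun i => α⁻¹ • (c.x i - c.x ω0.1)) (α⁻¹ • (c.x i - c.x ω0.1)) h12 h12.le
        fun i' hi' => ?_).trans (le_of_eq ?_)
      · rw [scale_Zoom hα, smul_inv_smul₀ hα.ne', add_sub_cancel]
        exact cell_close (mul_pos hα h12) (mem_filter.1 hi').2
      · rw [mul_div_assoc, div_self h12.ne']
        norm_num
    · rw [mul_comm]
      refine mul_le_mul_of_nonneg_left (le_trans (Nat.cast_le.2 (card_le_card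
        (image_subset_image fun i hi => ?_))) (h.st (c.e ω0.1 + α • p) (α * r) (hsc r h10)
          (mul_le_one₀ hα1 h12.le h11))) (by positivity)
      obtain ⟨h13, h14⟩ := mem_filter.1 hi
      exact mem_filter.2 ⟨(mem_filter.1 h13).1, (scale_Zoom hα _ _ _ _).1 h14⟩

theorem thin {σ : ℝ} {m : ℕ} {d : Dat D} {N H H' K : ℝ} (h : Reg σ m d N H K) (hN : 1 ≤ N)
    (hK : 1 ≤ K) (hH' : 1 ≤ H') (hH : H' ≤ H) :
    ∃ (Z' : Finset ℝ) (E' : Finset (ℕ × ℝ)), E' ⊆ d.c.E ∧ (Z'.card : ℝ) ≤ H' + 2 ∧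
      Reg σ m { d with c := { d.c with Z := Z', E := E' } } N H' (4 * K ^ 2) := by
  obtain ⟨E', hE, Z', h5, h6, h7, h8, h9⟩ := hgt_Zoom h.good.toPre Subset.rfl hK hH' hH
  have hN0 : 0 < N := by linarith
  have hH0 : 0 < H := by linarith
  have hH1 : 0 < H' := by linarith
  have hnL := h.good.nL_pos
  have k1 : K ≤ 4 * K ^ 2 := by nlinarith
  have k2 : 4 ≤ 4 * K ^ 2 := by nlinarith
  have g := h.good.mono hN0 hH0 (by linarith) k1
  have h' := h.mono hN0 hH0 (by linarith) k1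
  refine ⟨Z', E', hE, h8, h.card_S, ⟨⟨fun ω hω => mem_product.2
    ⟨(mem_product.1 (g.sub (hE hω))).1, h6 ω hω⟩, hnL, g.bx, g.be, fun z hz => g.bz z (h5 hz),
    fun a r hr => (h9 a r hr).trans ?_, g.dirs, le_trans ?_ h7⟩, g.st⟩, h.gr, h.sig0, h.sigm,
    fun z α β p q h1 h2 h3 => le_trans ?_ (h'.r1 z α β p q h1 h2 h3),
    fun z α β p q h1 h2 h3 => le_trans ?_ (h'.r2 z α β p q h1 h2 h3),
    fun z α β q h1 h2 h3 => le_trans ?_ (h'.r3 z α β q h1 h2 h3)⟩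
  · have : 0 < r := lt_of_lt_of_le (by positivity) hr
    gcongr
  · show d.c.nL * H' / (4 * K ^ 2) ≤ _
    calc d.c.nL * H' / (4 * K ^ 2) ≤ d.c.nL * H' / K ^ 2 := by gcongr; nlinarith
      _ = d.c.nL * H / K * H' / (K * H) := by field_simp
      _ ≤ _ := by gcongr; exact h.good.mass
  · exact Nat.cast_le.2 (card_le_card (monotone_filter_right _ fun i _ hi => ⟨hE hi.1, hi.2⟩))
  · exact Nat.cast_le.2 (card_le_card (image_subset_image (filter_subset_filter _ hE)))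
  · exact Nat.cast_le.2 (card_le_card (image_subset_image (filter_subset_filter _ hE)))

theorem st_Zoom {c : Cfg D} {N H K J r ρ : ℝ} (h : Pre c N H K) (hH : 1 ≤ H) (hK0 : 0 < K)
    {E' : Finset (ℕ × ℝ)} (hE : E' ⊆ c.E) (hr : 1 / N ≤ r) (r0 : 0 < r) (ρ1 : r ≤ ρ)
    (ρ2 : ρ ≤ 2 * r) (hJ : 0 < J)
    (h3 : ∀ ω ∈ E', (c.E.card : ℝ) / (2 * J * (K / ρ ^ D)) ≤ ((E'.filter fun ω' =>
      (cell ρ (c.x ω'.1), cell ρ (c.e ω'.1)) = (cell ρ (c.x ω.1), cell ρ (c.e ω.1))).card : ℝ))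
    (p : V D) :
    ((((E'.image Prod.fst).filter fun i => ‖c.e i - p‖ ≤ r).image fun i => cell r (c.x i)).card : ℝ)
      ≤ 2 * 18 ^ D * K ^ 4 * J := by
  have hH0 : 0 < H := by linarith
  have hnL := h.nL_pos
  have hL : ∀ ω ∈ c.E, ω.1 ∈ c.L := fun ω hω => (mem_product.1 (h.sub hω)).1
  have ρ0 : 0 < ρ := r0.trans_le ρ1
  have h4 := fib_Zoom (E'.filter fun ω => ‖c.e ω.1 - p‖ ≤ r) E'
    ((c.L.filter fun i => ‖c.e i - p‖ ≤ 3 * r) ×ˢ c.Z)
    (fun ω => (cell ρ (c.x ω.1), cell ρ (c.e ω.1))) (fun ω hω => h3 ω (mem_filter.1 hω).1)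
    fun ω a1 ω' a3 a4 => mem_product.2 ⟨mem_filter.2 ⟨hL _ (hE a1),
      (norm_sub_le_norm_sub_add_norm_sub (c.e ω.1) (c.e ω'.1) p).trans ((add_le_add
        ((cell_close ρ0 (congrArg Prod.snd a4).symm).trans ρ2) (mem_filter.1 a3).2).trans
          (le_of_eq (by ring)))⟩, (mem_product.1 (h.sub (hE a1))).2⟩
  have h5 : (((c.L.filter fun i => ‖c.e i - p‖ ≤ 3 * r) ×ˢ c.Z).card : ℝ) ≤
      K * (3 * r) ^ D * c.nL * (K * H) := by
    rw [card_product, Nat.cast_mul]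
    exact mul_le_mul (h.dirs p (3 * r) (hr.trans (le_mul_of_one_le_left r0.le (by norm_num))))
      (h.cardZ hH) (Nat.cast_nonneg _) (by positivity)
  have h6 : c.nL * H / K / (2 * J * (K / ρ ^ D)) ≤
      c.E.card / (2 * J * (K / ρ ^ D)) := by
    gcongr
    exact h.mass
  have h7 := ((mul_le_mul_of_nonneg_left h6 (Nat.cast_nonneg _)).trans h4).trans h5
  rw [← le_div_iff₀ (by positivity)] at h7
  have h8 : K * (3 * r) ^ D * c.nL * (K * H) /
      (c.nL * H / K / (2 * J * (K / ρ ^ D))) ≤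
      2 * 3 ^ D * K ^ 4 * J := by
    calc _ ≤ K * (3 * ρ) ^ D * c.nL * (K * H) /
          (c.nL * H / K / (2 * J * (K / ρ ^ D))) := by gcongr
      _ = 2 * 3 ^ D * K ^ 4 * J := by
        rw [mul_pow]
        field_simp
  have e6 : 2 * (2 * r) / r + 2 = 6 := by
    field_simp
    norm_num
  have h9 := iml_Zoom (E'.filter fun ω => ‖c.e ω.1 - p‖ ≤ r)
    (fun ω => (cell ρ (c.x ω.1), cell ρ (c.e ω.1))) (fun ω => cell r (c.x ω.1)) (M := 6 ^ D)
    fun ω _ => by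
      rw [← e6]
      refine cov_Zoom _ (fun ω : ℕ × ℝ => c.x ω.1) (c.x ω.1) r0 (by positivity) fun ω' hω' => ?_
      exact (cell_close ρ0 (Prod.ext_iff.1 (mem_filter.1 hω').2).1).trans ρ2
  refine le_trans (Nat.cast_le.2 (card_le_card fun y hy => ?_)) (h9.trans
    ((mul_le_mul_of_nonneg_right (h7.trans h8) (by positivity)).trans (le_of_eq ?_)))
  · obtain ⟨i, hi, rfl⟩ := mem_image.1 hy
    obtain ⟨a1, a2⟩ := mem_filter.1 hi
    obtain ⟨ω, hω, rfl⟩ := mem_image.1 a1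
    exact mem_image.2 ⟨ω, mem_filter.2 ⟨hω, a2⟩, rfl⟩
  · rw [show (18 : ℝ) = 3 * 6 by norm_num, mul_pow]
    ring

theorem loc (D : ℕ) : ∃ C ≥ (1 : ℝ), ∀ {c : Cfg D} {N H K : ℝ}, Pre c N H K → 1 ≤ N → 1 ≤ H →
    1 ≤ K → (∀ r : ℝ, 1 / N ≤ r → r ≤ 1 →
      ((c.L.image fun i => (cell r (c.x i), cell r (c.e i))).card : ℝ) ≤ K / r ^ D) →
    ∃ (L' : Finset ℕ) (E' : Finset (ℕ × ℝ)), E' ⊆ c.E ∧
      Good { c with L := L', E := E' } N H (C * K ^ 4 * (Real.logb 2 N + 2)) := by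
  have k0 : (1 : ℝ) ≤ 18 ^ D := one_le_pow₀ (by norm_num)
  refine ⟨2 * 18 ^ D, by linarith, fun {c N H K} h hN hH hK hc => ?_⟩
  have hN0 : 0 < N := by linarith
  have hH0 : 0 < H := by linarith
  have hK0 : 0 < K := by linarith
  have hnL := h.nL_pos
  obtain ⟨n, n1, n2⟩ := exists_nat_pow_near hN one_lt_two
  have n3 : (n : ℝ) ≤ Real.logb 2 N :=
    (Real.le_logb_iff_rpow_le one_lt_two hN0).2 (by rwa [Real.rpow_natCast])
  have n4 : (0 : ℝ) ≤ n := Nat.cast_nonneg n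
  have hL : ∀ ω ∈ c.E, ω.1 ∈ c.L := fun ω hω => (mem_product.1 (h.sub hω)).1
  obtain ⟨E', hE, h1, h2⟩ := pop_Zoom c.E (range (n + 1))
    (fun j ω => (cell (1 / 2 ^ j) (c.x ω.1), cell (1 / 2 ^ j) (c.e ω.1)))
    (fun j => K / (1 / 2 ^ j) ^ D) fun j hj =>
      le_trans (Nat.cast_le.2 (card_le_card fun y hy => by
        obtain ⟨ω, hω, rfl⟩ := mem_image.1 hy
        exact mem_image.2 ⟨ω.1, hL ω hω, rfl⟩))
      (hc _ (one_div_le_one_div_of_le (by positivity) ((pow_le_pow_right₀ one_le_two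
        (Nat.lt_succ_iff.1 (mem_range.1 hj))).trans n1))
        ((div_le_one (by positivity)).2 (one_le_pow₀ one_le_two)))
  have k1 : K ≤ K ^ 4 := le_self_pow₀ hK (by norm_num)
  have k2 : 2 * K ≤ 2 * 18 ^ D * K ^ 4 * (Real.logb 2 N + 2) := by
    have a1 : K ≤ 18 ^ D * K ^ 4 := k1.trans (le_mul_of_one_le_left (by positivity) k0)
    nlinarith
  have g := h.mono hN0 hH0 hK0 (le_trans (by linarith) k2)
  have hL' : E'.image Prod.fst ⊆ c.L := fun i hi => by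
    obtain ⟨ω, hω, rfl⟩ := mem_image.1 hi
    exact hL ω (hE hω)
  refine ⟨E'.image Prod.fst, E', hE, ⟨fun ω hω => mem_product.2 ⟨mem_image_of_mem _ hω,
    (mem_product.1 (h.sub (hE hω))).2⟩, hnL, fun i hi => h.bx i (hL' hi),
    fun i hi => h.be i (hL' hi), h.bz, g.hts, fun p r hr => le_trans (Nat.cast_le.2
      (card_le_card (filter_subset_filter _ hL'))) (g.dirs p r hr), le_trans ?_ h1⟩,
    fun p r hr hr1 => ?_⟩
  · show c.nL * H / _ ≤ _
    calc c.nL * H / (2 * 18 ^ D * K ^ 4 * (Real.logb 2 N + 2)) ≤ c.nL * H / (2 * K) := by gcongr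
      _ = c.nL * H / K / 2 := by ring
      _ ≤ _ := by gcongr; exact h.mass
  have r0 : 0 < r := lt_of_lt_of_le (by positivity) hr
  obtain ⟨j, j1, j2⟩ := exists_nat_pow_near ((one_le_div r0).2 hr1) one_lt_two
  have j3 : j ∈ range (n + 1) := mem_range.2 ((pow_lt_pow_iff_right₀ one_lt_two).1
    (j1.trans_lt (((one_div_le r0 hN0).2 hr).trans_lt n2)))
  have h3 := h2 j j3
  obtain ⟨ρ, hρ⟩ : ∃ ρ : ℝ, ρ = 1 / 2 ^ j := ⟨_, rfl⟩
  rw [← hρ, card_range] at h3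
  have ρ1 : r ≤ ρ := hρ ▸ (le_one_div r0 (by positivity)).2 j1
  have ρ2 : ρ ≤ 2 * r := by
    rw [hρ, div_le_iff₀ (by positivity)]
    rw [div_lt_iff₀ r0, pow_succ] at j2
    linarith
  refine (st_Zoom h hH hK0 hE hr r0 ρ1 ρ2 (by positivity) h3 p).trans ?_
  gcongr
  push_cast
  linarith

end Vale.Agent.P127
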